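import Vale.Agent.P088.R2.H942.Near5

/-!
# P088, stage 3: the certificate between the diagonal and the far zone, main theorem
-/

noncomputable section

namespace Vale.Agent.P088.R2.H942.Iso.Near

set_option linter.unusedSectionVars false

open Vale.Agent.P088.R2.H230.W (dd dd_comm dd_add_left dd_add_right dd_sub_left dd_sub_right
  dd_smul_left dd_smul_right dd_self_nonneg dd_cs TT Hm)
open Set

universe u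

/-- **The certificate for `c0 ≤ s ≤ r1`** (`s = r/2`), format of `H230.W.far_cert2`.
`L = χ'/χ = Lp θ s`, `k = k/(4g) = L/r`, `m = 1/(4g) = -L'`. -/
theorem near_cert {θ c0 r1 : ℝ} (hθ : 0 < θ) (hθ2 : 1 / 2 ≤ θ ^ 2) (hc0 : 0 < c0) :
    ∃ μ > 0, ∃ ε > 0, ∃ C > 0, ∀ (ι : Type u) [Fintype ι] (s : ℝ), s ∈ Icc c0 r1 →
      ∀ (e h : ι → ℝ), dd e e = 1 → dd h h = 1 → ∀ (ν₁ l₁ ν₂ l₂ : ℝ), 0 ≤ ν₁ → 0 ≤ l₁ → 0 ≤ ν₂ →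
      0 ≤ l₂ → l₁ ≤ 2 * Lp θ s * (1 + ε) * ν₁ → l₂ ≤ 2 * Lp θ s * (1 + ε) * ν₂ →
      0 < ν₁ ^ 2 + l₁ ^ 2 + 2 * dd e h * ν₁ * l₁ → 0 < ν₂ ^ 2 + l₂ ^ 2 - 2 * dd e h * ν₂ * l₂ →
      dd (nf1 θ s e h ν₁ l₁) (nf1 θ s e h ν₁ l₁) * dd (ν₁ • e + l₁ • h) (ν₁ • e + l₁ • h) ≤ C ∧
      dd (nf2 θ s e h ν₂ l₂) (nf2 θ s e h ν₂ l₂) * dd (ν₂ • e - l₂ • h) (ν₂ • e - l₂ • h) ≤ C ∧
      ∀ (φx φy : ι → ℝ) (k m : ℝ),
      dd (φx - ((1 / 2 : ℝ) • e + Lp θ s • h)) (φx - ((1 / 2 : ℝ) • e + Lp θ s • h)) ≤ ε ^ 2 →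
      dd (φy - ((1 / 2 : ℝ) • e - Lp θ s • h)) (φy - ((1 / 2 : ℝ) • e - Lp θ s • h)) ≤ ε ^ 2 →
      kp θ s / (4 * gp θ s) - ε ≤ k → m ≤ 1 / (4 * gp θ s) + ε → ∀ U V : ι → ℝ,
      μ * (dd U U + dd V V) ≤ (dd φx U + dd φy V) ^ 2
        + k * (dd (U - V) (U - V) - dd h (U - V) ^ 2) - m * dd h (U - V) ^ 2
        + (TT (nf1 θ s e h ν₁ l₁) (ν₁ • e + l₁ • h) U
        + TT (nf2 θ s e h ν₂ l₂) (ν₂ • e - l₂ • h) V) := by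
  obtain ⟨μ, hμ, hμ'⟩ := lb_mu (r1 := r1) hθ hθ2 hc0
  obtain ⟨ε1, hε1, hε1'⟩ := lb_eps (r1 := r1) hθ hθ2 hc0
  obtain ⟨CL, hCL, hCL'⟩ := ub_L (r1 := r1) hθ hθ2 hc0
  obtain ⟨C1, hC1, hC1'⟩ := ub_1 (r1 := r1) hθ hθ2 hc0
  obtain ⟨C2, hC2, hC2'⟩ := ub_2 (r1 := r1) hθ hθ2 hc0
  obtain ⟨ε, hε, hεa, hεb⟩ : ∃ ε > 0, ε ≤ ε1 ∧ ε ≤ μ / (2 * (4 + 4 * CL)) :=
    ⟨min ε1 (μ / (2 * (4 + 4 * CL))), lt_min hε1 (by positivity), min_le_left _ _,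
      min_le_right _ _⟩
  refine ⟨μ / 2, by positivity, ε, hε, max C1 C2, lt_max_of_lt_left hC1, ?_⟩
  intro ι _ s hs e h he hh ν₁ l₁ ν₂ l₂ hν1 hl1 hν2 hl2 hll1 hll2 hD1 hD2
  have hγ : dd e h ∈ Icc (-1 : ℝ) 1 := by
    have := dd_cs e h; rw [he, hh] at this
    exact abs_le.1 (abs_le_of_sq_le_sq (by linarith) (by norm_num))
  have hx : (s, dd e h) ∈ KK c0 r1 := ⟨hs, hγ⟩
  have hs0 : 0 < s := lt_of_lt_of_le hc0 hs.1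
  have hrad := KK_rad hθ hθ2 hc0 hx
  have hbc := sq_bc (s := s) hγ
  have hg := hrad.g_pos
  have hL0 : 0 ≤ Lp θ s := by
    have hk : 0 < kp θ s := by linarith [hrad.k_gt]
    unfold Lp; positivity
  have b1 := hC1' (s, dd e h) hx
  have b2 := hC2' (s, dd e h) hx
  have b3 := hε1' (s, dd e h) hx
  have b4 := hμ' (s, dd e h) hx
  have b5 := hCL' (s, dd e h) hx
  dsimp only at b1 b2 b3 b4 b5 hrad hg
  clear hC1' hC2' hε1' hμ' hCL'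
  refine ⟨(nf1_bd he hh hD1 b1).trans (le_max_left _ _),
    (nf2_bd he hh hD2 b2).trans (le_max_right _ _), ?_⟩
  intro φx φy k m hφx hφy hk' hm' U V
  have hμε : ε * (4 + 4 * Lp θ s) ≤ μ / 2 := by
        calc ε * (4 + 4 * Lp θ s) ≤ μ / (2 * (4 + 4 * CL)) * (4 + 4 * CL) :=
          mul_le_mul hεb (by linarith) (by positivity) (by positivity)
      _ = μ / 2 := by field_simp
  have w3 := w3_mono hs0 hrad hbc hεa b3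
  have main := near_exact hθ hθ2 hs0 he hh hν1 hl1 hν2 hl2 hε.le hll1 hll2 hD1 hD2 w3 b4 U V
  exact perturb he hh hL0 hε.le hφx hφy hk' hm' hμε U V main

end Vale.Agent.P088.R2.H942.Iso.Near
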