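import Vale.Agent.P088.R2.H942.Near4

/-!
# P088, stage 3: the certificate between the diagonal and the far zone, main theorem
-/

noncomputable section

namespace Vale.Agent.P088.R2.H942.Iso.Near

set_option linter.unusedSectionVars false

open Vale.Agent.P088.R2.H230.W (dd dd_comm dd_add_left dd_add_right dd_sub_left dd_sub_right
  dd_smul_left dd_smul_right dd_self_nonneg dd_cs TT Hm)
open Set

section funs

variable {θ c0 r1 : ℝ} (hθ : 0 < θ) (hθ2 : 1 / 2 ≤ θ ^ 2) (hc0 : 0 < c0)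

/-- the compact set of parameters -/
def KK (c0 r1 : ℝ) : Set (ℝ × ℝ) := Icc c0 r1 ×ˢ Icc (-1) 1

lemma KK_compact : IsCompact (KK c0 r1) := isCompact_Icc.prod isCompact_Icc

include hc0 in
lemma KK_pos {x : ℝ × ℝ} (hx : x ∈ KK c0 r1) : 0 < x.1 := lt_of_lt_of_le hc0 hx.1.1

include hθ hθ2 hc0 in
lemma KK_rad {x : ℝ × ℝ} (hx : x ∈ KK c0 r1) :
    Rad2 (gp θ x.1) (kp θ x.1) (zp θ x.1) ((x.1 * x.2) ^ 2 + (x.1 * √(1 - x.2 ^ 2)) ^ 2) := by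
  rw [← sq_bc hx.2]
  exact rad2_cosh hθ hθ2 (KK_pos hc0 hx)

lemma c_g : ContinuousOn (fun x : ℝ × ℝ => gp θ x.1) (KK c0 r1) := by
  unfold gp; fun_prop

include hθ hc0 in
lemma c_k : ContinuousOn (fun x : ℝ × ℝ => kp θ x.1) (KK c0 r1) := by
  unfold kp
  apply ContinuousOn.div (by fun_prop) (by fun_prop)
  intro x hx
  exact (mul_pos hθ (KK_pos hc0 hx)).ne'

include hθ hc0 in
lemma c_z : ContinuousOn (fun x : ℝ × ℝ => zp θ x.1) (KK c0 r1) := by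
  unfold zp
  have := c_k hθ hc0 (r1 := r1)
  apply ContinuousOn.div (by fun_prop) (by fun_prop)
  intro x hx
  exact (pow_pos (KK_pos hc0 hx) 2).ne'

lemma c_b : ContinuousOn (fun x : ℝ × ℝ => x.1 * x.2) (KK c0 r1) := by fun_prop
lemma c_c : ContinuousOn (fun x : ℝ × ℝ => x.1 * √(1 - x.2 ^ 2)) (KK c0 r1) := by fun_prop
lemma c_s : ContinuousOn (fun x : ℝ × ℝ => x.1) (KK c0 r1) := by fun_prop

include hθ hθ2 hc0 in
/-- margin -/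
lemma lb_mu : ∃ μ > 0, ∀ x ∈ KK c0 r1, μ ≤
    min (muI (gp θ x.1) (kp θ x.1) (zp θ x.1) (x.1 * x.2) (x.1 * √(1 - x.2 ^ 2)) x.1)
      (muO (gp θ x.1) (kp θ x.1) (zp θ x.1) (x.1 * x.2) (x.1 * √(1 - x.2 ^ 2)) x.1)
      / (4 * gp θ x.1) := by
  have hg := c_g (θ := θ) (c0 := c0) (r1 := r1)
  have hk := c_k hθ hc0 (r1 := r1)
  have hz := c_z hθ hc0 (r1 := r1)
  have hb := c_b (c0 := c0) (r1 := r1)
  have hc := c_c (c0 := c0) (r1 := r1)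
  have hs := c_s (c0 := c0) (r1 := r1)
  have k1 := cdp hg hk hz hb hc
  have k2 := cdm hg hk hz hb hc
  have k3 := cSg hg hk hz hb hc
  have k4 := cMM hg hk hz hb hc hs
  have k5 := cDL hg hk hz hb hs (fun x hx => (KK_pos hc0 hx).ne')
  apply exists_lb KK_compact
  · apply ContinuousOn.div _ (by fun_prop)
    · intro x hx
      have := (KK_rad hθ hθ2 hc0 hx).g_pos
      positivity
    · apply ContinuousOn.inf
      · unfold muI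
        apply ContinuousOn.div (by fun_prop) ((k1.mul k2).mul k3)
        intro x hx
        have h := KK_rad hθ hθ2 hc0 hx
        exact (mul_pos (mul_pos h.dpos.2 h.dpos.1) h.Sg_pos).ne'
      · unfold muO
        apply ContinuousOn.div k5 ((continuousOn_const.mul k4).mul k3)
        intro x hx
        have h := KK_rad hθ hθ2 hc0 hx
        exact (mul_pos (mul_pos (by norm_num) (MM_pos h (KK_pos hc0 hx) (sq_bc hx.2)))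
          h.Sg_pos).ne'
  · intro x hx
    have h := KK_rad hθ hθ2 hc0 hx
    have h1 := muI_pos h (KK_pos hc0 hx) (sq_bc hx.2)
    have h2 := muO_pos h (KK_pos hc0 hx) (sq_bc hx.2)
    have h3 := h.g_pos
    exact div_pos (lt_min h1 h2) (by positivity)

include hθ hθ2 hc0 in
/-- tolerance -/
lemma lb_eps : ∃ ε > 0, ∀ x ∈ KK c0 r1,
    8 * kp θ x.1 ^ 2 * x.1 * ε
      * (m0 (gp θ x.1) (kp θ x.1) (zp θ x.1) (x.1 * x.2) (x.1 * √(1 - x.2 ^ 2)) ^ 2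
        + (kp θ x.1 ^ 2 * (dp (gp θ x.1) (kp θ x.1) (zp θ x.1) (x.1 * x.2) (x.1 * √(1 - x.2 ^ 2))
          * dm (gp θ x.1) (kp θ x.1) (zp θ x.1) (x.1 * x.2) (x.1 * √(1 - x.2 ^ 2)))
          + DL (gp θ x.1) (kp θ x.1) (zp θ x.1) (x.1 * x.2) x.1))
      ≤ m0 (gp θ x.1) (kp θ x.1) (zp θ x.1) (x.1 * x.2) (x.1 * √(1 - x.2 ^ 2))
        * DL (gp θ x.1) (kp θ x.1) (zp θ x.1) (x.1 * x.2) x.1 / 2 := by
  have hg := c_g (θ := θ) (c0 := c0) (r1 := r1)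
  have hk := c_k hθ hc0 (r1 := r1)
  have hz := c_z hθ hc0 (r1 := r1)
  have hb := c_b (c0 := c0) (r1 := r1)
  have hc := c_c (c0 := c0) (r1 := r1)
  have hs := c_s (c0 := c0) (r1 := r1)
  have k1 := cdp hg hk hz hb hc
  have k2 := cdm hg hk hz hb hc
  have k3 := cm0 hg hk hz hb hc
  have k5 := cDL hg hk hz hb hs (fun x hx => (KK_pos hc0 hx).ne')
  have kn : ContinuousOn (fun x : ℝ × ℝ =>
      m0 (gp θ x.1) (kp θ x.1) (zp θ x.1) (x.1 * x.2) (x.1 * √(1 - x.2 ^ 2))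
        * DL (gp θ x.1) (kp θ x.1) (zp θ x.1) (x.1 * x.2) x.1 / 2) (KK c0 r1) :=
    (k3.mul k5).div_const 2
  have kd : ContinuousOn (fun x : ℝ × ℝ => 8 * kp θ x.1 ^ 2 * x.1
      * (m0 (gp θ x.1) (kp θ x.1) (zp θ x.1) (x.1 * x.2) (x.1 * √(1 - x.2 ^ 2)) ^ 2
        + (kp θ x.1 ^ 2 * (dp (gp θ x.1) (kp θ x.1) (zp θ x.1) (x.1 * x.2) (x.1 * √(1 - x.2 ^ 2))
          * dm (gp θ x.1) (kp θ x.1) (zp θ x.1) (x.1 * x.2) (x.1 * √(1 - x.2 ^ 2)))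
          + DL (gp θ x.1) (kp θ x.1) (zp θ x.1) (x.1 * x.2) x.1))) (KK c0 r1) :=
    ((continuousOn_const.mul (hk.pow 2)).mul hs).mul
      ((k3.pow 2).add (((hk.pow 2).mul (k1.mul k2)).add k5))
  obtain ⟨a, ha, ha'⟩ := exists_lb KK_compact kn (by
    intro x hx
    have h := KK_rad hθ hθ2 hc0 hx
    have h1 := DL_pos h (KK_pos hc0 hx) (sq_bc hx.2)
    have h2 := h.m0_pos
    positivity)
  obtain ⟨C, hC, hC'⟩ := exists_ub KK_compact kd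
  refine ⟨a / C, div_pos ha hC, fun x hx => ?_⟩
  refine le_trans ?_ (ha' x hx)
  have h1 := hC' x hx
  have h2 := mul_le_mul_of_nonneg_left h1 (div_pos ha hC).le
  rw [div_mul_cancel₀ _ hC.ne'] at h2
  refine le_trans (le_of_eq ?_) h2
  ring

include hθ hθ2 hc0 in
/-- upper bound of `L` -/
lemma ub_L : ∃ C > 0, ∀ x ∈ KK c0 r1, Lp θ x.1 ≤ C := by
  have hg := c_g (θ := θ) (c0 := c0) (r1 := r1)
  have hk := c_k hθ hc0 (r1 := r1)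
  have hs := c_s (c0 := c0) (r1 := r1)
  apply exists_ub KK_compact
  unfold Lp
  apply ContinuousOn.div (hk.mul hs) (continuousOn_const.mul hg)
  intro x hx
  have := (KK_rad hθ hθ2 hc0 hx).g_pos
  exact (mul_pos (by norm_num : (0:ℝ) < 2) this).ne'

include hθ hθ2 hc0 in
/-- upper bound of the fields, first -/
lemma ub_1 : ∃ C > 0, ∀ x ∈ KK c0 r1,
    ((4 * gp θ x.1)⁻¹ * (ar (gp θ x.1) (kp θ x.1) (zp θ x.1) (x.1 * x.2) (x.1 * √(1 - x.2 ^ 2))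
      / dm (gp θ x.1) (kp θ x.1) (zp θ x.1) (x.1 * x.2) (x.1 * √(1 - x.2 ^ 2)))) ^ 2
    + (1 - x.2 ^ 2) * ((4 * gp θ x.1)⁻¹ * (x.1 * (ai (gp θ x.1) (kp θ x.1) (zp θ x.1) (x.1 * x.2)
      / dm (gp θ x.1) (kp θ x.1) (zp θ x.1) (x.1 * x.2) (x.1 * √(1 - x.2 ^ 2))))) ^ 2 ≤ C := by
  have hg := c_g (θ := θ) (c0 := c0) (r1 := r1)
  have hk := c_k hθ hc0 (r1 := r1)
  have hz := c_z hθ hc0 (r1 := r1)
  have hb := c_b (c0 := c0) (r1 := r1)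
  have hc := c_c (c0 := c0) (r1 := r1)
  have hs := c_s (c0 := c0) (r1 := r1)
  have k2 := cdm hg hk hz hb hc
  have k3 := car hg hk hz hb hc
  have k4 := cai hg hk hz hb
  have hd : ∀ x ∈ KK c0 r1,
      dm (gp θ x.1) (kp θ x.1) (zp θ x.1) (x.1 * x.2) (x.1 * √(1 - x.2 ^ 2)) ≠ 0 :=
    fun x hx => (KK_rad hθ hθ2 hc0 hx).dpos.1.ne'
  have hgi : ContinuousOn (fun x : ℝ × ℝ => (4 * gp θ x.1)⁻¹) (KK c0 r1) :=
    (continuousOn_const.mul hg).inv₀ (fun x hx =>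
      (mul_pos (by norm_num : (0:ℝ) < 4) (KK_rad hθ hθ2 hc0 hx).g_pos).ne')
  apply exists_ub KK_compact
  exact ((hgi.mul (k3.div k2 hd)).pow 2).add
    ((by fun_prop : ContinuousOn (fun x : ℝ × ℝ => 1 - x.2 ^ 2) (KK c0 r1)).mul
      ((hgi.mul (hs.mul (k4.div k2 hd))).pow 2))

include hθ hθ2 hc0 in
lemma ub_2 : ∃ C > 0, ∀ x ∈ KK c0 r1,
    ((4 * gp θ x.1)⁻¹ * (br (gp θ x.1) (kp θ x.1) (zp θ x.1) (x.1 * x.2) (x.1 * √(1 - x.2 ^ 2))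
      / dp (gp θ x.1) (kp θ x.1) (zp θ x.1) (x.1 * x.2) (x.1 * √(1 - x.2 ^ 2)))) ^ 2
    + (1 - x.2 ^ 2) * ((4 * gp θ x.1)⁻¹ * (x.1 * (bi (gp θ x.1) (kp θ x.1) (zp θ x.1) (x.1 * x.2)
      / dp (gp θ x.1) (kp θ x.1) (zp θ x.1) (x.1 * x.2) (x.1 * √(1 - x.2 ^ 2))))) ^ 2 ≤ C := by
  have hg := c_g (θ := θ) (c0 := c0) (r1 := r1)
  have hk := c_k hθ hc0 (r1 := r1)
  have hz := c_z hθ hc0 (r1 := r1)
  have hb := c_b (c0 := c0) (r1 := r1)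
  have hc := c_c (c0 := c0) (r1 := r1)
  have hs := c_s (c0 := c0) (r1 := r1)
  have k2 := cdp hg hk hz hb hc
  have k3 := cbr hg hk hz hb hc
  have k4 := cbi hg hk hz hb
  have hd : ∀ x ∈ KK c0 r1,
      dp (gp θ x.1) (kp θ x.1) (zp θ x.1) (x.1 * x.2) (x.1 * √(1 - x.2 ^ 2)) ≠ 0 :=
    fun x hx => (KK_rad hθ hθ2 hc0 hx).dpos.2.ne'
  have hgi : ContinuousOn (fun x : ℝ × ℝ => (4 * gp θ x.1)⁻¹) (KK c0 r1) :=
    (continuousOn_const.mul hg).inv₀ (fun x hx =>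
      (mul_pos (by norm_num : (0:ℝ) < 4) (KK_rad hθ hθ2 hc0 hx).g_pos).ne')
  apply exists_ub KK_compact
  exact ((hgi.mul (k3.div k2 hd)).pow 2).add
    ((by fun_prop : ContinuousOn (fun x : ℝ × ℝ => 1 - x.2 ^ 2) (KK c0 r1)).mul
      ((hgi.mul (hs.mul (k4.div k2 hd))).pow 2))

end funs

universe u

/-- exact profile values, normalised, `w3` = tolerance condition -/
lemma near_exact {θ : ℝ} (hθ : 0 < θ) (hθ2 : 1 / 2 ≤ θ ^ 2) {ι : Type u} [Fintype ι] {s : ℝ}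
    (hs : 0 < s) {e h : ι → ℝ} (he : dd e e = 1) (hh : dd h h = 1) {ν₁ l₁ ν₂ l₂ ε μ : ℝ}
    (hν1 : 0 ≤ ν₁) (hl1 : 0 ≤ l₁) (hν2 : 0 ≤ ν₂) (hl2 : 0 ≤ l₂) (hε : 0 ≤ ε)
    (hll1 : l₁ ≤ 2 * Lp θ s * (1 + ε) * ν₁) (hll2 : l₂ ≤ 2 * Lp θ s * (1 + ε) * ν₂)
    (hD1 : 0 < ν₁ ^ 2 + l₁ ^ 2 + 2 * dd e h * ν₁ * l₁)
    (hD2 : 0 < ν₂ ^ 2 + l₂ ^ 2 - 2 * dd e h * ν₂ * l₂)
    (w3 : 8 * kp θ s ^ 2 * s * ε
      * (m0 (gp θ s) (kp θ s) (zp θ s) (s * dd e h) (s * √(1 - dd e h ^ 2)) ^ 2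
        + (kp θ s ^ 2 * (dp (gp θ s) (kp θ s) (zp θ s) (s * dd e h) (s * √(1 - dd e h ^ 2))
          * dm (gp θ s) (kp θ s) (zp θ s) (s * dd e h) (s * √(1 - dd e h ^ 2)))
          + DL (gp θ s) (kp θ s) (zp θ s) (s * dd e h) s))
      ≤ m0 (gp θ s) (kp θ s) (zp θ s) (s * dd e h) (s * √(1 - dd e h ^ 2))
        * DL (gp θ s) (kp θ s) (zp θ s) (s * dd e h) s / 2)
    (hmu : μ ≤ min (muI (gp θ s) (kp θ s) (zp θ s) (s * dd e h) (s * √(1 - dd e h ^ 2)) s)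
      (muO (gp θ s) (kp θ s) (zp θ s) (s * dd e h) (s * √(1 - dd e h ^ 2)) s) / (4 * gp θ s))
    (U V : ι → ℝ) :
    μ * (dd U U + dd V V) ≤ Hm e h (Lp θ s) (kp θ s / (4 * gp θ s)) (1 / (4 * gp θ s)) U V
      + (TT (nf1 θ s e h ν₁ l₁) (ν₁ • e + l₁ • h) U
        + TT (nf2 θ s e h ν₂ l₂) (ν₂ • e - l₂ • h) V) := by
  have hγ : dd e h ∈ Icc (-1 : ℝ) 1 := by
    have := dd_cs e h; rw [he, hh] at this
    exact abs_le.1 (abs_le_of_sq_le_sq (by linarith) (by norm_num))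
  have hbc := sq_bc (s := s) hγ
  have hrad : Rad2 (gp θ s) (kp θ s) (zp θ s) ((s * dd e h) ^ 2 + (s * √(1 - dd e h ^ 2)) ^ 2) := by
    rw [← hbc]; exact rad2_cosh hθ hθ2 hs
  have hg := hrad.g_pos
  have hk : 0 < kp θ s := by linarith [hrad.k_gt]
  have hrel := hrad.rel
  rw [← hbc] at hrel
  have hLp : Lp θ s = kp θ s * s / (2 * gp θ s) := rfl
  have e2 : ν₂ • e - l₂ • h = ν₂ • e + (-l₂) • h := by rw [neg_smul, sub_eq_add_neg]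
  have q1 : ν₁ ^ 2 + l₁ ^ 2 + 2 * dd e h * ν₁ * l₁
      = D1 (kp θ s) (s * dd e h) (s * √(1 - dd e h ^ 2)) ν₁ (l₁ / (kp θ s * s)) := by
    unfold D1; rw [← hbc]; field_simp; ring
  have q2 : ν₂ ^ 2 + l₂ ^ 2 - 2 * dd e h * ν₂ * l₂
      = D1 (kp θ s) (-(s * dd e h)) (s * √(1 - dd e h ^ 2)) ν₂ (l₂ / (kp θ s * s)) := by
    unfold D1; rw [neg_sq, ← hbc]; field_simp; ring
  have w1 : l₁ / (kp θ s * s) * gp θ s ≤ (1 + ε) * ν₁ := by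
    rw [hLp] at hll1
    rw [div_mul_eq_mul_div, div_le_iff₀ (by positivity)]
    have := mul_le_mul_of_nonneg_right hll1 hg.le
    refine this.trans (le_of_eq ?_)
    field_simp
  have w2 : l₂ / (kp θ s * s) * gp θ s ≤ (1 + ε) * ν₂ := by
    rw [hLp] at hll2
    rw [div_mul_eq_mul_div, div_le_iff₀ (by positivity)]
    have := mul_le_mul_of_nonneg_right hll2 hg.le
    refine this.trans (le_of_eq ?_)
    field_simp
  have main := vec_low hrad hs hbc he hh rfl hν1 (div_nonneg hl1 (by positivity)) hν2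
    (div_nonneg hl2 (by positivity)) hε w1 w2 w3 (by rw [← q1]; exact hD1)
    (by rw [← q2]; exact hD2) U V
  have r1' : l₁ / (kp θ s * s) * kp θ s * s = l₁ := by field_simp
  have r2' : l₂ / (kp θ s * s) * kp θ s * s = l₂ := by field_simp
  rw [r1', r2', HH_eq hg hrel, ← hLp] at main
  have hN : 0 ≤ dd U U + dd V V := add_nonneg (dd_self_nonneg _) (dd_self_nonneg _)
  have hmu2 := mul_le_mul_of_nonneg_right hmu hN
  refine hmu2.trans ?_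
  rw [div_mul_eq_mul_div, div_le_iff₀ (by positivity)]
  refine main.trans (le_of_eq ?_)
  unfold nf1 nf2
  rw [lee_smul, lee_smul, TT_smul_left, TT_smul_left, e2]
  have hg' : gp θ s ≠ 0 := hg.ne'
  generalize TT (lee e h ν₁ l₁ _ _) _ U = T1
  generalize TT (lee e h ν₂ (-l₂) _ _) _ V = T2
  generalize Hm e h _ _ _ U V = H
  field_simp
  ring

lemma nf1_bd {θ : ℝ} {ι : Type u} [Fintype ι] {s : ℝ} {e h : ι → ℝ} (he : dd e e = 1)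
    (hh : dd h h = 1) {ν₁ l₁ C : ℝ} (hD1 : 0 < ν₁ ^ 2 + l₁ ^ 2 + 2 * dd e h * ν₁ * l₁)
    (hC : ((4 * gp θ s)⁻¹ * (ar (gp θ s) (kp θ s) (zp θ s) (s * dd e h) (s * √(1 - dd e h ^ 2))
      / dm (gp θ s) (kp θ s) (zp θ s) (s * dd e h) (s * √(1 - dd e h ^ 2)))) ^ 2
    + (1 - dd e h ^ 2) * ((4 * gp θ s)⁻¹ * (s * (ai (gp θ s) (kp θ s) (zp θ s) (s * dd e h)
      / dm (gp θ s) (kp θ s) (zp θ s) (s * dd e h) (s * √(1 - dd e h ^ 2))))) ^ 2 ≤ C) :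
    dd (nf1 θ s e h ν₁ l₁) (nf1 θ s e h ν₁ l₁)
      * dd (ν₁ • e + l₁ • h) (ν₁ • e + l₁ • h) ≤ C := by
  unfold nf1
  rw [lee_sq he hh _ _ _ _ hD1.ne']
  exact hC

lemma nf2_bd {θ : ℝ} {ι : Type u} [Fintype ι] {s : ℝ} {e h : ι → ℝ} (he : dd e e = 1)
    (hh : dd h h = 1) {ν₂ l₂ C : ℝ} (hD2 : 0 < ν₂ ^ 2 + l₂ ^ 2 - 2 * dd e h * ν₂ * l₂)
    (hC : ((4 * gp θ s)⁻¹ * (br (gp θ s) (kp θ s) (zp θ s) (s * dd e h) (s * √(1 - dd e h ^ 2))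
      / dp (gp θ s) (kp θ s) (zp θ s) (s * dd e h) (s * √(1 - dd e h ^ 2)))) ^ 2
    + (1 - dd e h ^ 2) * ((4 * gp θ s)⁻¹ * (s * (bi (gp θ s) (kp θ s) (zp θ s) (s * dd e h)
      / dp (gp θ s) (kp θ s) (zp θ s) (s * dd e h) (s * √(1 - dd e h ^ 2))))) ^ 2 ≤ C) :
    dd (nf2 θ s e h ν₂ l₂) (nf2 θ s e h ν₂ l₂)
      * dd (ν₂ • e - l₂ • h) (ν₂ • e - l₂ • h) ≤ C := by
  have e2 : ν₂ • e - l₂ • h = ν₂ • e + (-l₂) • h := by rw [neg_smul, sub_eq_add_neg]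
  have hD2' : ν₂ ^ 2 + (-l₂) ^ 2 + 2 * dd e h * ν₂ * (-l₂) ≠ 0 := by
    have : ν₂ ^ 2 + (-l₂) ^ 2 + 2 * dd e h * ν₂ * (-l₂) = ν₂ ^ 2 + l₂ ^ 2 - 2 * dd e h * ν₂ * l₂ := by
      ring
    rw [this]; exact hD2.ne'
  unfold nf2
  rw [e2, lee_sq he hh _ _ _ _ hD2']
  exact hC

lemma w3_mono {θ s γ ε ε1 : ℝ} (hs : 0 < s)
    (hrad : Rad2 (gp θ s) (kp θ s) (zp θ s) ((s * γ) ^ 2 + (s * √(1 - γ ^ 2)) ^ 2))
    (hbc : s ^ 2 = (s * γ) ^ 2 + (s * √(1 - γ ^ 2)) ^ 2) (hε : ε ≤ ε1) {R : ℝ}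
    (h : 8 * kp θ s ^ 2 * s * ε1
      * (m0 (gp θ s) (kp θ s) (zp θ s) (s * γ) (s * √(1 - γ ^ 2)) ^ 2
        + (kp θ s ^ 2 * (dp (gp θ s) (kp θ s) (zp θ s) (s * γ) (s * √(1 - γ ^ 2))
          * dm (gp θ s) (kp θ s) (zp θ s) (s * γ) (s * √(1 - γ ^ 2)))
          + DL (gp θ s) (kp θ s) (zp θ s) (s * γ) s)) ≤ R) :
    8 * kp θ s ^ 2 * s * ε
      * (m0 (gp θ s) (kp θ s) (zp θ s) (s * γ) (s * √(1 - γ ^ 2)) ^ 2
        + (kp θ s ^ 2 * (dp (gp θ s) (kp θ s) (zp θ s) (s * γ) (s * √(1 - γ ^ 2))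
          * dm (gp θ s) (kp θ s) (zp θ s) (s * γ) (s * √(1 - γ ^ 2)))
          + DL (gp θ s) (kp θ s) (zp θ s) (s * γ) s)) ≤ R := by
  refine le_trans ?_ h
  have h2 := DL_pos hrad hs hbc
  have h3 := hrad.dpos.1
  have h4 := hrad.dpos.2
  gcongr

end Vale.Agent.P088.R2.H942.Iso.Near
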