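import Mathlib

/-!
# P088, stage 3: the off-diagonal certificate

Weight `W = 2 nu a + e^{2a} G`, `a = (x_0 + y_0)/2`, `G = (R(b) - 2 + |q'|^2)/2`,
`b = x_0 - y_0`, `q' = x' - y'`; everything in units `e^{2a} = 1`.
`P = R'(b)`, `T = R''(b)`.
-/

namespace Vale.Agent.P088.R2.H942

/-- `|w|^2 + Re (z w^2) ≥ 0` for `|z| ≤ 1`. -/
lemma disc_nonneg {zr zi : ℝ} (hz : zr ^ 2 + zi ^ 2 ≤ 1) (a b : ℝ) :
    0 ≤ a ^ 2 + b ^ 2 + (zr * (a ^ 2 - b ^ 2) - 2 * zi * a * b) := by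
  have h1 : -1 ≤ zr := by nlinarith [sq_nonneg zi]
  have h2 : zr ≤ 1 := by nlinarith [sq_nonneg zi]
  rcases eq_or_lt_of_le h1 with h | h
  · have hzi : zi = 0 := by nlinarith [sq_nonneg zi]
    rw [← h, hzi]; nlinarith [sq_nonneg b]
  · have hpos : 0 < 1 + zr := by linarith
    have key : (1 + zr) * (a ^ 2 + b ^ 2 + (zr * (a ^ 2 - b ^ 2) - 2 * zi * a * b))
        = ((1 + zr) * a - zi * b) ^ 2 + (1 - zr ^ 2 - zi ^ 2) * b ^ 2 := by ring
    have : 0 ≤ (1 + zr) * (a ^ 2 + b ^ 2 + (zr * (a ^ 2 - b ^ 2) - 2 * zi * a * b)) := by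
      rw [key]; have : 0 ≤ 1 - zr ^ 2 - zi ^ 2 := by linarith
      positivity
    exact nonneg_of_mul_nonneg_right this hpos

/-- The product completion is positive semidefinite. -/
lemma prod_nonneg {r zr zi : ℝ} (hr : r ^ 2 ≤ 1) (hz : zr ^ 2 + zi ^ 2 ≤ 1)
    (u0 u1 v0 v1 : ℝ) :
    0 ≤ (u0 ^ 2 + u1 ^ 2) + (v0 ^ 2 + v1 ^ 2)
      + 2 * (zr * (u0 * v0 + u1 * v1) - zi * (u1 * v0 - u0 * v1))
      + r * ((zr * (u0 ^ 2 - u1 ^ 2) - 2 * zi * u0 * u1) + 2 * (u0 * v0 - u1 * v1)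
        + (zr * (v0 ^ 2 - v1 ^ 2) + 2 * zi * v0 * v1)) := by
  have h1 : -1 ≤ r := by nlinarith
  have h2 : r ≤ 1 := by nlinarith
  have hp := disc_nonneg hz (u0 + v0) (u1 - v1)
  have hz' : (-zr) ^ 2 + (-zi) ^ 2 ≤ 1 := by nlinarith
  have hm := disc_nonneg hz' (u0 - v0) (u1 + v1)
  have e : (u0 ^ 2 + u1 ^ 2) + (v0 ^ 2 + v1 ^ 2)
      + 2 * (zr * (u0 * v0 + u1 * v1) - zi * (u1 * v0 - u0 * v1))
      + r * ((zr * (u0 ^ 2 - u1 ^ 2) - 2 * zi * u0 * u1) + 2 * (u0 * v0 - u1 * v1)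
        + (zr * (v0 ^ 2 - v1 ^ 2) + 2 * zi * v0 * v1))
      = (1 + r) / 2 * ((u0 + v0) ^ 2 + (u1 - v1) ^ 2
          + (zr * ((u0 + v0) ^ 2 - (u1 - v1) ^ 2) - 2 * zi * (u0 + v0) * (u1 - v1)))
        + (1 - r) / 2 * ((u0 - v0) ^ 2 + (u1 + v1) ^ 2
          + (-zr * ((u0 - v0) ^ 2 - (u1 + v1) ^ 2) - 2 * (-zi) * (u0 - v0) * (u1 + v1))) := by
    ring
  rw [e]
  have a1 : 0 ≤ (1 + r) / 2 := by linarith
  have a2 : 0 ≤ (1 - r) / 2 := by linarith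
  exact add_nonneg (mul_nonneg a1 hp) (mul_nonneg a2 hm)


/-- In-plane form with diagonal entries `dp = D_+`, `dm = D_-` (both positive). -/
lemma plane_nonneg {dp dm p zr zi : ℝ} (hdp : 0 < dp) (hdm : 0 < dm)
    (hp : p ^ 2 ≤ dp * dm) (hz : zr ^ 2 + zi ^ 2 ≤ dp * dm) (U0 U1 V0 V1 : ℝ) :
    0 ≤ dp * (U0 ^ 2 + U1 ^ 2) + dm * (V0 ^ 2 + V1 ^ 2)
      + 2 * (zr * (U0 * V0 + U1 * V1) - zi * (U1 * V0 - U0 * V1))
      + p * ((zr * (U0 ^ 2 - U1 ^ 2) - 2 * zi * U0 * U1) / dm + 2 * (U0 * V0 - U1 * V1)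
        + (zr * (V0 ^ 2 - V1 ^ 2) + 2 * zi * V0 * V1) / dp) := by
  obtain ⟨s, hs, hs2⟩ : ∃ s : ℝ, 0 < s ∧ s ^ 2 = dp := ⟨√dp, Real.sqrt_pos.2 hdp, Real.sq_sqrt hdp.le⟩
  obtain ⟨t, ht, ht2⟩ : ∃ t : ℝ, 0 < t ∧ t ^ 2 = dm := ⟨√dm, Real.sqrt_pos.2 hdm, Real.sq_sqrt hdm.le⟩
  subst hs2 ht2
  have hst : 0 < s * t := mul_pos hs ht
  have hst2 : 0 < (s * t) ^ 2 := by positivity
  have h1 : (p / (s * t)) ^ 2 ≤ 1 := by
    rw [div_pow, div_le_one hst2]; nlinarith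
  have h2 : (zr / (s * t)) ^ 2 + (zi / (s * t)) ^ 2 ≤ 1 := by
    rw [div_pow, div_pow, ← add_div, div_le_one hst2]; nlinarith
  have h := prod_nonneg h1 h2 (s * U0) (s * U1) (t * V0) (t * V1)
  have e : s ^ 2 * (U0 ^ 2 + U1 ^ 2) + t ^ 2 * (V0 ^ 2 + V1 ^ 2)
      + 2 * (zr * (U0 * V0 + U1 * V1) - zi * (U1 * V0 - U0 * V1))
      + p * ((zr * (U0 ^ 2 - U1 ^ 2) - 2 * zi * U0 * U1) / t ^ 2 + 2 * (U0 * V0 - U1 * V1)
        + (zr * (V0 ^ 2 - V1 ^ 2) + 2 * zi * V0 * V1) / s ^ 2)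
      = (s * U0) ^ 2 + (s * U1) ^ 2 + ((t * V0) ^ 2 + (t * V1) ^ 2)
      + 2 * (zr / (s * t) * (s * U0 * (t * V0) + s * U1 * (t * V1))
        - zi / (s * t) * (s * U1 * (t * V0) - s * U0 * (t * V1)))
      + p / (s * t) * ((zr / (s * t) * ((s * U0) ^ 2 - (s * U1) ^ 2)
          - 2 * (zi / (s * t)) * (s * U0) * (s * U1))
        + 2 * (s * U0 * (t * V0) - s * U1 * (t * V1))
        + (zr / (s * t) * ((t * V0) ^ 2 - (t * V1) ^ 2)
          + 2 * (zi / (s * t)) * (t * V0) * (t * V1))) := by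
    field_simp
  rw [e]; exact h

/-- Data of the one-variable profile at a point: `R, P = R', T = R''`. -/
structure Prof (R P T : ℝ) : Prop where
  two_le : 2 ≤ T
  le : T ≤ R
  c2 : P ^ 2 ≤ R * T
  c1 : P ^ 2 ≤ (R - 2) * (T + 2)

section scalars

variable {R P T c nu : ℝ}

/-- `2 X_0` and `2 Y_0` (vertical components of the gradient). -/
def xx (R P c nu : ℝ) : ℝ := 2 * nu + (R - 2 + c ^ 2) + P
def yy (R P c nu : ℝ) : ℝ := 2 * nu + (R - 2 + c ^ 2) - P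
def dm (R P T c : ℝ) : ℝ := (R + c ^ 2) - 2 * P + T
def dp (R P T c : ℝ) : ℝ := (R + c ^ 2) + 2 * P + T
def uu (R P T c : ℝ) : ℝ := (R + c ^ 2) * T - P ^ 2
def m0 (R P T c : ℝ) : ℝ := uu R P T c + (R + c ^ 2 - T)
noncomputable def a1r (R P T c : ℝ) : ℝ := (-uu R P T c + 2 * (T - P)) / dm R P T c
noncomputable def a1i (R P T c : ℝ) : ℝ := 2 * c * (T - P) / dm R P T c
noncomputable def a2r (R P T c : ℝ) : ℝ := (-uu R P T c + 2 * (T + P)) / dp R P T c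
noncomputable def a2i (R P T c : ℝ) : ℝ := -(2 * c * (T + P)) / dp R P T c

lemma Prof.uu_nonneg (h : Prof R P T) : 0 ≤ uu R P T c := by
  have := h.c2; have h2 := h.two_le; unfold uu; nlinarith [sq_nonneg c]

lemma Prof.uu_ge (h : Prof R P T) : 2 * c ^ 2 ≤ uu R P T c := by
  have := h.c2; have h2 := h.two_le; unfold uu; nlinarith [sq_nonneg c]

lemma dpdm (R P T c : ℝ) : dp R P T c * dm R P T c
    = (R + c ^ 2 - T) ^ 2 + 4 * uu R P T c := by unfold dp dm uu; ring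

lemma Prof.m0_pos (h : Prof R P T) (hd : 0 < dp R P T c * dm R P T c) : 0 < m0 R P T c := by
  have hu := h.uu_nonneg (c := c)
  have hle : 0 ≤ R + c ^ 2 - T := by have := h.le; nlinarith [sq_nonneg c]
  rw [dpdm] at hd
  unfold m0
  rcases eq_or_lt_of_le hu with h0 | h0
  · rcases eq_or_lt_of_le hle with h1 | h1
    · rw [← h0, ← h1] at hd; norm_num at hd
    · linarith
  · linarith

/-- the main scalar inequality (out of plane) -/
lemma Prof.key (h : Prof R P T) (hnu : 0 ≤ nu) :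
    (m0 R P T c ^ 2 - uu R P T c * ((R + c ^ 2 - 2) * (T + 2) - P ^ 2))
        * ((xx R P c nu ^ 2 + 4 * c ^ 2) * (yy R P c nu ^ 2 + 4 * c ^ 2))
      ≤ (m0 R P T c * (xx R P c nu ^ 2 + 4 * c ^ 2)
          + 8 * c ^ 2 * (2 * nu * (T - P) - P * (R + c ^ 2 - T)))
        * (m0 R P T c * (yy R P c nu ^ 2 + 4 * c ^ 2)
          + 8 * c ^ 2 * (2 * nu * (T + P) + P * (R + c ^ 2 - T))) := by
  have hu := h.uu_nonneg (c := c)
  have hu2 := h.uu_ge (c := c)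
  have hc := sq_nonneg c
  have h2 := h.two_le
  have hle : 0 ≤ R + c ^ 2 - T := by have := h.le; nlinarith [sq_nonneg c]
  have hm : 2 * c ^ 2 ≤ m0 R P T c := by unfold m0; linarith
  have hw : 0 ≤ (R + c ^ 2 - 2) * (T + 2) - P ^ 2 := by have := h.c1; nlinarith
  set M := m0 R P T c with hM
  set u := uu R P T c with hU
  set w := (R + c ^ 2 - 2) * (T + 2) - P ^ 2 with hW
  set s := 2 * nu + (R + c ^ 2 - T) with hs
  have hs0 : 0 ≤ s := by rw [hs]; linarith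
  set X2 := xx R P c nu ^ 2 + 4 * c ^ 2 with hX2
  set Y2 := yy R P c nu ^ 2 + 4 * c ^ 2 with hY2
  have hX0 : 0 ≤ X2 := by rw [hX2]; positivity
  have hY0 : 0 ≤ Y2 := by rw [hY2]; positivity
  have hdiff : (M * X2 + 8 * c ^ 2 * (2 * nu * (T - P) - P * (R + c ^ 2 - T)))
        * (M * Y2 + 8 * c ^ 2 * (2 * nu * (T + P) + P * (R + c ^ 2 - T)))
      - (M ^ 2 - u * w) * (X2 * Y2)
      = u * w * (X2 * Y2)
        + 8 * c ^ 2 * (M * (4 * nu * T * ((s + T - 2) ^ 2 + P ^ 2 + 4 * c ^ 2)))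
        + 8 * c ^ 2 * (8 * c ^ 2 * (4 * nu ^ 2 * T ^ 2))
        + 8 * c ^ 2 * (4 * (M - 2 * c ^ 2) * ((s + T - 2) * P ^ 2 * s))
        + 8 * c ^ 2 * (8 * c ^ 2 * (P ^ 2 * s * (T - 2))) := by
    rw [hX2, hY2, hs]; unfold xx yy; ring
  have e1 : 0 ≤ u * w * (X2 * Y2) := by positivity
  have hM0 : 0 ≤ M := by linarith
  have e2 : 0 ≤ 8 * c ^ 2 * (M * (4 * nu * T * ((s + T - 2) ^ 2 + P ^ 2 + 4 * c ^ 2))) := by
    have : 0 ≤ T := by linarith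
    positivity
  have e3 : 0 ≤ 8 * c ^ 2 * (8 * c ^ 2 * (4 * nu ^ 2 * T ^ 2)) := by positivity
  have e4 : 0 ≤ 8 * c ^ 2 * (4 * (M - 2 * c ^ 2) * ((s + T - 2) * P ^ 2 * s)) := by
    have k1 : 0 ≤ M - 2 * c ^ 2 := by linarith
    have k2 : 0 ≤ s + T - 2 := by linarith
    positivity
  have e5 : 0 ≤ 8 * c ^ 2 * (8 * c ^ 2 * (P ^ 2 * s * (T - 2))) := by
    have k2 : 0 ≤ T - 2 := by linarith
    positivity
  linarith

/-- Vertical and horizontal coefficient of the Lee fields `c_1 = (c10, c1h q)`,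
`c_2 = (c20, c2h q)`. -/
noncomputable def c10 (R P T c nu : ℝ) : ℝ :=
  -2 * ((-uu R P T c + 2 * (T - P)) * xx R P c nu - 4 * c ^ 2 * (T - P))
    / (dm R P T c * (xx R P c nu ^ 2 + 4 * c ^ 2))
noncomputable def c1h (R P T c nu : ℝ) : ℝ :=
  4 * ((-uu R P T c + 2 * (T - P)) + xx R P c nu * (T - P))
    / (dm R P T c * (xx R P c nu ^ 2 + 4 * c ^ 2))
noncomputable def c20 (R P T c nu : ℝ) : ℝ :=
  -2 * ((-uu R P T c + 2 * (T + P)) * yy R P c nu - 4 * c ^ 2 * (T + P))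
    / (dp R P T c * (yy R P c nu ^ 2 + 4 * c ^ 2))
noncomputable def c2h (R P T c nu : ℝ) : ℝ :=
  -(4 * ((-uu R P T c + 2 * (T + P)) + yy R P c nu * (T + P)))
    / (dp R P T c * (yy R P c nu ^ 2 + 4 * c ^ 2))

/-- `1 + c_1 . X` -/
lemma A1_eq (hd : 0 < dm R P T c) (hx : 0 < xx R P c nu ^ 2 + 4 * c ^ 2) :
    1 + (c10 R P T c nu * (xx R P c nu / 2) + c1h R P T c nu * c ^ 2)
      = (m0 R P T c * (xx R P c nu ^ 2 + 4 * c ^ 2)
          + 8 * c ^ 2 * (2 * nu * (T - P) - P * (R + c ^ 2 - T)))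
        / (dm R P T c * (xx R P c nu ^ 2 + 4 * c ^ 2)) := by
  have h1 := hd.ne'
  have h2 := hx.ne'
  unfold c10 c1h
  rw [eq_div_iff (by positivity)]
  field_simp
  unfold m0 uu dm xx
  ring

lemma A2_eq (hd : 0 < dp R P T c) (hy : 0 < yy R P c nu ^ 2 + 4 * c ^ 2) :
    1 + (c20 R P T c nu * (yy R P c nu / 2) - c2h R P T c nu * c ^ 2)
      = (m0 R P T c * (yy R P c nu ^ 2 + 4 * c ^ 2)
          + 8 * c ^ 2 * (2 * nu * (T + P) + P * (R + c ^ 2 - T)))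
        / (dp R P T c * (yy R P c nu ^ 2 + 4 * c ^ 2)) := by
  have h1 := hd.ne'
  have h2 := hy.ne'
  unfold c20 c2h
  rw [eq_div_iff (by positivity)]
  field_simp
  unfold m0 uu dp yy
  ring

lemma Prof.out (h : Prof R P T) (hnu : 0 ≤ nu) (hdm : 0 < dm R P T c) (hdp : 0 < dp R P T c)
    (hx : 0 < xx R P c nu ^ 2 + 4 * c ^ 2) (hy : 0 < yy R P c nu ^ 2 + 4 * c ^ 2) :
    0 < 1 + (c10 R P T c nu * (xx R P c nu / 2) + c1h R P T c nu * c ^ 2) ∧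
    0 < 1 + (c20 R P T c nu * (yy R P c nu / 2) - c2h R P T c nu * c ^ 2) ∧
    1 ≤ (1 + (c10 R P T c nu * (xx R P c nu / 2) + c1h R P T c nu * c ^ 2))
      * (1 + (c20 R P T c nu * (yy R P c nu / 2) - c2h R P T c nu * c ^ 2)) := by
  rw [A1_eq hdm hx, A2_eq hdp hy]
  have hk := h.key (c := c) hnu
  have hid : m0 R P T c ^ 2 - uu R P T c * ((R + c ^ 2 - 2) * (T + 2) - P ^ 2)
      = dp R P T c * dm R P T c := by unfold m0 uu dp dm; ring
  rw [hid] at hk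
  have hm := h.m0_pos (mul_pos hdp hdm)
  have hXY : 0 < (xx R P c nu ^ 2 + 4 * c ^ 2) * (yy R P c nu ^ 2 + 4 * c ^ 2) := mul_pos hx hy
  have hprod := lt_of_lt_of_le (mul_pos (mul_pos hdp hdm) hXY) hk
  have hle : 0 ≤ R + c ^ 2 - T := by have := h.le; nlinarith [sq_nonneg c]
  have hT : 0 ≤ T := by linarith [h.two_le]
  have hpos : 0 < (m0 R P T c * (xx R P c nu ^ 2 + 4 * c ^ 2)
          + 8 * c ^ 2 * (2 * nu * (T - P) - P * (R + c ^ 2 - T))) ∧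
        0 < (m0 R P T c * (yy R P c nu ^ 2 + 4 * c ^ 2)
          + 8 * c ^ 2 * (2 * nu * (T + P) + P * (R + c ^ 2 - T))) := by
    rcases le_or_gt 0 P with hP | hP
    · have hb : 0 < (m0 R P T c * (yy R P c nu ^ 2 + 4 * c ^ 2)
          + 8 * c ^ 2 * (2 * nu * (T + P) + P * (R + c ^ 2 - T))) := by positivity
      exact ⟨pos_of_mul_pos_left hprod hb.le, hb⟩
    · have e : 2 * nu * (T - P) - P * (R + c ^ 2 - T)
          = 2 * nu * (T + -P) + -P * (R + c ^ 2 - T) := by ring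
      have hP' : 0 ≤ -P := by linarith
      have ha : 0 < (m0 R P T c * (xx R P c nu ^ 2 + 4 * c ^ 2)
          + 8 * c ^ 2 * (2 * nu * (T - P) - P * (R + c ^ 2 - T))) := by
        rw [e]; positivity
      exact ⟨ha, pos_of_mul_pos_right hprod ha.le⟩
  refine ⟨div_pos hpos.1 (mul_pos hdm hx), div_pos hpos.2 (mul_pos hdp hy), ?_⟩
  rw [div_mul_div_comm, le_div_iff₀ (mul_pos (mul_pos hdm hx) (mul_pos hdp hy))]
  calc 1 * (dm R P T c * (xx R P c nu ^ 2 + 4 * c ^ 2)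
          * (dp R P T c * (yy R P c nu ^ 2 + 4 * c ^ 2)))
      = dp R P T c * dm R P T c
        * ((xx R P c nu ^ 2 + 4 * c ^ 2) * (yy R P c nu ^ 2 + 4 * c ^ 2)) := by ring
    _ ≤ _ := hk

/-- In-plane part of Hessian + Weyl terms. -/
noncomputable def fin2 (R P T c nu U0 U1 V0 V1 : ℝ) : ℝ :=
  (R - 2 + c ^ 2) / 2 * (U0 + V0) ^ 2
    + 2 * (U0 + V0) * (P / 2 * (U0 - V0) + c * (U1 - V1))
    + T / 2 * (U0 - V0) ^ 2 + (U1 - V1) ^ 2
    + ((c10 R P T c nu * (xx R P c nu / 2) + c1h R P T c nu * c * c) * (U0 ^ 2 + U1 ^ 2)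
      - 2 * (c10 R P T c nu * U0 + c1h R P T c nu * c * U1) * (xx R P c nu / 2 * U0 + c * U1))
    + ((c20 R P T c nu * (yy R P c nu / 2) - c2h R P T c nu * c * c) * (V0 ^ 2 + V1 ^ 2)
      - 2 * (c20 R P T c nu * V0 + c2h R P T c nu * c * V1) * (yy R P c nu / 2 * V0 - c * V1))

lemma fin2_eq (hdm : 0 < dm R P T c) (hdp : 0 < dp R P T c)
    (hx : 0 < xx R P c nu ^ 2 + 4 * c ^ 2) (hy : 0 < yy R P c nu ^ 2 + 4 * c ^ 2)
    (U0 U1 V0 V1 : ℝ) :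
    4 * fin2 R P T c nu U0 U1 V0 V1
      = dp R P T c * (U0 ^ 2 + U1 ^ 2) + dm R P T c * (V0 ^ 2 + V1 ^ 2)
      + 2 * ((R + c ^ 2 - T - 4) * (U0 * V0 + U1 * V1) - (-4 * c) * (U1 * V0 - U0 * V1))
      + (R + c ^ 2 - T) * (((R + c ^ 2 - T - 4) * (U0 ^ 2 - U1 ^ 2) - 2 * (-4 * c) * U0 * U1)
          / dm R P T c + 2 * (U0 * V0 - U1 * V1)
        + ((R + c ^ 2 - T - 4) * (V0 ^ 2 - V1 ^ 2) + 2 * (-4 * c) * V0 * V1) / dp R P T c) := by
  have w1 : ((c10 R P T c nu * (xx R P c nu / 2) + c1h R P T c nu * c * c) * (U0 ^ 2 + U1 ^ 2)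
      - 2 * (c10 R P T c nu * U0 + c1h R P T c nu * c * U1) * (xx R P c nu / 2 * U0 + c * U1))
      = a1r R P T c * (U0 ^ 2 - U1 ^ 2) - 2 * a1i R P T c * U0 * U1 := by
    have h1 := hdm.ne'
    have h2 := hx.ne'
    unfold c10 c1h a1r a1i
    field_simp
    ring
  have w2 : ((c20 R P T c nu * (yy R P c nu / 2) - c2h R P T c nu * c * c) * (V0 ^ 2 + V1 ^ 2)
      - 2 * (c20 R P T c nu * V0 + c2h R P T c nu * c * V1) * (yy R P c nu / 2 * V0 - c * V1))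
      = a2r R P T c * (V0 ^ 2 - V1 ^ 2) - 2 * a2i R P T c * V0 * V1 := by
    have h1 := hdp.ne'
    have h2 := hy.ne'
    unfold c20 c2h a2r a2i
    field_simp
    ring
  unfold fin2
  rw [w1, w2]
  unfold a1r a1i a2r a2i
  have h1 := hdm.ne'
  have h2 := hdp.ne'
  field_simp
  unfold uu dm dp
  ring

lemma Prof.fin2_nonneg (h : Prof R P T) (hdm : 0 < dm R P T c) (hdp : 0 < dp R P T c)
    (hx : 0 < xx R P c nu ^ 2 + 4 * c ^ 2) (hy : 0 < yy R P c nu ^ 2 + 4 * c ^ 2)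
    (U0 U1 V0 V1 : ℝ) : 0 ≤ fin2 R P T c nu U0 U1 V0 V1 := by
  have h1 : (R + c ^ 2 - T) ^ 2 ≤ dp R P T c * dm R P T c := by
    rw [dpdm]; have := h.uu_nonneg (c := c); linarith
  have h2 : (R + c ^ 2 - T - 4) ^ 2 + (-4 * c) ^ 2 ≤ dp R P T c * dm R P T c := by
    have hT : 0 ≤ c ^ 2 * (T - 2) := mul_nonneg (sq_nonneg c) (by linarith [h.two_le])
    have := h.c1
    unfold dp dm; nlinarith
  have := plane_nonneg hdp hdm h1 h2 U0 U1 V0 V1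
  rw [← fin2_eq hdm hdp hx hy] at this
  linarith

end scalars

section vectors

variable {ι : Type*} [Fintype ι]

/-- Splitting two vectors along `q` and orthogonally to it. -/
lemma split (q U V : ι → ℝ) {c : ℝ} (hc : c ^ 2 = ∑ i, q i ^ 2) :
    ∃ (U1 V1 : ℝ) (u v : ι → ℝ), ∑ i, q i * U i = c * U1 ∧ ∑ i, q i * V i = c * V1 ∧
      ∑ i, U i ^ 2 = U1 ^ 2 + ∑ i, u i ^ 2 ∧ ∑ i, V i ^ 2 = V1 ^ 2 + ∑ i, v i ^ 2 ∧
      ∑ i, U i * V i = U1 * V1 + ∑ i, u i * v i := by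
  rcases eq_or_ne c 0 with h0 | h0
  · have hq : ∀ i, q i = 0 := by
      have h : ∑ i, q i ^ 2 = 0 := by rw [← hc, h0]; ring
      intro i
      have := (Finset.sum_eq_zero_iff_of_nonneg (fun i _ => sq_nonneg (q i))).1 h i (Finset.mem_univ i)
      exact pow_eq_zero_iff (two_ne_zero) |>.1 this
    refine ⟨0, 0, U, V, ?_, ?_, ?_, ?_, ?_⟩ <;> simp [hq]
  · have hc2 : c ^ 2 ≠ 0 := pow_ne_zero 2 h0
    have key : ∀ A B : ι → ℝ, ∑ i, A i * B i = (∑ i, q i * A i) / c * ((∑ i, q i * B i) / c)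
        + ∑ i, (A i - (∑ j, q j * A j) / c * (q i / c)) * (B i - (∑ j, q j * B j) / c * (q i / c)) := by
      intro A B
      set a := (∑ j, q j * A j) / c with ha
      set b := (∑ j, q j * B j) / c with hb
      have e : ∀ i, (A i - a * (q i / c)) * (B i - b * (q i / c))
          = A i * B i - b / c * (q i * A i) - a / c * (q i * B i) + a * b / c ^ 2 * q i ^ 2 := by
        intro i; field_simp; ring
      rw [Finset.sum_congr rfl (fun i _ => e i), Finset.sum_add_distrib, Finset.sum_sub_distrib,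
        Finset.sum_sub_distrib, ← Finset.mul_sum, ← Finset.mul_sum, ← Finset.mul_sum, ← hc]
      have hA : ∑ i, q i * A i = a * c := by rw [ha]; field_simp
      have hB : ∑ i, q i * B i = b * c := by rw [hb]; field_simp
      rw [hA, hB]; field_simp; ring
    refine ⟨(∑ i, q i * U i) / c, (∑ i, q i * V i) / c,
      fun i => U i - (∑ j, q j * U j) / c * (q i / c),
      fun i => V i - (∑ j, q j * V j) / c * (q i / c), ?_, ?_, ?_, ?_, ?_⟩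
    · field_simp
    · field_simp
    · have := key U U; simpa only [sq] using this
    · have := key V V; simpa only [sq] using this
    · exact key U V

/-- Second derivative of `W` in the direction `((U0,U),(V0,V))` (units `e^{2a} = 1`) plus the
Weyl terms of the Lee fields `c_1 = (c10, c1h q)` and `c_2 = (c20, c2h q)`, where
`W_x = (xx/2, q)` and `W_y = (yy/2, -q)`. -/
noncomputable def full (R P T c nu : ℝ) (q : ι → ℝ) (U0 V0 : ℝ) (U V : ι → ℝ) : ℝ :=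
  ((R - 2 + c ^ 2) / 2 * (U0 + V0) ^ 2
    + 2 * (U0 + V0) * (P / 2 * (U0 - V0) + ∑ i, q i * (U i - V i))
    + T / 2 * (U0 - V0) ^ 2 + ∑ i, (U i - V i) ^ 2)
    + ((c10 R P T c nu * (xx R P c nu / 2) + c1h R P T c nu * c ^ 2) * (U0 ^ 2 + ∑ i, U i ^ 2)
      - 2 * (c10 R P T c nu * U0 + c1h R P T c nu * ∑ i, q i * U i)
          * (xx R P c nu / 2 * U0 + ∑ i, q i * U i))
    + ((c20 R P T c nu * (yy R P c nu / 2) - c2h R P T c nu * c ^ 2) * (V0 ^ 2 + ∑ i, V i ^ 2)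
      - 2 * (c20 R P T c nu * V0 + c2h R P T c nu * ∑ i, q i * V i)
          * (yy R P c nu / 2 * V0 - ∑ i, q i * V i))

/-- **Off-diagonal certificate.**  For every profile value with `2 ≤ T ≤ R`, `P^2 ≤ R T`,
`P^2 ≤ (R-2)(T+2)`, every `nu ≥ 0` and every pair of points with `W_x ≠ 0 ≠ W_y`, the Hessian
of `W` plus the two Weyl terms is a nonnegative quadratic form of the two real vectors. -/
theorem full_nonneg {R P T c nu : ℝ} (h : Prof R P T) (hnu : 0 ≤ nu) (q : ι → ℝ)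
    (hc : c ^ 2 = ∑ i, q i ^ 2) (hdm : 0 < dm R P T c) (hdp : 0 < dp R P T c)
    (hx : 0 < xx R P c nu ^ 2 + 4 * c ^ 2) (hy : 0 < yy R P c nu ^ 2 + 4 * c ^ 2)
    (U0 V0 : ℝ) (U V : ι → ℝ) : 0 ≤ full R P T c nu q U0 V0 U V := by
  obtain ⟨U1, V1, u, v, hU, hV, hUU, hVV, hUV⟩ := split q U V hc
  obtain ⟨hA, hB, hAB⟩ := h.out (c := c) hnu hdm hdp hx hy
  have h2 := h.fin2_nonneg hdm hdp hx hy U0 U1 V0 V1
  set A := 1 + (c10 R P T c nu * (xx R P c nu / 2) + c1h R P T c nu * c ^ 2) with hAdef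
  set B := 1 + (c20 R P T c nu * (yy R P c nu / 2) - c2h R P T c nu * c ^ 2) with hBdef
  have hrest : 0 ≤ A * ∑ i, u i ^ 2 - 2 * ∑ i, u i * v i + B * ∑ i, v i ^ 2 := by
    have e : A * ∑ i, u i ^ 2 - 2 * ∑ i, u i * v i + B * ∑ i, v i ^ 2
        = ∑ i, (A * u i ^ 2 - 2 * (u i * v i) + B * v i ^ 2) := by
      rw [Finset.sum_add_distrib, Finset.sum_sub_distrib, ← Finset.mul_sum, ← Finset.mul_sum,
        ← Finset.mul_sum]
    rw [e]
    refine Finset.sum_nonneg fun i _ => ?_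
    have : 0 ≤ A * (A * u i ^ 2 - 2 * (u i * v i) + B * v i ^ 2) := by
      have e2 : A * (A * u i ^ 2 - 2 * (u i * v i) + B * v i ^ 2)
          = (A * u i - v i) ^ 2 + (A * B - 1) * v i ^ 2 := by ring
      rw [e2]
      have : 0 ≤ A * B - 1 := by linarith
      positivity
    exact nonneg_of_mul_nonneg_right this hA
  have hq : ∑ i, q i * (U i - V i) = c * U1 - c * V1 := by
    rw [← hU, ← hV, ← Finset.sum_sub_distrib]
    exact Finset.sum_congr rfl fun i _ => by ring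
  have hd : ∑ i, (U i - V i) ^ 2 = ∑ i, U i ^ 2 - 2 * ∑ i, U i * V i + ∑ i, V i ^ 2 := by
    rw [Finset.mul_sum, ← Finset.sum_sub_distrib, ← Finset.sum_add_distrib]
    exact Finset.sum_congr rfl fun i _ => by ring
  have e : full R P T c nu q U0 V0 U V = fin2 R P T c nu U0 U1 V0 V1
      + (A * ∑ i, u i ^ 2 - 2 * ∑ i, u i * v i + B * ∑ i, v i ^ 2) := by
    unfold full fin2
    rw [hq, hd, hUU, hVV, hUV, hU, hV, hAdef, hBdef]
    ring
  rw [e]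
  exact add_nonneg h2 hrest

end vectors

end Vale.Agent.P088.R2.H942
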