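import Mathlib
import Vale.Agent.P088.R2.H942.Cert

/-!
# P088, stage 3: the off-diagonal certificate for the isotropic weight

`W = 2 nu a + e^{2a} G`, `a = (x_0 + y_0)/2`, `G = F(|q|)` radial, `q = x - y = (b, q')`,
`c^2 = |q'|^2`, `s^2 = b^2 + c^2`; everything in units `e^{2a} = 1`.
`g = F`, `k = F'/s`, `z = (F'' - F'/s)/s^2`, so `F'' = k + z s^2`.
For `F = (cosh (θ s) - 1)/θ^2` one has `F'^2 = F (1 + F'')`.
-/

namespace Vale.Agent.P088.R2.H942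

open Complex ComplexConjugate

/-- the product completion, complex form, with a quantitative lower bound -/
lemma prodC (r1 r2 u v : ℂ) (h1 : ‖r1‖ ≤ 1) (h2 : ‖r2‖ ≤ 1) :
    (1 - ‖r1‖) * (1 - ‖r2‖) * (‖u‖ ^ 2 + ‖v‖ ^ 2)
      ≤ ‖u‖ ^ 2 + ‖v‖ ^ 2 + 2 * (r1 * u * conj v).re
        + (r2 * (r1 * u ^ 2 + 2 * u * v + conj r1 * v ^ 2)).re := by
  have f0 : (1 - ‖r1‖) * (‖u‖ ^ 2 + ‖v‖ ^ 2) ≤ ‖u‖ ^ 2 + ‖v‖ ^ 2 + 2 * (r1 * u * conj v).re := by
    have h := abs_le.1 ((Complex.abs_re_le_norm (r1 * u * conj v)))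
    have hn : ‖r1 * u * conj v‖ = ‖r1‖ * (‖u‖ * ‖v‖) := by
      rw [norm_mul, norm_mul, Complex.norm_conj, mul_assoc]
    rw [hn] at h
    have h3 : 2 * (‖u‖ * ‖v‖) ≤ ‖u‖ ^ 2 + ‖v‖ ^ 2 := by nlinarith [sq_nonneg (‖u‖ - ‖v‖)]
    have h4 := mul_le_mul_of_nonneg_left h3 (norm_nonneg r1)
    linarith [h.1]
  rcases eq_or_ne r2 0 with h0 | h0
  · rw [h0, norm_zero, zero_mul, Complex.zero_re, add_zero, sub_zero, mul_one]; exact f0
  · have hr : 0 < ‖r2‖ := norm_pos_iff.2 h0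
    set r := ‖r2‖ with hrdef
    set e : ℂ := r2 / (r : ℂ) with he
    have hrc : (r : ℂ) ≠ 0 := by exact_mod_cast hr.ne'
    have hen : ‖e‖ = 1 := by
      rw [he, norm_div, Complex.norm_real, Real.norm_of_nonneg hr.le]; exact div_self hr.ne'
    have hr2 : r2 = (r : ℂ) * e := by rw [he]; field_simp
    have hee : e * conj e = 1 := by
      rw [Complex.mul_conj, Complex.normSq_eq_norm_sq, hen]; norm_num
    -- extreme case
    have hw := abs_le.1 (Complex.abs_re_le_norm (r1 * conj e * (e * u + conj v) ^ 2))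
    have hwn : ‖r1 * conj e * (e * u + conj v) ^ 2‖ ≤ ‖e * u + conj v‖ ^ 2 := by
      rw [norm_mul, norm_mul, Complex.norm_conj, hen, mul_one, norm_pow]
      exact mul_le_of_le_one_left (by positivity) h1
    have e1 : ‖e * u + conj v‖ ^ 2 = ‖u‖ ^ 2 + ‖v‖ ^ 2 + 2 * (e * u * v).re := by
      rw [← Complex.normSq_eq_norm_sq, ← Complex.normSq_eq_norm_sq, ← Complex.normSq_eq_norm_sq,
        Complex.normSq_add, Complex.normSq_mul, Complex.normSq_conj, Complex.normSq_eq_norm_sq e,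
        hen, Complex.conj_conj]
      ring
    have e2 : r1 * conj e * (e * u + conj v) ^ 2
        = 2 * r1 * u * conj v + e * r1 * u ^ 2 + conj (e * conj r1 * v ^ 2) := by
      have : conj (e * conj r1 * v ^ 2) = conj e * r1 * (conj v) ^ 2 := by
        rw [map_mul, map_mul, map_pow, Complex.conj_conj]
      rw [this]
      linear_combination (e * u ^ 2 * r1 + 2 * r1 * u * conj v) * hee
    have e3 : (r1 * conj e * (e * u + conj v) ^ 2).re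
        = 2 * (r1 * u * conj v).re + (e * (r1 * u ^ 2)).re + (e * (conj r1 * v ^ 2)).re := by
      rw [e2, Complex.add_re, Complex.add_re, Complex.conj_re]
      have : (2 * r1 * u * conj v).re = 2 * (r1 * u * conj v).re := by
        rw [show 2 * r1 * u * conj v = ((2 : ℝ) : ℂ) * (r1 * u * conj v) by push_cast; ring,
          Complex.re_ofReal_mul]
      rw [this, mul_assoc e r1, mul_assoc e (conj r1)]
    have f1 : 0 ≤ ‖u‖ ^ 2 + ‖v‖ ^ 2 + 2 * (e * u * v).re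
        + (2 * (r1 * u * conj v).re + (e * (r1 * u ^ 2)).re + (e * (conj r1 * v ^ 2)).re) := by
      rw [← e3, ← e1]; linarith [hw.1]
    have e4 : (r2 * (r1 * u ^ 2 + 2 * u * v + conj r1 * v ^ 2)).re
        = r * ((e * (r1 * u ^ 2)).re + 2 * (e * u * v).re + (e * (conj r1 * v ^ 2)).re) := by
      rw [hr2, show (r : ℂ) * e * (r1 * u ^ 2 + 2 * u * v + conj r1 * v ^ 2)
        = (r : ℂ) * (e * (r1 * u ^ 2) + ((2 : ℝ) : ℂ) * (e * u * v) + e * (conj r1 * v ^ 2)) by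
          push_cast; ring, Complex.re_ofReal_mul, Complex.add_re, Complex.add_re,
        Complex.re_ofReal_mul]
    rw [e4]
    have g1 := mul_le_mul_of_nonneg_left f0 (show (0:ℝ) ≤ 1 - r by linarith)
    have g2 := mul_nonneg hr.le f1
    nlinarith


/-- In-plane form, real coordinates. `z = zr + i zi = 8 W_{x ybar}`, `w = wr + i wi = 8 W_{xy}`,
`dp = 8 W_{x xbar}`, `dm = 8 W_{y ybar}`. -/
lemma planeC_nonneg {dp dm zr zi wr wi : ℝ} (hdp : 0 < dp) (hdm : 0 < dm)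
    (hw : wr ^ 2 + wi ^ 2 ≤ dp * dm) (hz : zr ^ 2 + zi ^ 2 ≤ dp * dm) (U0 U1 V0 V1 : ℝ) :
    0 ≤ dp * (U0 ^ 2 + U1 ^ 2) + dm * (V0 ^ 2 + V1 ^ 2)
      + 2 * (zr * (U0 * V0 + U1 * V1) - zi * (U1 * V0 - U0 * V1))
      + (((wr * zr - wi * zi) * (U0 ^ 2 - U1 ^ 2) - 2 * (wr * zi + wi * zr) * U0 * U1) / dm
        + 2 * (wr * (U0 * V0 - U1 * V1) - wi * (U0 * V1 + U1 * V0))
        + ((wr * zr + wi * zi) * (V0 ^ 2 - V1 ^ 2) - 2 * (wi * zr - wr * zi) * V0 * V1) / dp) := by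
  obtain ⟨s, hs, hs2⟩ : ∃ s : ℝ, 0 < s ∧ s ^ 2 = dp := ⟨√dp, Real.sqrt_pos.2 hdp, Real.sq_sqrt hdp.le⟩
  obtain ⟨t, ht, ht2⟩ : ∃ t : ℝ, 0 < t ∧ t ^ 2 = dm := ⟨√dm, Real.sqrt_pos.2 hdm, Real.sq_sqrt hdm.le⟩
  subst hs2 ht2
  have hst : 0 < s * t := mul_pos hs ht
  have hst2 : 0 < (s * t) ^ 2 := by positivity
  have key : ∀ a b : ℝ, a ^ 2 + b ^ 2 ≤ s ^ 2 * t ^ 2 →
      ‖(⟨a / (s * t), b / (s * t)⟩ : ℂ)‖ ≤ 1 := by
    intro a b hab
    rw [← sq_le_one_iff₀ (norm_nonneg _), ← Complex.normSq_eq_norm_sq, Complex.normSq_mk]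
    have : a / (s * t) * (a / (s * t)) + b / (s * t) * (b / (s * t))
        = (a ^ 2 + b ^ 2) / (s * t) ^ 2 := by field_simp
    rw [this, div_le_one hst2]; nlinarith
  have h := prodC ⟨zr / (s * t), zi / (s * t)⟩ ⟨wr / (s * t), wi / (s * t)⟩
    ⟨s * U0, s * U1⟩ ⟨t * V0, t * V1⟩ (key _ _ hz) (key _ _ hw)
  have h0 : 0 ≤ (1 - ‖(⟨zr / (s * t), zi / (s * t)⟩ : ℂ)‖) * (1 - ‖(⟨wr / (s * t), wi / (s * t)⟩ : ℂ)‖)
      * (‖(⟨s * U0, s * U1⟩ : ℂ)‖ ^ 2 + ‖(⟨t * V0, t * V1⟩ : ℂ)‖ ^ 2) := by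
    have h1 := key _ _ hz
    have h2 := key _ _ hw
    apply mul_nonneg (mul_nonneg (by linarith) (by linarith)) (by positivity)
  have h3 := h0.trans h
  refine h3.trans (le_of_eq ?_)
  rw [← Complex.normSq_eq_norm_sq, ← Complex.normSq_eq_norm_sq, Complex.normSq_mk, Complex.normSq_mk]
  simp only [sq, Complex.mul_re, Complex.mul_im, Complex.add_re, Complex.add_im, Complex.conj_re,
    Complex.conj_im, Complex.re_ofNat, Complex.im_ofNat]
  field_simp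
  ring


namespace Iso

/-- Radial profile values at distance `s`, `s^2 = b^2 + c^2`: `g = F`, `k = F'/s`,
`g2 = F'' = k + z s^2`, with `F'^2 = F (1 + F'')`. -/
structure Rad (g k z s2 : ℝ) : Prop where
  g_pos : 0 < g
  k_ge : 1 ≤ k
  z_nonneg : 0 ≤ z
  s2_pos : 0 < s2
  rel : k ^ 2 * s2 = g * (1 + (k + z * s2))
  c2 : g < k * (k + z * s2)
  cube : k + z * s2 ≤ k ^ 3

variable {g k z b c nu : ℝ}

/-- sum `S + T + K` -/
def Sg (g k z b c : ℝ) : ℝ := 2 * (g + (k + z * (b ^ 2 + c ^ 2)) + k)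
def dm (g k z b c : ℝ) : ℝ := Sg g k z b c - 4 * k * b
def dp (g k z b c : ℝ) : ℝ := Sg g k z b c + 4 * k * b
def xx (g k b nu : ℝ) : ℝ := 2 * nu + 2 * g + 2 * k * b
def yy (g k b nu : ℝ) : ℝ := 2 * nu + 2 * g - 2 * k * b
def m0 (g k z b c : ℝ) : ℝ := k * Sg g k z b c + 4 * g * (k + z * b ^ 2) - 4 * k ^ 2 * b ^ 2
/-- `T (S + K) - P^2` -/
def De (g k z b c : ℝ) : ℝ :=
  4 * (k + z * b ^ 2) * (g + (k + z * c ^ 2)) - 4 * k ^ 2 * b ^ 2
/-- real parts and imaginary parts (divided by `c`) of `D_∓ α_i` -/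
def ar (g k z b c : ℝ) : ℝ :=
  -De g k z b c + 4 * (k + z * c ^ 2) * ((k + z * b ^ 2) - k * b) + 4 * k * z * b * c ^ 2
def ai (g k z b : ℝ) : ℝ := 4 * k * ((k + z * b ^ 2) - k * b) + 4 * z * b * (g - k * b)
def br (g k z b c : ℝ) : ℝ :=
  -De g k z b c + 4 * (k + z * c ^ 2) * ((k + z * b ^ 2) + k * b) - 4 * k * z * b * c ^ 2
def bi (g k z b : ℝ) : ℝ := -4 * k * ((k + z * b ^ 2) + k * b) + 4 * z * b * (g + k * b)
def X2 (g k b c nu : ℝ) : ℝ := xx g k b nu ^ 2 + 4 * k ^ 2 * c ^ 2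
def Y2 (g k b c nu : ℝ) : ℝ := yy g k b nu ^ 2 + 4 * k ^ 2 * c ^ 2

/-- Lee fields `c_1 = (c10, c1h q)`, `c_2 = (c20, c2h q)`. -/
noncomputable def c10 (g k z b c nu : ℝ) : ℝ :=
  -2 * (ar g k z b c * xx g k b nu - 2 * k * c ^ 2 * ai g k z b) / (dm g k z b c * X2 g k b c nu)
noncomputable def c1h (g k z b c nu : ℝ) : ℝ :=
  2 * (2 * k * ar g k z b c + ai g k z b * xx g k b nu) / (dm g k z b c * X2 g k b c nu)
noncomputable def c20 (g k z b c nu : ℝ) : ℝ :=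
  -2 * (br g k z b c * yy g k b nu + 2 * k * c ^ 2 * bi g k z b) / (dp g k z b c * Y2 g k b c nu)
noncomputable def c2h (g k z b c nu : ℝ) : ℝ :=
  2 * (bi g k z b * yy g k b nu - 2 * k * br g k z b c) / (dp g k z b c * Y2 g k b c nu)

/-- `k + c_1 . X` -/
lemma A1_eq (hd : 0 < dm g k z b c) (hx : 0 < X2 g k b c nu) :
    k + (c10 g k z b c nu * (xx g k b nu / 2) + c1h g k z b c nu * k * c ^ 2)
      = (m0 g k z b c * X2 g k b c nu
          + 4 * k * c ^ 2 * (8 * nu * k ^ 2 - 4 * b * (k ^ 2 - g * z) * (2 * nu + 2 * g)))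
        / (dm g k z b c * X2 g k b c nu) := by
  have h1 := hd.ne'
  have h2 := hx.ne'
  unfold c10 c1h
  rw [eq_div_iff (by positivity)]
  field_simp
  unfold m0 ar ai De dm Sg X2 xx
  ring

lemma A2_eq (hd : 0 < dp g k z b c) (hy : 0 < Y2 g k b c nu) :
    k + (c20 g k z b c nu * (yy g k b nu / 2) - c2h g k z b c nu * k * c ^ 2)
      = (m0 g k z b c * Y2 g k b c nu
          + 4 * k * c ^ 2 * (8 * nu * k ^ 2 + 4 * b * (k ^ 2 - g * z) * (2 * nu + 2 * g)))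
        / (dp g k z b c * Y2 g k b c nu) := by
  have h1 := hd.ne'
  have h2 := hy.ne'
  unfold c20 c2h
  rw [eq_div_iff (by positivity)]
  field_simp
  unfold m0 br bi De dp Sg Y2 yy
  ring


lemma Qp {g k g2 d : ℝ} (hk : 1 ≤ k) (hg : 0 < g) (h2 : g ≤ k * g2) (h3 : g2 ≤ k ^ 3)
    (hd : d ≤ g) (hd' : -(g * k) ≤ d) :
    0 ≤ (1 + k) * d ^ 2 - k * (1 + k) * (g + g2 + k) * d + k ^ 2 * (1 + g2) * (g * k + d) := by
  have hk0 : 0 < k := by linarith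
  have hg2 : 0 < g2 := by
    by_contra h
    have : k * g2 ≤ 0 := mul_nonpos_of_nonneg_of_nonpos hk0.le (not_lt.1 h)
    linarith
  rcases le_or_gt d 0 with h | h
  · have e1 : 0 ≤ k * (1 + k) * (g + g2 + k) * (-d) := by
      have : 0 ≤ -d := by linarith
      positivity
    have e2 : 0 ≤ k ^ 2 * (1 + g2) * (g * k + d) := by
      have : 0 ≤ g * k + d := by linarith
      positivity
    have e3 : 0 ≤ (1 + k) * d ^ 2 := by positivity
    linarith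
  · have hE1 : 0 ≤ (1 + k) * (k - 1) * (k * g2 - g) := by
      have a1 : 0 ≤ k - 1 := by linarith
      have a2 : 0 ≤ k * g2 - g := by linarith
      positivity
    have hE3 : 0 ≤ 2 * k ^ 2 * (1 + g2) - ((1 + k) * g + g2 + k ^ 2) := by
      have a1 : (1 + k) * g ≤ (1 + k) * (k * g2) :=
        mul_le_mul_of_nonneg_left h2 (by linarith)
      have a2 : 0 ≤ k ^ 2 + g2 * (k ^ 2 - k - 1) := by
        rcases le_or_gt 0 (k ^ 2 - k - 1) with h5 | h5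
        · positivity
        · have : 0 ≤ (k ^ 3 - g2) * (-(k ^ 2 - k - 1)) :=
            mul_nonneg (by linarith) (by linarith)
          have : 0 ≤ k ^ 2 * (k - 1) ^ 2 * (k + 1) := by positivity
          nlinarith
      nlinarith
    have key : g * ((1 + k) * d ^ 2 - k * (1 + k) * (g + g2 + k) * d
          + k ^ 2 * (1 + g2) * (g * k + d))
        = d ^ 2 * ((1 + k) * (k - 1) * (k * g2 - g))
          + (g - d) * k * ((g - d) * (k ^ 2 * (1 + g2))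
            + d * (2 * k ^ 2 * (1 + g2) - ((1 + k) * g + g2 + k ^ 2))) := by ring
    have hgd : 0 ≤ g - d := by linarith
    have : 0 ≤ g * ((1 + k) * d ^ 2 - k * (1 + k) * (g + g2 + k) * d
          + k ^ 2 * (1 + g2) * (g * k + d)) := by
      rw [key]; positivity
    exact nonneg_of_mul_nonneg_right this hg

section

variable (h : Rad g k z (b ^ 2 + c ^ 2))
include h

lemma Rad.Kk_s2 : (k ^ 2 - g * z) * (b ^ 2 + c ^ 2) = g * (1 + k) := by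
  have := h.rel; linarith

lemma Rad.Kk_pos : 0 < k ^ 2 - g * z := by
  have h1 := h.Kk_s2
  have h2 := h.s2_pos
  have h3 : 0 < g * (1 + k) := mul_pos h.g_pos (by linarith [h.k_ge])
  by_contra hn
  have : (k ^ 2 - g * z) * (b ^ 2 + c ^ 2) ≤ 0 :=
    mul_nonpos_of_nonpos_of_nonneg (not_lt.1 hn) h2.le
  linarith

/-- `k^2 (1 + k) = (k^2 - g z)(1 + F'')` -/
lemma Rad.ratio : k ^ 2 * (1 + k) = (k ^ 2 - g * z) * (1 + (k + z * (b ^ 2 + c ^ 2))) := by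
  have h1 := h.Kk_s2
  have h2 := h.rel
  have h3 : g * (b ^ 2 + c ^ 2) * (k ^ 2 * (1 + k))
      = g * (b ^ 2 + c ^ 2) * ((k ^ 2 - g * z) * (1 + (k + z * (b ^ 2 + c ^ 2)))) := by
    calc g * (b ^ 2 + c ^ 2) * (k ^ 2 * (1 + k))
        = (k ^ 2 * (b ^ 2 + c ^ 2)) * (g * (1 + k)) := by ring
      _ = (g * (1 + (k + z * (b ^ 2 + c ^ 2)))) * ((k ^ 2 - g * z) * (b ^ 2 + c ^ 2)) := by
          rw [h1, h2]
      _ = _ := by ring
  have h4 : g * (b ^ 2 + c ^ 2) ≠ 0 := (mul_pos h.g_pos h.s2_pos).ne'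
  exact mul_left_cancel₀ h4 h3

lemma Rad.m0_eq : m0 g k z b c
    = k * Sg g k z b c - 4 * (g - c ^ 2 * (k ^ 2 - g * z)) := by
  have h1 := h.Kk_s2
  unfold m0
  nlinarith

lemma Rad.Sg_pos : 0 < Sg g k z b c := by
  have := h.g_pos
  have h2 := h.k_ge
  have h3 := h.z_nonneg
  have h4 := h.s2_pos
  have h5 : 0 ≤ z * (b ^ 2 + c ^ 2) := mul_nonneg h3 h4.le
  unfold Sg; linarith

lemma Rad.m0_sub_pos : 0 < m0 g k z b c - 2 * (c ^ 2 * (k ^ 2 - g * z)) := by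
  rw [h.m0_eq]
  have h1 := h.g_pos
  have h2 := h.k_ge
  have h3 := h.c2
  have h4 : 0 ≤ c ^ 2 * (k ^ 2 - g * z) := mul_nonneg (sq_nonneg c) h.Kk_pos.le
  have h5 : 0 ≤ (k - 1) * g := mul_nonneg (by linarith) h1.le
  unfold Sg
  nlinarith

lemma Rad.m0_pos : 0 < m0 g k z b c := by
  have h1 := h.m0_sub_pos
  have h4 : 0 ≤ c ^ 2 * (k ^ 2 - g * z) := mul_nonneg (sq_nonneg c) h.Kk_pos.le
  linarith

lemma Rad.disc : 0 ≤ m0 g k z b c ^ 2 - k ^ 2 * (dp g k z b c * dm g k z b c) := by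
  have hk := h.k_ge
  have hK := h.Kk_pos
  have hy : 0 ≤ c ^ 2 * (k ^ 2 - g * z) := mul_nonneg (sq_nonneg c) hK.le
  have hyb : b ^ 2 * (k ^ 2 - g * z) = g * (1 + k) - c ^ 2 * (k ^ 2 - g * z) := by
    have := h.Kk_s2; linarith
  have hb0 : 0 ≤ b ^ 2 * (k ^ 2 - g * z) := mul_nonneg (sq_nonneg b) hK.le
  have hQ := Qp (g2 := k + z * (b ^ 2 + c ^ 2)) (d := g - c ^ 2 * (k ^ 2 - g * z)) hk h.g_pos
    h.c2.le h.cube (by linarith) (by nlinarith)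
  have hr := h.ratio
  have e : (1 + k) * (m0 g k z b c ^ 2 - k ^ 2 * (dp g k z b c * dm g k z b c))
      = 16 * ((1 + k) * (g - c ^ 2 * (k ^ 2 - g * z)) ^ 2
        - k * (1 + k) * (g + (k + z * (b ^ 2 + c ^ 2)) + k) * (g - c ^ 2 * (k ^ 2 - g * z))
        + k ^ 2 * (1 + (k + z * (b ^ 2 + c ^ 2))) * (g * k + (g - c ^ 2 * (k ^ 2 - g * z)))) := by
    have e1 : dp g k z b c * dm g k z b c = Sg g k z b c ^ 2 - 16 * (k ^ 2 * b ^ 2) := by
      unfold dp dm; ring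
    have e2 : (1 + k) * (k ^ 2 * b ^ 2)
        = (1 + (k + z * (b ^ 2 + c ^ 2))) * (g * k + (g - c ^ 2 * (k ^ 2 - g * z))) := by
      calc (1 + k) * (k ^ 2 * b ^ 2) = (k ^ 2 * (1 + k)) * b ^ 2 := by ring
        _ = (k ^ 2 - g * z) * (1 + (k + z * (b ^ 2 + c ^ 2))) * b ^ 2 := by rw [hr]
        _ = (1 + (k + z * (b ^ 2 + c ^ 2))) * (b ^ 2 * (k ^ 2 - g * z)) := by ring
        _ = _ := by rw [hyb]; ring
    rw [h.m0_eq, e1]
    have e3 : (1 + k) * ((k * Sg g k z b c - 4 * (g - c ^ 2 * (k ^ 2 - g * z))) ^ 2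
        - k ^ 2 * (Sg g k z b c ^ 2 - 16 * (k ^ 2 * b ^ 2)))
        = (1 + k) * (16 * (g - c ^ 2 * (k ^ 2 - g * z)) ^ 2
            - 8 * k * Sg g k z b c * (g - c ^ 2 * (k ^ 2 - g * z)))
          + 16 * k ^ 2 * ((1 + k) * (k ^ 2 * b ^ 2)) := by ring
    rw [e3, e2]
    unfold Sg
    ring
  have : 0 ≤ (1 + k) * (m0 g k z b c ^ 2 - k ^ 2 * (dp g k z b c * dm g k z b c)) := by
    rw [e]; linarith
  exact nonneg_of_mul_nonneg_right this (by linarith)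

lemma Rad.key (hnu : 0 ≤ nu) :
    k ^ 2 * (dp g k z b c * dm g k z b c) * (X2 g k b c nu * Y2 g k b c nu)
      ≤ (m0 g k z b c * X2 g k b c nu
          + 4 * k * c ^ 2 * (8 * nu * k ^ 2 - 4 * b * (k ^ 2 - g * z) * (2 * nu + 2 * g)))
        * (m0 g k z b c * Y2 g k b c nu
          + 4 * k * c ^ 2 * (8 * nu * k ^ 2 + 4 * b * (k ^ 2 - g * z) * (2 * nu + 2 * g))) := by
  have hd := h.disc
  have hm := h.m0_pos
  have hm2 := h.m0_sub_pos
  have hK := h.Kk_pos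
  have hk : 0 < k := by linarith [h.k_ge]
  have hg := h.g_pos
  set M := m0 g k z b c with hM
  set dd := dp g k z b c * dm g k z b c with hdd
  set Kk := k ^ 2 - g * z with hKk
  have e : (M * X2 g k b c nu + 4 * k * c ^ 2 * (8 * nu * k ^ 2 - 4 * b * Kk * (2 * nu + 2 * g)))
        * (M * Y2 g k b c nu + 4 * k * c ^ 2 * (8 * nu * k ^ 2 + 4 * b * Kk * (2 * nu + 2 * g)))
      - k ^ 2 * dd * (X2 g k b c nu * Y2 g k b c nu)
      = (M ^ 2 - k ^ 2 * dd) * (X2 g k b c nu * Y2 g k b c nu)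
        + 64 * nu * k ^ 3 * c ^ 2 * M * ((2 * nu + 2 * g) ^ 2 + 4 * k ^ 2 * b ^ 2 + 4 * k ^ 2 * c ^ 2)
        + 128 * k ^ 2 * b ^ 2 * c ^ 2 * Kk * (2 * nu + 2 * g) ^ 2 * (M - 2 * (c ^ 2 * Kk))
        + 1024 * nu ^ 2 * k ^ 6 * c ^ 4 := by
    unfold X2 Y2 xx yy; ring
  have hX : 0 ≤ X2 g k b c nu := by unfold X2; positivity
  have hY : 0 ≤ Y2 g k b c nu := by unfold Y2; positivity
  have t1 : 0 ≤ (M ^ 2 - k ^ 2 * dd) * (X2 g k b c nu * Y2 g k b c nu) := by positivity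
  have t2 : 0 ≤ 64 * nu * k ^ 3 * c ^ 2 * M
      * ((2 * nu + 2 * g) ^ 2 + 4 * k ^ 2 * b ^ 2 + 4 * k ^ 2 * c ^ 2) := by positivity
  have t3 : 0 ≤ 128 * k ^ 2 * b ^ 2 * c ^ 2 * Kk * (2 * nu + 2 * g) ^ 2
      * (M - 2 * (c ^ 2 * Kk)) := by positivity
  have t4 : 0 ≤ 1024 * nu ^ 2 * k ^ 6 * c ^ 4 := by positivity
  linarith

/-- (C2) -/
lemma Rad.C2 : (2 * g - 2 * z * b ^ 2 + 2 * z * c ^ 2) ^ 2 + (4 * z * b * c) ^ 2
    < dp g k z b c * dm g k z b c := by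
  have e : dp g k z b c * dm g k z b c
      = (2 * g - 2 * z * b ^ 2 + 2 * z * c ^ 2) ^ 2 + (4 * z * b * c) ^ 2
        + 16 * (k * (k + z * (b ^ 2 + c ^ 2)) - g + c ^ 2 * (k ^ 2 - g * z))
        + 16 * (g * (1 + k) - (k ^ 2 - g * z) * (b ^ 2 + c ^ 2)) := by
    unfold dp dm Sg; ring
  have h1 := h.Kk_s2
  have h2 := h.c2
  have h3 : 0 ≤ c ^ 2 * (k ^ 2 - g * z) := mul_nonneg (sq_nonneg c) h.Kk_pos.le
  rw [e]; linarith

/-- (C1) -/
lemma Rad.C1 : (2 * g - 4 * k - 2 * z * (b ^ 2 + c ^ 2)) ^ 2 + (-(4 * k * c)) ^ 2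
    ≤ dp g k z b c * dm g k z b c := by
  have e : dp g k z b c * dm g k z b c
      = (2 * g - 4 * k - 2 * z * (b ^ 2 + c ^ 2)) ^ 2 + (-(4 * k * c)) ^ 2
        + 16 * g * (k - 1) + 16 * (g * (1 + (k + z * (b ^ 2 + c ^ 2))) - k ^ 2 * (b ^ 2 + c ^ 2)) := by
    unfold dp dm Sg; ring
  have h1 := h.rel
  have h2 : 0 ≤ 16 * g * (k - 1) := by
    have := h.g_pos
    have : 0 ≤ k - 1 := by linarith [h.k_ge]
    positivity
  rw [e]; linarith

lemma Rad.dpos : 0 < dm g k z b c ∧ 0 < dp g k z b c := by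
  have h1 : 0 < dp g k z b c * dm g k z b c := lt_of_le_of_lt (by positivity) h.C2
  have h2 := h.Sg_pos
  have h3 : dp g k z b c + dm g k z b c = 2 * Sg g k z b c := by unfold dp dm; ring
  rcases pos_and_pos_or_neg_and_neg_of_mul_pos h1 with h4 | h4
  · exact ⟨h4.2, h4.1⟩
  · linarith [h4.1, h4.2]

lemma Rad.out (hnu : 0 ≤ nu) (hx : 0 < X2 g k b c nu) (hy : 0 < Y2 g k b c nu) :
    0 < k + (c10 g k z b c nu * (xx g k b nu / 2) + c1h g k z b c nu * k * c ^ 2) ∧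
    0 < k + (c20 g k z b c nu * (yy g k b nu / 2) - c2h g k z b c nu * k * c ^ 2) ∧
    k ^ 2 ≤ (k + (c10 g k z b c nu * (xx g k b nu / 2) + c1h g k z b c nu * k * c ^ 2))
      * (k + (c20 g k z b c nu * (yy g k b nu / 2) - c2h g k z b c nu * k * c ^ 2)) := by
  obtain ⟨hdm, hdp⟩ := h.dpos
  rw [A1_eq hdm hx, A2_eq hdp hy]
  have hk := h.key hnu
  have hm := h.m0_pos
  have hK := h.Kk_pos
  have hk0 : 0 < k := by linarith [h.k_ge]
  have hg := h.g_pos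
  have hXY : 0 < X2 g k b c nu * Y2 g k b c nu := mul_pos hx hy
  have hprod := lt_of_lt_of_le
    (mul_pos (mul_pos (pow_pos hk0 2) (mul_pos hdp hdm)) hXY) hk
  have hpos : 0 < (m0 g k z b c * X2 g k b c nu
          + 4 * k * c ^ 2 * (8 * nu * k ^ 2 - 4 * b * (k ^ 2 - g * z) * (2 * nu + 2 * g))) ∧
        0 < (m0 g k z b c * Y2 g k b c nu
          + 4 * k * c ^ 2 * (8 * nu * k ^ 2 + 4 * b * (k ^ 2 - g * z) * (2 * nu + 2 * g))) := by
    rcases le_or_gt 0 b with hb | hb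
    · have hb' : 0 < (m0 g k z b c * Y2 g k b c nu
          + 4 * k * c ^ 2 * (8 * nu * k ^ 2 + 4 * b * (k ^ 2 - g * z) * (2 * nu + 2 * g))) := by
        positivity
      exact ⟨pos_of_mul_pos_left hprod hb'.le, hb'⟩
    · have hb1 : 0 ≤ -b := by linarith
      have ha : 0 < (m0 g k z b c * X2 g k b c nu
          + 4 * k * c ^ 2 * (8 * nu * k ^ 2 - 4 * b * (k ^ 2 - g * z) * (2 * nu + 2 * g))) := by
        have e : 8 * nu * k ^ 2 - 4 * b * (k ^ 2 - g * z) * (2 * nu + 2 * g)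
          = 8 * nu * k ^ 2 + 4 * (-b) * (k ^ 2 - g * z) * (2 * nu + 2 * g) := by ring
        rw [e]; positivity
      exact ⟨ha, pos_of_mul_pos_right hprod ha.le⟩
  refine ⟨div_pos hpos.1 (mul_pos hdm hx), div_pos hpos.2 (mul_pos hdp hy), ?_⟩
  rw [div_mul_div_comm, le_div_iff₀ (mul_pos (mul_pos hdm hx) (mul_pos hdp hy))]
  calc k ^ 2 * (dm g k z b c * X2 g k b c nu * (dp g k z b c * Y2 g k b c nu))
      = k ^ 2 * (dp g k z b c * dm g k z b c) * (X2 g k b c nu * Y2 g k b c nu) := by ring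
    _ ≤ _ := hk

end

/-- In-plane part of Hessian + Weyl terms. -/
noncomputable def fin2 (g k z b c nu U0 U1 V0 V1 : ℝ) : ℝ :=
  g * (U0 + V0) ^ 2 + 2 * (U0 + V0) * (k * b * (U0 - V0) + k * c * (U1 - V1))
    + (k + z * b ^ 2) * (U0 - V0) ^ 2 + 2 * z * b * c * (U0 - V0) * (U1 - V1)
    + (k + z * c ^ 2) * (U1 - V1) ^ 2
    + ((c10 g k z b c nu * (xx g k b nu / 2) + c1h g k z b c nu * c * (k * c)) * (U0 ^ 2 + U1 ^ 2)
      - 2 * (c10 g k z b c nu * U0 + c1h g k z b c nu * c * U1)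
          * (xx g k b nu / 2 * U0 + k * c * U1))
    + ((c20 g k z b c nu * (yy g k b nu / 2) - c2h g k z b c nu * c * (k * c)) * (V0 ^ 2 + V1 ^ 2)
      - 2 * (c20 g k z b c nu * V0 + c2h g k z b c nu * c * V1)
          * (yy g k b nu / 2 * V0 - k * c * V1))

lemma weyl1 (hdm : 0 < dm g k z b c) (hx : 0 < X2 g k b c nu) (U0 U1 : ℝ) :
    ((c10 g k z b c nu * (xx g k b nu / 2) + c1h g k z b c nu * c * (k * c)) * (U0 ^ 2 + U1 ^ 2)
      - 2 * (c10 g k z b c nu * U0 + c1h g k z b c nu * c * U1)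
          * (xx g k b nu / 2 * U0 + k * c * U1))
      = ar g k z b c / dm g k z b c * (U0 ^ 2 - U1 ^ 2)
        - 2 * (c * ai g k z b / dm g k z b c) * U0 * U1 := by
  have h1 := hdm.ne'
  have h2 := hx.ne'
  unfold c10 c1h
  field_simp
  unfold X2
  ring

lemma weyl2 (hdp : 0 < dp g k z b c) (hy : 0 < Y2 g k b c nu) (V0 V1 : ℝ) :
    ((c20 g k z b c nu * (yy g k b nu / 2) - c2h g k z b c nu * c * (k * c)) * (V0 ^ 2 + V1 ^ 2)
      - 2 * (c20 g k z b c nu * V0 + c2h g k z b c nu * c * V1)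
          * (yy g k b nu / 2 * V0 - k * c * V1))
      = br g k z b c / dp g k z b c * (V0 ^ 2 - V1 ^ 2)
        - 2 * (c * bi g k z b / dp g k z b c) * V0 * V1 := by
  have h1 := hdp.ne'
  have h2 := hy.ne'
  unfold c20 c2h
  field_simp
  unfold Y2
  ring

lemma fin2_eq (hdm : 0 < dm g k z b c) (hdp : 0 < dp g k z b c)
    (hx : 0 < X2 g k b c nu) (hy : 0 < Y2 g k b c nu) (U0 U1 V0 V1 : ℝ) :
    4 * fin2 g k z b c nu U0 U1 V0 V1
      = dp g k z b c * (U0 ^ 2 + U1 ^ 2) + dm g k z b c * (V0 ^ 2 + V1 ^ 2)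
      + 2 * ((2 * g - 4 * k - 2 * z * (b ^ 2 + c ^ 2)) * (U0 * V0 + U1 * V1)
        - (-(4 * k * c)) * (U1 * V0 - U0 * V1))
      + ((((2 * g - 2 * z * b ^ 2 + 2 * z * c ^ 2) * (2 * g - 4 * k - 2 * z * (b ^ 2 + c ^ 2))
            - (4 * z * b * c) * (-(4 * k * c))) * (U0 ^ 2 - U1 ^ 2)
          - 2 * ((2 * g - 2 * z * b ^ 2 + 2 * z * c ^ 2) * (-(4 * k * c))
            + (4 * z * b * c) * (2 * g - 4 * k - 2 * z * (b ^ 2 + c ^ 2))) * U0 * U1)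
            / dm g k z b c
        + 2 * ((2 * g - 2 * z * b ^ 2 + 2 * z * c ^ 2) * (U0 * V0 - U1 * V1)
          - (4 * z * b * c) * (U0 * V1 + U1 * V0))
        + (((2 * g - 2 * z * b ^ 2 + 2 * z * c ^ 2) * (2 * g - 4 * k - 2 * z * (b ^ 2 + c ^ 2))
            + (4 * z * b * c) * (-(4 * k * c))) * (V0 ^ 2 - V1 ^ 2)
          - 2 * ((4 * z * b * c) * (2 * g - 4 * k - 2 * z * (b ^ 2 + c ^ 2))
            - (2 * g - 2 * z * b ^ 2 + 2 * z * c ^ 2) * (-(4 * k * c))) * V0 * V1)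
            / dp g k z b c) := by
  unfold fin2
  rw [weyl1 hdm hx, weyl2 hdp hy]
  have h1 := hdm.ne'
  have h2 := hdp.ne'
  field_simp
  unfold ar ai br bi De dm dp Sg
  ring

lemma Rad.fin2_nonneg (h : Rad g k z (b ^ 2 + c ^ 2)) (hx : 0 < X2 g k b c nu)
    (hy : 0 < Y2 g k b c nu) (U0 U1 V0 V1 : ℝ) : 0 ≤ fin2 g k z b c nu U0 U1 V0 V1 := by
  obtain ⟨hdm, hdp⟩ := h.dpos
  have := planeC_nonneg hdp hdm h.C2.le h.C1 U0 U1 V0 V1
  rw [← fin2_eq hdm hdp hx hy] at this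
  linarith

section vectors

variable {ι : Type*} [Fintype ι]

/-- Second derivative of `W` in the direction `((U0,U),(V0,V))` (units `e^{2a} = 1`) plus the
Weyl terms of the Lee fields `c_1 = (c10, c1h q)` and `c_2 = (c20, c2h q)`, where
`W_x = (xx/2, k q)` and `W_y = (yy/2, -k q)`. -/
noncomputable def full (g k z b c nu : ℝ) (q : ι → ℝ) (U0 V0 : ℝ) (U V : ι → ℝ) : ℝ :=
  (g * (U0 + V0) ^ 2
    + 2 * (U0 + V0) * (k * b * (U0 - V0) + k * ∑ i, q i * (U i - V i))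
    + (k + z * b ^ 2) * (U0 - V0) ^ 2 + 2 * z * b * (U0 - V0) * ∑ i, q i * (U i - V i)
    + k * ∑ i, (U i - V i) ^ 2 + z * (∑ i, q i * (U i - V i)) ^ 2)
    + ((c10 g k z b c nu * (xx g k b nu / 2) + c1h g k z b c nu * k * c ^ 2)
        * (U0 ^ 2 + ∑ i, U i ^ 2)
      - 2 * (c10 g k z b c nu * U0 + c1h g k z b c nu * ∑ i, q i * U i)
          * (xx g k b nu / 2 * U0 + k * ∑ i, q i * U i))
    + ((c20 g k z b c nu * (yy g k b nu / 2) - c2h g k z b c nu * k * c ^ 2)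
        * (V0 ^ 2 + ∑ i, V i ^ 2)
      - 2 * (c20 g k z b c nu * V0 + c2h g k z b c nu * ∑ i, q i * V i)
          * (yy g k b nu / 2 * V0 - k * ∑ i, q i * V i))

/-- **Off-diagonal certificate, isotropic weight.** -/
theorem full_nonneg (h : Rad g k z (b ^ 2 + c ^ 2)) (hnu : 0 ≤ nu) (q : ι → ℝ)
    (hc : c ^ 2 = ∑ i, q i ^ 2) (hx : 0 < X2 g k b c nu) (hy : 0 < Y2 g k b c nu)
    (U0 V0 : ℝ) (U V : ι → ℝ) : 0 ≤ full g k z b c nu q U0 V0 U V := by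
  obtain ⟨U1, V1, u, v, hU, hV, hUU, hVV, hUV⟩ := split q U V hc
  obtain ⟨hA, hB, hAB⟩ := h.out hnu hx hy
  have h2 := h.fin2_nonneg hx hy U0 U1 V0 V1
  set A := k + (c10 g k z b c nu * (xx g k b nu / 2) + c1h g k z b c nu * k * c ^ 2) with hAdef
  set B := k + (c20 g k z b c nu * (yy g k b nu / 2) - c2h g k z b c nu * k * c ^ 2) with hBdef
  have hrest : 0 ≤ A * ∑ i, u i ^ 2 - 2 * k * ∑ i, u i * v i + B * ∑ i, v i ^ 2 := by
    have e : A * ∑ i, u i ^ 2 - 2 * k * ∑ i, u i * v i + B * ∑ i, v i ^ 2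
        = ∑ i, (A * u i ^ 2 - 2 * k * (u i * v i) + B * v i ^ 2) := by
      rw [Finset.sum_add_distrib, Finset.sum_sub_distrib, ← Finset.mul_sum, ← Finset.mul_sum,
        ← Finset.mul_sum]
    rw [e]
    refine Finset.sum_nonneg fun i _ => ?_
    have : 0 ≤ A * (A * u i ^ 2 - 2 * k * (u i * v i) + B * v i ^ 2) := by
      have e2 : A * (A * u i ^ 2 - 2 * k * (u i * v i) + B * v i ^ 2)
          = (A * u i - k * v i) ^ 2 + (A * B - k ^ 2) * v i ^ 2 := by ring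
      rw [e2]
      have : 0 ≤ A * B - k ^ 2 := by linarith
      positivity
    exact nonneg_of_mul_nonneg_right this hA
  have hq : ∑ i, q i * (U i - V i) = c * U1 - c * V1 := by
    rw [← hU, ← hV, ← Finset.sum_sub_distrib]
    exact Finset.sum_congr rfl fun i _ => by ring
  have hd : ∑ i, (U i - V i) ^ 2 = ∑ i, U i ^ 2 - 2 * ∑ i, U i * V i + ∑ i, V i ^ 2 := by
    rw [Finset.mul_sum, ← Finset.sum_sub_distrib, ← Finset.sum_add_distrib]
    exact Finset.sum_congr rfl fun i _ => by ring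
  have e : full g k z b c nu q U0 V0 U V = fin2 g k z b c nu U0 U1 V0 V1
      + (A * ∑ i, u i ^ 2 - 2 * k * ∑ i, u i * v i + B * ∑ i, v i ^ 2) := by
    unfold full fin2
    rw [hq, hd, hUU, hVV, hUV, hU, hV, hAdef, hBdef]
    ring
  rw [e]
  exact add_nonneg h2 hrest

end vectors

end Iso

end Vale.Agent.P088.R2.H942
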