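import Vale.Agent.P088.R2.H942.CertIso

/-!
# P088, stage 3: strict form of the isotropic certificate, algebra

Strict positivity of the out of plane block with two independent slopes, and of the in plane form.
-/

namespace Vale.Agent.P088.R2.H942.Iso.Near

set_option linter.unusedSectionVars false



/-- polynomial of the out of plane condition, `x = k - 1`, `d = 1 - b/s` -/
def Qf (x d g F : ℝ) : ℝ :=
  2 * x * ((1 + x) * F - g)
    + d * (-g * (2 + x) * (3 - d) * (1 - x) + 2 * g * d * (2 - d) * (2 + x) ^ 2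
      + F * (1 + x) * (2 - x * (1 - d)) + (1 + x) ^ 2 * (2 * (1 + x) + x * (1 - d)))

lemma Qf_P1 {x d : ℝ} (hx : 0 < x) (hd : 0 ≤ d) (hd1 : d ≤ 1) :
    0 < Qf x d (2 * ((1 + x) - 1)) (1 + x) := by
  have e : Qf x d (2 * ((1 + x) - 1)) (1 + x)
      = 4 * d + x * (2 * (1 - d) + 20 * d ^ 2 + 16 * d ^ 2 * (1 - d))
        + x ^ 2 * (14 * d + 14 * d ^ 2 + 16 * d ^ 2 * (1 - d))
        + x ^ 3 * (2 + 8 * d + 2 * d ^ 2 + 4 * d ^ 2 * (1 - d)) := by
    unfold Qf; ring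
  rw [e]
  have h1 : 0 ≤ 1 - d := by linarith
  positivity

lemma Qf_P2 {x d : ℝ} (hx : 0 < x) (hd : 0 ≤ d) (hd1 : d ≤ 1) :
    0 < Qf x d (2 * ((1 + x) ^ 3 - 1)) ((1 + x) ^ 3) := by
  have e : Qf x d (2 * ((1 + x) ^ 3 - 1)) ((1 + x) ^ 3)
      = x * (2 * (1 - 2 * x + 2 * x ^ 3 + x ^ 4)
            - (60 + 104 * x + 73 * x ^ 2 + 24 * x ^ 3 + 3 * x ^ 4) / 400)
        + d * (4 - 16 * x + 8.4 * x ^ 2 + 36.3 * x ^ 3 + 24.4 * x ^ 4 + 5.3 * x ^ 5)
        + (d - 1 / 20) ^ 2 * (x * (60 + 104 * x + 73 * x ^ 2 + 24 * x ^ 3 + 3 * x ^ 4))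
        + d ^ 2 * (1 - d) * (x * (48 + 96 * x + 76 * x ^ 2 + 28 * x ^ 3 + 4 * x ^ 4)) := by
    unfold Qf; ring
  rw [e]
  have h1 : 0 ≤ 1 - d := by linarith
  have p1 : 0 < 2 * (1 - 2 * x + 2 * x ^ 3 + x ^ 4)
            - (60 + 104 * x + 73 * x ^ 2 + 24 * x ^ 3 + 3 * x ^ 4) / 400 := by
    nlinarith [mul_nonneg hx.le (sq_nonneg (x - 0.5)), sq_nonneg (x - 0.6), pow_pos hx 3,
      pow_pos hx 4, mul_nonneg (pow_pos hx 2).le (sq_nonneg (x - 0.5)), sq_nonneg (x^2 - 0.3)]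
  have p2 : 0 < 4 - 16 * x + 8.4 * x ^ 2 + 36.3 * x ^ 3 + 24.4 * x ^ 4 + 5.3 * x ^ 5 := by
    nlinarith [mul_nonneg hx.le (sq_nonneg (x - 0.35)), sq_nonneg (x - 0.3), pow_pos hx 3,
      pow_pos hx 4, pow_pos hx 5]
  have p3 : 0 ≤ d * (4 - 16 * x + 8.4 * x ^ 2 + 36.3 * x ^ 3 + 24.4 * x ^ 4 + 5.3 * x ^ 5) :=
    mul_nonneg hd p2.le
  have p4 : 0 < x * (2 * (1 - 2 * x + 2 * x ^ 3 + x ^ 4)
            - (60 + 104 * x + 73 * x ^ 2 + 24 * x ^ 3 + 3 * x ^ 4) / 400) := mul_pos hx p1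
  have p5 : 0 ≤ (d - 1 / 20) ^ 2 * (x * (60 + 104 * x + 73 * x ^ 2 + 24 * x ^ 3 + 3 * x ^ 4)) := by
    positivity
  have p6 : 0 ≤ d ^ 2 * (1 - d) * (x * (48 + 96 * x + 76 * x ^ 2 + 28 * x ^ 3 + 4 * x ^ 4)) := by
    positivity
  linarith

lemma Qf_pos {x d g F : ℝ} (hx : 0 < x) (hd : 0 ≤ d) (hd1 : d ≤ 1) (hg : 0 ≤ g)
    (hF1 : 1 + x ≤ F) (hF2 : F ≤ (1 + x) ^ 3) (hg2 : g ≤ 2 * (F - 1)) : 0 < Qf x d g F := by
  have hk3 : 0 < (1 + x) ^ 3 - (1 + x) := by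
    have : (1 + x) ^ 3 - (1 + x) = x * (2 + x) * (1 + x) := by ring
    rw [this]; positivity
  have q0 : 0 < Qf x d 0 F := by
    have e : Qf x d 0 F = F * (1 + x) * (2 * x * (1 - d * (1 - d) / 2) + 2 * d)
        + d * (1 + x) ^ 2 * (2 * (1 + x) + x * (1 - d)) := by
      unfold Qf; ring
    have h1 : 0 ≤ 1 - d := by linarith
    have h2 : 0 < 1 - d * (1 - d) / 2 := by nlinarith
    have h3 : 0 < F := by linarith
    rw [e]; positivity
  have q1 : 0 < Qf x d (2 * (F - 1)) F := by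
    have e : ((1 + x) ^ 3 - (1 + x)) * Qf x d (2 * (F - 1)) F
        = ((1 + x) ^ 3 - F) * Qf x d (2 * ((1 + x) - 1)) (1 + x)
          + (F - (1 + x)) * Qf x d (2 * ((1 + x) ^ 3 - 1)) ((1 + x) ^ 3) := by
      unfold Qf; ring
    have p1 := Qf_P1 hx hd hd1
    have p2 := Qf_P2 hx hd hd1
    have h1 : 0 ≤ (1 + x) ^ 3 - F := by linarith
    have h2 : 0 ≤ F - (1 + x) := by linarith
    have h3 : 0 < ((1 + x) ^ 3 - (1 + x)) * Qf x d (2 * (F - 1)) F := by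
      rw [e]
      rcases eq_or_lt_of_le h1 with h4 | h4
      · have : 0 < F - (1 + x) := by linarith
        rw [← h4]; positivity
      · positivity
    exact pos_of_mul_pos_right h3 hk3.le
  have hF : 0 < 2 * (F - 1) := by linarith
  have e : (2 * (F - 1)) * Qf x d g F
      = (2 * (F - 1) - g) * Qf x d 0 F + g * Qf x d (2 * (F - 1)) F := by
    unfold Qf; ring
  have h3 : 0 < (2 * (F - 1)) * Qf x d g F := by
    rw [e]
    have h1 : 0 ≤ 2 * (F - 1) - g := by linarith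
    rcases eq_or_lt_of_le hg with h4 | h4
    · have : 0 < 2 * (F - 1) - g := by linarith
      rw [← h4] at this ⊢; positivity
    · positivity
  exact pos_of_mul_pos_right h3 hF.le

/-- Profile data with the strict inequalities. -/
structure Rad2 (g k z s2 : ℝ) : Prop extends Rad g k z s2 where
  k_gt : 1 < k
  g_le : g ≤ 2 * (k + z * s2 - 1)

/-- the gap `Delta'` of the out of plane condition -/
noncomputable def DL (g k z b s : ℝ) : ℝ := 8 * g * Qf (k - 1) (1 - |b| / s) g (k + z * s ^ 2)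

/-- `|w|^2` for `w = p e + t (k s) h`, `s h.e = b` -/
def D1 (k b c p t : ℝ) : ℝ := p ^ 2 + 2 * p * t * k * b + t ^ 2 * k ^ 2 * (b ^ 2 + c ^ 2)

/-- numerator of `k + c_1.w` -/
def N1 (g k z b c p t : ℝ) : ℝ :=
  m0 g k z b c * D1 k b c p t + 8 * k * c ^ 2 * t * ((p - t * g) * k ^ 2 - b * (k ^ 2 - g * z) * p)

/-- upper constant -/
def MM (g k z b c s : ℝ) : ℝ := m0 g k z b c + 8 * k ^ 2 * s + 8 * g * (1 + k)

lemma D1_neg (k b c p t : ℝ) :
    D1 k (-b) c p t = p ^ 2 - 2 * p * t * k * b + t ^ 2 * k ^ 2 * (b ^ 2 + c ^ 2) := by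
  unfold D1; ring

lemma m0_neg (g k z b c : ℝ) : m0 g k z (-b) c = m0 g k z b c := by
  unfold m0 Sg; ring

lemma dm_neg (g k z b c : ℝ) : dm g k z (-b) c = dp g k z b c := by
  unfold dm dp Sg; ring

lemma dp_neg (g k z b c : ℝ) : dp g k z (-b) c = dm g k z b c := by
  unfold dm dp Sg; ring

lemma DL_neg (g k z b s : ℝ) : DL g k z (-b) s = DL g k z b s := by
  unfold DL; rw [abs_neg]

section

variable {g k z b c s : ℝ} (h : Rad2 g k z (b ^ 2 + c ^ 2)) (hs : 0 < s)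
  (hs2 : s ^ 2 = b ^ 2 + c ^ 2)
include h hs hs2

lemma abs_b_le : |b| ≤ s := by
  apply abs_le_of_sq_le_sq _ hs.le
  nlinarith [sq_nonneg c]

lemma DL_pos : 0 < DL g k z b s := by
  have hb := abs_b_le h hs hs2
  have h1 : 0 < Qf (k - 1) (1 - |b| / s) g (k + z * s ^ 2) := by
    have hz : 0 ≤ z * s ^ 2 := mul_nonneg h.z_nonneg (sq_nonneg s)
    have h3 := h.cube
    have h4 := h.g_le
    rw [← hs2] at h3 h4
    have q1 : 0 ≤ 1 - |b| / s := by rw [sub_nonneg, div_le_one hs]; exact hb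
    have q2 : 1 - |b| / s ≤ 1 := by
      have : 0 ≤ |b| / s := by positivity
      linarith
    have q3 : k + z * s ^ 2 ≤ (1 + (k - 1)) ^ 3 := by
      rw [show 1 + (k - 1) = k by ring]; exact h3
    exact Qf_pos (by linarith [h.k_gt]) q1 q2 h.g_pos.le (by linarith) q3 h4
  have h2 := h.g_pos
  unfold DL; positivity

lemma delta_id (hb : 0 ≤ b) :
    (m0 g k z b c ^ 2 - k ^ 2 * (dp g k z b c * dm g k z b c)) * (s + b)
      - 4 * b * (c ^ 2 * (k ^ 2 - g * z)) * m0 g k z b c = (s + b) * DL g k z b s := by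
  obtain ⟨β, hβ⟩ : ∃ β, b = β * s := ⟨b / s, by field_simp⟩
  have hK := h.Kk_s2
  have hr := h.rel
  rw [← hs2] at hK hr
  have hc2 : c ^ 2 = s ^ 2 - b ^ 2 := by linarith
  have e1 : c ^ 2 * (k ^ 2 - g * z) = (1 - β ^ 2) * (g * (1 + k)) := by
    rw [hc2, hβ, ← hK]; ring
  have e2 : Sg g k z b c = 2 * (g + (k + z * s ^ 2) + k) := by unfold Sg; rw [hs2]
  have e3 : dp g k z b c * dm g k z b c
      = (2 * (g + (k + z * s ^ 2) + k)) ^ 2 - 16 * β ^ 2 * (g * (1 + (k + z * s ^ 2))) := by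
    rw [← hr, ← e2]
    unfold dp dm
    rw [hβ]; ring
  have e4 : m0 g k z b c = k * (2 * (g + (k + z * s ^ 2) + k))
      - 4 * (g - (1 - β ^ 2) * (g * (1 + k))) := by
    rw [h.m0_eq, e1, e2]
  have e5 : |b| / s = β := by rw [abs_of_nonneg hb, hβ]; field_simp
  rw [e1, e3, e4]
  unfold DL Qf
  rw [e5, hβ]
  ring

lemma c2_eq : c ^ 2 = (s - b) * (s + b) := by nlinarith

lemma cpt {p t : ℝ} (hp : 0 ≤ p) (ht : 0 ≤ t) : c ^ 2 * p * t * k ≤ s * D1 k b c p t := by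
  have e : s * D1 k b c p t - c ^ 2 * p * t * k
      = s * (p - t * k * s) ^ 2 + p * t * k * (s + b) ^ 2 := by
    unfold D1
    rw [← hs2, c2_eq h hs hs2]; ring
  have hk : 0 < k := by linarith [h.k_gt]
  have : 0 ≤ s * (p - t * k * s) ^ 2 + p * t * k * (s + b) ^ 2 := by positivity
  linarith

lemma lowA (hb : 0 ≤ b) {p t ε : ℝ} (hp : 0 ≤ p) (ht : 0 ≤ t) (hε : 0 ≤ ε)
    (hpt : t * g ≤ (1 + ε) * p) :
    (k ^ 2 * (dp g k z b c * dm g k z b c) + DL g k z b s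
        - 8 * k ^ 2 * s * ε * m0 g k z b c) * D1 k b c p t
      ≤ m0 g k z b c * N1 g k z b c p t := by
  have hid := delta_id h hs hs2 hb
  have hm := h.m0_pos
  have hk : 0 < k := by linarith [h.k_gt]
  have hy : 0 ≤ c ^ 2 * (k ^ 2 - g * z) := mul_nonneg (sq_nonneg c) h.Kk_pos.le
  have hcpt := cpt h hs hs2 hp ht
  have hΔ : 0 ≤ (m0 g k z b c ^ 2 - k ^ 2 * (dp g k z b c * dm g k z b c)) - DL g k z b s := by
    have hsb : 0 < s + b := by linarith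
    have : 0 ≤ (s + b) * ((m0 g k z b c ^ 2 - k ^ 2 * (dp g k z b c * dm g k z b c))
        - DL g k z b s) := by
      have : 0 ≤ 4 * b * (c ^ 2 * (k ^ 2 - g * z)) * m0 g k z b c := by positivity
      linarith
    exact nonneg_of_mul_nonneg_right this hsb
  have e : m0 g k z b c * N1 g k z b c p t
      - (k ^ 2 * (dp g k z b c * dm g k z b c) + DL g k z b s
        - 8 * k ^ 2 * s * ε * m0 g k z b c) * D1 k b c p t
      = ((m0 g k z b c ^ 2 - k ^ 2 * (dp g k z b c * dm g k z b c)) - DL g k z b s)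
          * (p - t * k * s) ^ 2
        + 8 * k ^ 3 * c ^ 2 * t * m0 g k z b c * ((1 + ε) * p - t * g)
        + 8 * k ^ 2 * ε * m0 g k z b c * (s * D1 k b c p t - c ^ 2 * p * t * k) := by
    have hD : D1 k b c p t = (p - t * k * s) ^ 2 + 2 * p * t * k * (s + b) := by
      unfold D1; rw [← hs2]; ring
    unfold N1
    rw [hD]
    linear_combination (2 * p * t * k) * hid
  have t1 : 0 ≤ ((m0 g k z b c ^ 2 - k ^ 2 * (dp g k z b c * dm g k z b c)) - DL g k z b s)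
          * (p - t * k * s) ^ 2 := by positivity
  have t2 : 0 ≤ 8 * k ^ 3 * c ^ 2 * t * m0 g k z b c * ((1 + ε) * p - t * g) := by
    have : 0 ≤ (1 + ε) * p - t * g := by linarith
    positivity
  have t3 : 0 ≤ 8 * k ^ 2 * ε * m0 g k z b c * (s * D1 k b c p t - c ^ 2 * p * t * k) := by
    have : 0 ≤ s * D1 k b c p t - c ^ 2 * p * t * k := by linarith
    positivity
  linarith

omit hs hs2 in
lemma neg_rad : Rad2 g k z ((-b) ^ 2 + c ^ 2) := by
  rw [neg_sq]; exact h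

lemma lowB (hb : 0 ≤ b) {p t ε : ℝ} (hp : 0 ≤ p) (ht : 0 ≤ t) (hε : 0 ≤ ε)
    (hpt : t * g ≤ (1 + ε) * p) :
    (m0 g k z b c - 8 * k ^ 2 * s * ε) * D1 k (-b) c p t ≤ N1 g k z (-b) c p t := by
  have hk : 0 < k := by linarith [h.k_gt]
  have hK := h.Kk_pos
  have hcpt := cpt (neg_rad h) hs (by rw [neg_sq]; exact hs2) hp ht
  have e : N1 g k z (-b) c p t - (m0 g k z b c - 8 * k ^ 2 * s * ε) * D1 k (-b) c p t
      = 8 * k ^ 3 * c ^ 2 * t * ((1 + ε) * p - t * g)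
        + 8 * k * c ^ 2 * t * b * (k ^ 2 - g * z) * p
        + 8 * k ^ 2 * ε * (s * D1 k (-b) c p t - c ^ 2 * p * t * k) := by
    unfold N1
    rw [m0_neg]; ring
  have t1 : 0 ≤ 8 * k ^ 3 * c ^ 2 * t * ((1 + ε) * p - t * g) := by
    have : 0 ≤ (1 + ε) * p - t * g := by linarith
    positivity
  have t2 : 0 ≤ 8 * k * c ^ 2 * t * b * (k ^ 2 - g * z) * p := by positivity
  have t3 : 0 ≤ 8 * k ^ 2 * ε * (s * D1 k (-b) c p t - c ^ 2 * p * t * k) := by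
    have : 0 ≤ s * D1 k (-b) c p t - c ^ 2 * p * t * k := by linarith
    positivity
  linarith

lemma up {p t : ℝ} (hp : 0 ≤ p) (ht : 0 ≤ t) :
    N1 g k z b c p t ≤ MM g k z b c s * D1 k b c p t := by
  have hk : 0 < k := by linarith [h.k_gt]
  have hK := h.Kk_pos
  have hKs := h.Kk_s2
  rw [← hs2] at hKs
  have hcpt := cpt h hs hs2 hp ht
  have hb : 0 ≤ s + b := by
    have := (abs_le.1 (abs_b_le h hs hs2)).1; linarith
  have hg := h.g_pos
  have e : MM g k z b c s * D1 k b c p t - N1 g k z b c p t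
      = 8 * k ^ 2 * (s * D1 k b c p t - c ^ 2 * p * t * k) + 8 * k ^ 3 * c ^ 2 * t ^ 2 * g
        + 8 * (k ^ 2 - g * z) * (s * (s * D1 k b c p t - c ^ 2 * p * t * k)
            + (s + b) * (c ^ 2 * p * t * k)) := by
    unfold MM N1
    linear_combination (-8 * D1 k b c p t) * hKs
  have h1 : 0 ≤ s * D1 k b c p t - c ^ 2 * p * t * k := by linarith
  have : 0 ≤ 8 * k ^ 2 * (s * D1 k b c p t - c ^ 2 * p * t * k) + 8 * k ^ 3 * c ^ 2 * t ^ 2 * g
        + 8 * (k ^ 2 - g * z) * (s * (s * D1 k b c p t - c ^ 2 * p * t * k)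
            + (s + b) * (c ^ 2 * p * t * k)) := by positivity
  linarith

/-- Out of plane determinant, upper half. -/
lemma prod_aux (hb : 0 ≤ b) {p1 t1 p2 t2 ε : ℝ} (hp1 : 0 ≤ p1) (ht1 : 0 ≤ t1) (hp2 : 0 ≤ p2)
    (ht2 : 0 ≤ t2) (hε : 0 ≤ ε) (h1 : t1 * g ≤ (1 + ε) * p1) (h2 : t2 * g ≤ (1 + ε) * p2)
    (hε2 : 8 * k ^ 2 * s * ε * (m0 g k z b c ^ 2
      + (k ^ 2 * (dp g k z b c * dm g k z b c) + DL g k z b s)) ≤ m0 g k z b c * DL g k z b s / 2)
    (hD1 : 0 < D1 k b c p1 t1) (hD2 : 0 < D1 k (-b) c p2 t2) :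
    0 < N1 g k z b c p1 t1 ∧ 0 < N1 g k z (-b) c p2 t2 ∧
    (k ^ 2 * (dp g k z b c * dm g k z b c) + DL g k z b s / 2)
        * (D1 k b c p1 t1 * D1 k (-b) c p2 t2)
      ≤ N1 g k z b c p1 t1 * N1 g k z (-b) c p2 t2 := by
  have hk : 0 < k := by linarith [h.k_gt]
  have hm := h.m0_pos
  have hDL := DL_pos h hs hs2
  have hdd : 0 < dp g k z b c * dm g k z b c := mul_pos h.dpos.2 h.dpos.1
  have lA := lowA h hs hs2 hb hp1 ht1 hε h1
  have lB := lowB h hs hs2 hb hp2 ht2 hε h2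
  set M := m0 g k z b c
  set X := k ^ 2 * (dp g k z b c * dm g k z b c) + DL g k z b s with hX
  set a := 8 * k ^ 2 * s * ε with ha
  have ha0 : 0 ≤ a := by positivity
  have hXp : 0 < X := by positivity
  have hXD : DL g k z b s ≤ X := by
    have : 0 ≤ k ^ 2 * (dp g k z b c * dm g k z b c) := by positivity
    linarith
  have a1 : a * M ≤ DL g k z b s / 2 := by
    have : M * (a * M) ≤ M * (DL g k z b s / 2) := by
      have : 0 ≤ a * X := by positivity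
      nlinarith
    exact le_of_mul_le_mul_left this hm
  have a2 : a ≤ M / 2 := by
    have : X * a ≤ X * (M / 2) := by
      have : 0 ≤ a * M ^ 2 := by positivity
      nlinarith
    exact le_of_mul_le_mul_left this hXp
  have hXa : 0 < X - a * M := by linarith
  have hMa : 0 < M - a := by linarith
  have q1 : 0 < N1 g k z b c p1 t1 := by
    have : 0 < (X - a * M) * D1 k b c p1 t1 := mul_pos hXa hD1
    exact pos_of_mul_pos_right (this.trans_le lA) hm.le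
  have q2 : 0 < N1 g k z (-b) c p2 t2 := (mul_pos hMa hD2).trans_le lB
  refine ⟨q1, q2, ?_⟩
  have q3 : (X - a * M) * D1 k b c p1 t1 * ((M - a) * D1 k (-b) c p2 t2)
      ≤ (M * N1 g k z b c p1 t1) * N1 g k z (-b) c p2 t2 :=
    mul_le_mul lA lB (mul_pos hMa hD2).le (by positivity)
  have q4 : M * (X - DL g k z b s / 2) ≤ (X - a * M) * (M - a) := by
    have : 0 ≤ a ^ 2 * M := by positivity
    nlinarith
  have q5 := mul_le_mul_of_nonneg_right q4 (mul_pos hD1 hD2).le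
  have q6 : M * ((X - DL g k z b s / 2) * (D1 k b c p1 t1 * D1 k (-b) c p2 t2))
      ≤ M * (N1 g k z b c p1 t1 * N1 g k z (-b) c p2 t2) := by nlinarith
  have q7 := le_of_mul_le_mul_left q6 hm
  have e : k ^ 2 * (dp g k z b c * dm g k z b c) + DL g k z b s / 2 = X - DL g k z b s / 2 := by
    rw [hX]; ring
  rw [e]; exact q7

end

/-- Out of plane determinant. -/
lemma prod_ge {g k z b c s : ℝ} (h : Rad2 g k z (b ^ 2 + c ^ 2)) (hs : 0 < s)
    (hs2 : s ^ 2 = b ^ 2 + c ^ 2) {p1 t1 p2 t2 ε : ℝ} (hp1 : 0 ≤ p1) (ht1 : 0 ≤ t1) (hp2 : 0 ≤ p2)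
    (ht2 : 0 ≤ t2) (hε : 0 ≤ ε) (h1 : t1 * g ≤ (1 + ε) * p1) (h2 : t2 * g ≤ (1 + ε) * p2)
    (hε2 : 8 * k ^ 2 * s * ε * (m0 g k z b c ^ 2
      + (k ^ 2 * (dp g k z b c * dm g k z b c) + DL g k z b s)) ≤ m0 g k z b c * DL g k z b s / 2)
    (hD1 : 0 < D1 k b c p1 t1) (hD2 : 0 < D1 k (-b) c p2 t2) :
    0 < N1 g k z b c p1 t1 ∧ 0 < N1 g k z (-b) c p2 t2 ∧
    (k ^ 2 * (dp g k z b c * dm g k z b c) + DL g k z b s / 2)
        * (D1 k b c p1 t1 * D1 k (-b) c p2 t2)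
      ≤ N1 g k z b c p1 t1 * N1 g k z (-b) c p2 t2 := by
  rcases le_total 0 b with hb | hb
  · exact prod_aux h hs hs2 hb hp1 ht1 hp2 ht2 hε h1 h2 hε2 hD1 hD2
  · have hb' : 0 ≤ -b := by linarith
    have hh := prod_aux (neg_rad h) hs (by rw [neg_sq]; exact hs2) hb' hp2 ht2 hp1 ht1 hε h2 h1
      (by rw [m0_neg, dp_neg, dm_neg, DL_neg, mul_comm (dm g k z b c)]; exact hε2) hD2
      (by rw [neg_neg]; exact hD1)
    rw [neg_neg, dp_neg, dm_neg, DL_neg, mul_comm (dm g k z b c)] at hh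
    refine ⟨hh.2.1, hh.1, ?_⟩
    have := hh.2.2
    linarith [mul_comm (D1 k (-b) c p2 t2) (D1 k b c p1 t1),
      mul_comm (N1 g k z (-b) c p2 t2) (N1 g k z b c p1 t1),
      congrArg (fun x => (k ^ 2 * (dp g k z b c * dm g k z b c) + DL g k z b s / 2) * x)
        (mul_comm (D1 k (-b) c p2 t2) (D1 k b c p1 t1))]

end Vale.Agent.P088.R2.H942.Iso.Near
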