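import Vale.Agent.P088.R2.H942.Near9

/-!
# P088, stage 3: the near certificate close to the diagonal (3)

Size of the fields, the field which distributes the normal convexity, and the pointwise
inequality of region II of zone C.
-/

noncomputable section

namespace Vale.Agent.P088.R2.H942.Iso.Near

set_option linter.unusedSectionVars false

open Vale.Agent.P088.R2.H230.W (dd dd_comm dd_add_left dd_add_right dd_sub_left dd_sub_right
  dd_smul_left dd_smul_right dd_self_nonneg dd_cs TT Hm TT_abs_le)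
open Set

variable {ι : Type*} [Fintype ι]

section

variable {e q : ι → ℝ} {g k z s : ℝ} (H : Small g k z s) (he : dd e e = 1)
  (hq : dd q q = s ^ 2)
include H he hq

lemma exists_h : ∃ h' : ι → ℝ, q = s • h' ∧ dd h' h' = 1 ∧ dd e h' ∈ Icc (-1 : ℝ) 1 := by
  have hs := H.s_pos
  obtain ⟨h', rfl⟩ : ∃ h' : ι → ℝ, q = s • h' :=
    ⟨s⁻¹ • q, by rw [smul_smul, mul_inv_cancel₀ hs.ne', one_smul]⟩
  have hh : dd h' h' = 1 := by
    rw [dd_smul_left, dd_smul_right] at hq
    have : s ^ 2 * dd h' h' = s ^ 2 * 1 := by linarith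
    exact mul_left_cancel₀ (pow_ne_zero 2 hs.ne') this
  have := dd_cs e h'; rw [he, hh] at this
  exact ⟨h', rfl, hh, abs_le.1 (abs_le_of_sq_le_sq (by linarith) (by norm_num))⟩

lemma cn_sq {p t : ℝ} (hD : 0 < wq k (dd e q) (s ^ 2) p t) :
    dd (cn e q g k z (dd e q) (dd q q) p t) (cn e q g k z (dd e q) (dd q q) p t)
      * dd (p • e + (t * k) • q) (p • e + (t * k) • q) ≤ 25 * s ^ 2 := by
  obtain ⟨h', rfl, hh, hγ⟩ := exists_h H he hq
  have hs2 := sq_bc (s := s) hγ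
  have eb : dd e (s • h') = s * dd e h' := dd_smul_right _ _ _
  rw [eb] at hD ⊢
  rw [hq, ← cx_cn (c := s * √(1 - dd e h' ^ 2)) hs2, ← lee1_eq rfl (H.rad' hs2).dpos.1.ne',
    show (t * k) • (s • h') = (t * k * s) • h' by rw [smul_smul],
    lee_sq he hh _ _ _ _ (by
      have : p ^ 2 + (t * k * s) ^ 2 + 2 * dd e h' * p * (t * k * s)
        = wq k (s * dd e h') (s ^ 2) p t := by unfold wq; ring
      rw [this]; exact hD.ne')]
  have h1 := H.alpha_sq hs2
  have h2 : 0 ≤ dd e h' ^ 2 * (s * (ai (g) (k) (z) (s * dd e h')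
      / dm g k z (s * dd e h') (s * √(1 - dd e h' ^ 2)))) ^ 2 := by positivity
  linarith

lemma Y_le_HQ (U V : ι → ℝ) :
    dd (U - V) (U - V) ≤ 2 * HQ e q g k z U V + 10 * s ^ 2 * (dd U U + dd V V) := by
  have hk1 := H.k_gt
  have hk2 := H.k_le
  have hg := H.rad.g_pos
  have hz := H.rad.z_nonneg
  have hs := H.s_pos
  have h1 := dd_cs q (U - V)
  rw [hq] at h1
  have h2 : (dd e U + dd e V) ^ 2 ≤ 2 * (dd U U + dd V V) := by
    have a1 := dd_cs e U
    have a2 := dd_cs e V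
    rw [he, one_mul] at a1 a2
    nlinarith [sq_nonneg (dd e U - dd e V)]
  have h0 := dd_self_nonneg (U - V)
  have hN : 0 ≤ dd U U + dd V V := add_nonneg (dd_self_nonneg _) (dd_self_nonneg _)
  unfold HQ
  generalize dd (U - V) (U - V) = Y at *
  generalize dd e U + dd e V = x at *
  generalize dd q (U - V) = y at *
  generalize dd U U + dd V V = N at *
  have h3 : -(2 * k * x * y) ≤ k / 2 * Y + 2 * k * s ^ 2 * x ^ 2 := by
    have h5 : 0 ≤ (y + 2 * s ^ 2 * x) ^ 2 := sq_nonneg _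
    have h6 : s ^ 2 * (-(4 * x * y)) ≤ s ^ 2 * (Y + 4 * s ^ 2 * x ^ 2) := by nlinarith
    have h7 := le_of_mul_le_mul_left h6 (pow_pos hs 2)
    have h8 := mul_le_mul_of_nonneg_left h7 (show 0 ≤ k / 2 by linarith)
    linarith
  have h4 : 0 ≤ g * x ^ 2 := by positivity
  have h5 : 0 ≤ z * y ^ 2 := by positivity
  have h6 : 2 * k * s ^ 2 * x ^ 2 ≤ 2 * k * s ^ 2 * (2 * N) :=
    mul_le_mul_of_nonneg_left h2 (by positivity)
  have h7 : 0 ≤ s ^ 2 * N := mul_nonneg (sq_nonneg s) hN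
  have h8 : 8 * k * (s ^ 2 * N) ≤ 10 * (s ^ 2 * N) := mul_le_mul_of_nonneg_right (by linarith) h7
  have h9 : Y ≤ k * Y := by nlinarith
  linarith

omit hq in
lemma TT_le {c w U : ι → ℝ} (h : dd c c * dd w w ≤ 25 * s ^ 2) : -(5 * s * dd U U) ≤ TT c w U := by
  have := TT_abs_le c w U (τ := 5 * s) (by linarith [H.s_pos]) (by nlinarith)
  exact (abs_le.1 this).1

lemma Y_le_FU {p1 t1 p2 t2 : ℝ} (hD1 : 0 < wq k (dd e q) (s ^ 2) p1 t1)
    (hD2 : 0 < wq k (-dd e q) (s ^ 2) p2 t2) (U V : ι → ℝ) :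
    dd (U - V) (U - V) ≤ 2 * FU e q g k z p1 t1 p2 t2 U V + 13 * s * (dd U U + dd V V) := by
  have h1 := Y_le_HQ H he hq U V
  have h2 := TT_le H he (U := U) (cn_sq H he hq hD1)
  have hq' : dd (-q) (-q) = s ^ 2 := by
    rw [← hq]; unfold dd; exact Finset.sum_congr rfl fun i _ => by simp
  have e1 : dd e (-q) = -dd e q := by
    unfold dd
    rw [← Finset.sum_neg_distrib]; exact Finset.sum_congr rfl fun i _ => by simp
  have e2 : p2 • e + (t2 * k) • (-q) = p2 • e - (t2 * k) • q := by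
    rw [smul_neg, sub_eq_add_neg]
  have h3 := TT_le H he (U := V) (cn_sq H he hq' (p := p2) (t := t2) (by rw [e1]; exact hD2))
  rw [e1, e2, hq'] at h3
  rw [hq] at h2
  unfold FU
  rw [hq]
  have hs := H.s_pos
  have hs4 := H.s_le
  have hU := dd_self_nonneg U
  have hV := dd_self_nonneg V
  have h5 : s ^ 2 * (dd U U + dd V V) ≤ s / 4 * (dd U U + dd V V) :=
    mul_le_mul_of_nonneg_right (by nlinarith) (by linarith)
  have h6 : 0 ≤ s * (dd U U + dd V V) := by positivity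
  linarith

end

/-! ### The field of the normal convexity -/

/-- `(2 (w.e) e - w) / |w|^2` -/
def kf (e w : ι → ℝ) : ι → ℝ := (dd w w)⁻¹ • ((2 * dd e w) • e - w)

lemma kf_TT {e w : ι → ℝ} (he : dd e e = 1) (hw : dd w w ≠ 0) (U : ι → ℝ) :
    TT (kf e w) w U = dd U U - 2 * dd e U ^ 2 - 2 * (Gr e w U / dd w w) := by
  unfold TT kf Gr
  simp only [dd_smul_left, dd_sub_left, dd_sub_right]
  field_simp
  ring

lemma kf_sq {e w : ι → ℝ} (he : dd e e = 1) (hw : dd w w ≠ 0) :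
    dd (kf e w) (kf e w) * dd w w = 1 := by
  unfold kf
  simp only [dd_smul_left, dd_smul_right, dd_sub_left, dd_sub_right, he, dd_comm w e]
  field_simp
  ring

lemma Gr_add_smul {e q U : ι → ℝ} (he : dd e e = 1) (p l : ℝ) :
    Gr e (p • e + l • q) U = l ^ 2 * Gr e q U := by
  unfold Gr
  simp only [dd_smul_left, dd_smul_right, dd_add_left, dd_add_right, he, dd_comm q e]
  ring

lemma Gr_nonneg {e q : ι → ℝ} (he : dd e e = 1) (U : ι → ℝ) : 0 ≤ Gr e q U := by
  rcases eq_or_lt_of_le (dd_self_nonneg q) with h | h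
  · have hq : q = 0 := by
      funext i
      have h1 : q i * q i ≤ dd q q :=
        Finset.single_le_sum (f := fun i => q i * q i) (fun j _ => mul_self_nonneg _)
          (Finset.mem_univ i)
      have h2 : q i * q i = 0 := le_antisymm (by linarith) (mul_self_nonneg _)
      simpa using h2
    subst hq
    unfold Gr dd
    simp
  · obtain ⟨s, hs, hs2⟩ : ∃ s : ℝ, 0 < s ∧ s ^ 2 = dd q q :=
      ⟨√(dd q q), Real.sqrt_pos.2 h, Real.sq_sqrt h.le⟩
    obtain ⟨h', rfl⟩ : ∃ h' : ι → ℝ, q = s • h' :=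
      ⟨s⁻¹ • q, by rw [smul_smul, mul_inv_cancel₀ hs.ne', one_smul]⟩
    have hh : dd h' h' = 1 := by
      rw [dd_smul_left, dd_smul_right] at hs2
      have : s ^ 2 * dd h' h' = s ^ 2 * 1 := by linarith
      exact mul_left_cancel₀ (pow_ne_zero 2 hs.ne') this
    rw [Gr_smul]
    exact mul_nonneg (sq_nonneg s) (Gr_nonneg_aux he hh)

/-- `|w|^2 >= (t k s)^2/4` -/
lemma dd_w_ge {e q : ι → ℝ} (he : dd e e = 1) {s p l : ℝ} (hs : 0 < s) (hq : dd q q = s ^ 2)
    (hp : 0 ≤ p) (hpl : p ≤ l * s / 2) (hl : 0 ≤ l) :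
    l ^ 2 * s ^ 2 / 4 ≤ dd (p • e + l • q) (p • e + l • q) := by
  have h1 : dd e q ^ 2 ≤ s ^ 2 := by
    have := dd_cs e q; rwa [he, hq, one_mul] at this
  have h2 : -s ≤ dd e q := (abs_le.1 (abs_le_of_sq_le_sq (by linarith) hs.le)).1
  have e1 : dd (p • e + l • q) (p • e + l • q) = p ^ 2 + 2 * p * l * dd e q + l ^ 2 * s ^ 2 := by
    simp only [dd_smul_left, dd_smul_right, dd_add_left, dd_add_right, he, hq, dd_comm q e]
    ring
  rw [e1]
  have h3 : p * l * (-s) ≤ p * l * dd e q := mul_le_mul_of_nonneg_left h2 (by positivity)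
  have h4 : 0 ≤ l * s - p - l * s / 2 := by linarith
  have h5 : 0 ≤ (l * s - p - l * s / 2) * (l * s - p + l * s / 2) := by
    apply mul_nonneg h4
    have : 0 ≤ l * s := by positivity
    linarith
  nlinarith

/-- the multiplier of the normal convexity -/
lemma kf_ge {e q : ι → ℝ} (he : dd e e = 1) {s p l : ℝ} (hs : 0 < s) (hq : dd q q = s ^ 2)
    (hp : 0 ≤ p) (hpl : p ≤ l * s / 2) (hl : 0 < l) (U : ι → ℝ) :
    dd U U - 2 * dd e U ^ 2 - 8 / s ^ 2 * Gr e q U
      ≤ TT (kf e (p • e + l • q)) (p • e + l • q) U := by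
  have h1 := dd_w_ge he hs hq hp hpl hl.le
  have h2 : 0 < l ^ 2 * s ^ 2 / 4 := by positivity
  have h3 : 0 < dd (p • e + l • q) (p • e + l • q) := h2.trans_le h1
  rw [kf_TT he h3.ne', Gr_add_smul he]
  have h4 := Gr_nonneg (q := q) he U
  have h5 : l ^ 2 * Gr e q U / dd (p • e + l • q) (p • e + l • q) ≤ 4 / s ^ 2 * Gr e q U := by
    rw [div_le_iff₀ h3]
    have h6 : l ^ 2 * Gr e q U = 4 / s ^ 2 * Gr e q U * (l ^ 2 * s ^ 2 / 4) := by
      field_simp
    rw [h6]
    exact mul_le_mul_of_nonneg_left h1 (by positivity)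
  have h7 : 8 / s ^ 2 * Gr e q U = 2 * (4 / s ^ 2 * Gr e q U) := by ring
  linarith

section

variable {e q : ι → ℝ} {g k z s : ℝ} (H : Small g k z s) (he : dd e e = 1)
  (hq : dd q q = s ^ 2)
include H he hq

/-- **Region II of zone C, pointwise.** `E` = the factor of the stiff part, `K` = the convexity of
the slope (separate slopes: `K₁ U_n² + K₂ V_n²`). -/
theorem regII {p1 t1 p2 t2 E K1 K2 κ : ℝ} (ht1 : 0 < t1) (ht2 : 0 < t2)
    (h1 : t1 * g ≤ p1) (h2 : t2 * g ≤ p2) (h1' : p1 ≤ t1 * k * s / 2) (h2' : p2 ≤ t2 * k * s / 2)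
    (hκ : 0 ≤ κ) (hK1 : 2 * κ ≤ K1) (hK2 : 2 * κ ≤ K2) (hE : 800 * κ ≤ E * s ^ 2) (U V : ι → ℝ) :
    κ * (dd U U + dd V V) + E / 2 * FU e q g k z p1 t1 p2 t2 U V
      ≤ K1 * dd e U ^ 2 + K2 * dd e V ^ 2 + E * FU e q g k z p1 t1 p2 t2 U V
        + κ * TT (kf e (p1 • e + (t1 * k) • q)) (p1 • e + (t1 * k) • q) U
        + κ * TT (kf e (p2 • e - (t2 * k) • q)) (p2 • e - (t2 * k) • q) V := by
  have hs := H.s_pos
  have hk := H.k_gt
  have hg := H.rad.g_pos
  have hp1 : 0 ≤ p1 := le_trans (by positivity) h1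
  have hp2 : 0 ≤ p2 := le_trans (by positivity) h2
  have hq' : dd (-q) (-q) = s ^ 2 := by
    rw [← hq]; unfold dd; exact Finset.sum_congr rfl fun i _ => by simp
  have e1 : dd e (-q) = -dd e q := by
    unfold dd
    rw [← Finset.sum_neg_distrib]; exact Finset.sum_congr rfl fun i _ => by simp
  have e2 : p2 • e + (t2 * k) • (-q) = p2 • e - (t2 * k) • q := by
    rw [smul_neg, sub_eq_add_neg]
  have e3 : Gr e (-q) V = Gr e q V := by
    have := Gr_smul e q V (-1)
    rw [neg_one_smul] at this; rw [this]; ring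
  have w1 : dd (p1 • e + (t1 * k) • q) (p1 • e + (t1 * k) • q) = wq k (dd e q) (s ^ 2) p1 t1 := by
    unfold wq
    simp only [dd_smul_left, dd_smul_right, dd_add_left, dd_add_right, he, hq, dd_comm q e]
    ring
  have w2 : dd (p2 • e + (t2 * k) • (-q)) (p2 • e + (t2 * k) • (-q))
      = wq k (-dd e q) (s ^ 2) p2 t2 := by
    unfold wq
    simp only [dd_smul_left, dd_smul_right, dd_add_left, dd_add_right, he, hq', dd_comm (-q) e, e1]
    ring
  have g1 := dd_w_ge he hs hq hp1 (by linarith : p1 ≤ t1 * k * s / 2) (by positivity)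
  have g2 := dd_w_ge he hs hq' hp2 (by linarith : p2 ≤ t2 * k * s / 2) (by positivity)
  have hD1 : 0 < wq k (dd e q) (s ^ 2) p1 t1 := by
    rw [← w1]; exact lt_of_lt_of_le (by positivity) g1
  have hD2 : 0 < wq k (-dd e q) (s ^ 2) p2 t2 := by
    rw [← w2]; exact lt_of_lt_of_le (by positivity) g2
  have main := near_small H he hq ht1.le ht2.le h1 h2 hD1 hD2 U V
  have k1 := kf_ge he hs hq hp1 (by linarith : p1 ≤ t1 * k * s / 2) (by positivity) U
  have k2 := kf_ge he hs hq' hp2 (by linarith : p2 ≤ t2 * k * s / 2) (by positivity) V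
  rw [e2, e3] at k2
  have G1 := Gr_nonneg (q := q) he U
  have G2 := Gr_nonneg (q := q) he V
  have hU := dd_self_nonneg U
  have hV := dd_self_nonneg V
  have hE0 : 0 ≤ E := by
    by_contra hn
    have h3 : E * s ^ 2 < 0 := mul_neg_of_neg_of_pos (not_le.1 hn) (pow_pos hs 2)
    linarith
  have hs4 : 0 ≤ s ^ 4 / 600 * (dd U U + dd V V) := by positivity
  have m1 : 1 / 50 * (Gr e q U + Gr e q V) ≤ FU e q g k z p1 t1 p2 t2 U V := by linarith
  have m2 := mul_le_mul_of_nonneg_left m1 (show 0 ≤ E / 2 by linarith)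
  have m3 := mul_le_mul_of_nonneg_left k1 hκ
  have m4 := mul_le_mul_of_nonneg_left k2 hκ
  have m5 : κ * (8 / s ^ 2) ≤ E / 100 := by
    rw [mul_div_assoc', div_le_iff₀ (pow_pos hs 2)]; linarith
  have m6 := mul_le_mul_of_nonneg_right m5 G1
  have m7 := mul_le_mul_of_nonneg_right m5 G2
  have m8 : 0 ≤ (K1 - 2 * κ) * dd e U ^ 2 := mul_nonneg (by linarith) (sq_nonneg _)
  have m9 : 0 ≤ (K2 - 2 * κ) * dd e V ^ 2 := mul_nonneg (by linarith) (sq_nonneg _)
  linarith

/-- **Region II of zone C, pointwise**, slope a function of `u`: `K (U_n + V_n)²`. -/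
theorem regIIu {p1 t1 p2 t2 E K κ : ℝ} (ht1 : 0 < t1) (ht2 : 0 < t2) (hs24 : 26 * s ≤ 1)
    (h1 : t1 * g ≤ p1) (h2 : t2 * g ≤ p2) (h1' : p1 ≤ t1 * k * s / 2) (h2' : p2 ≤ t2 * k * s / 2)
    (hκ : 0 ≤ κ) (hK : κ ≤ K) (hE : 800 * κ ≤ E * s ^ 2) (hE2 : 8 * κ ≤ E) (U V : ι → ℝ) :
    κ / 2 * (dd U U + dd V V) + E / 4 * FU e q g k z p1 t1 p2 t2 U V
      ≤ K * (dd e U + dd e V) ^ 2 + E * FU e q g k z p1 t1 p2 t2 U V
        + κ * TT (kf e (p1 • e + (t1 * k) • q)) (p1 • e + (t1 * k) • q) U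
        + κ * TT (kf e (p2 • e - (t2 * k) • q)) (p2 • e - (t2 * k) • q) V := by
  have hs := H.s_pos
  have hk := H.k_gt
  have hg := H.rad.g_pos
  have hp1 : 0 ≤ p1 := le_trans (by positivity) h1
  have hp2 : 0 ≤ p2 := le_trans (by positivity) h2
  have main := regII H he hq ht1 ht2 h1 h2 h1' h2' hκ (le_refl (2 * κ)) (le_refl (2 * κ)) hE U V
  have g1 := dd_w_ge he hs hq hp1 (by linarith : p1 ≤ t1 * k * s / 2) (by positivity)
  have hq' : dd (-q) (-q) = s ^ 2 := by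
    rw [← hq]; unfold dd; exact Finset.sum_congr rfl fun i _ => by simp
  have e1 : dd e (-q) = -dd e q := by
    unfold dd
    rw [← Finset.sum_neg_distrib]; exact Finset.sum_congr rfl fun i _ => by simp
  have g2 := dd_w_ge he hs hq' hp2 (by linarith : p2 ≤ t2 * k * s / 2) (by positivity)
  have w1 : dd (p1 • e + (t1 * k) • q) (p1 • e + (t1 * k) • q) = wq k (dd e q) (s ^ 2) p1 t1 := by
    unfold wq
    simp only [dd_smul_left, dd_smul_right, dd_add_left, dd_add_right, he, hq, dd_comm q e]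
    ring
  have w2 : dd (p2 • e + (t2 * k) • (-q)) (p2 • e + (t2 * k) • (-q))
      = wq k (-dd e q) (s ^ 2) p2 t2 := by
    unfold wq
    simp only [dd_smul_left, dd_smul_right, dd_add_left, dd_add_right, he, hq', dd_comm (-q) e, e1]
    ring
  have hD1 : 0 < wq k (dd e q) (s ^ 2) p1 t1 := by
    rw [← w1]; exact lt_of_lt_of_le (by positivity) g1
  have hD2 : 0 < wq k (-dd e q) (s ^ 2) p2 t2 := by
    rw [← w2]; exact lt_of_lt_of_le (by positivity) g2
  have hY := Y_le_FU H he hq hD1 hD2 U V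
  have hF := near_small H he hq ht1.le ht2.le h1 h2 hD1 hD2 U V
  have hF0 : 0 ≤ FU e q g k z p1 t1 p2 t2 U V := by
    refine le_trans ?_ hF
    have G1 := Gr_nonneg (q := q) he U
    have G2 := Gr_nonneg (q := q) he V
    have hU := dd_self_nonneg U
    have hV := dd_self_nonneg V
    positivity
  have hYn : (dd e U - dd e V) ^ 2 ≤ dd (U - V) (U - V) := by
    have := dd_cs e (U - V)
    rwa [he, one_mul, dd_sub_right] at this
  have hN : 0 ≤ dd U U + dd V V := add_nonneg (dd_self_nonneg _) (dd_self_nonneg _)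
  have m1 : (dd e U - dd e V) ^ 2 ≤ 2 * FU e q g k z p1 t1 p2 t2 U V
      + 1 / 2 * (dd U U + dd V V) := by
    have : 13 * s * (dd U U + dd V V) ≤ 1 / 2 * (dd U U + dd V V) :=
      mul_le_mul_of_nonneg_right (by linarith) hN
    linarith
  have m2 := mul_le_mul_of_nonneg_left m1 hκ
  have m3 : κ * (2 * FU e q g k z p1 t1 p2 t2 U V) ≤ E / 4 * FU e q g k z p1 t1 p2 t2 U V := by
    have := mul_le_mul_of_nonneg_right (show 2 * κ ≤ E / 4 by linarith) hF0
    linarith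
  have m4 : κ * (dd e U + dd e V) ^ 2 ≤ K * (dd e U + dd e V) ^ 2 :=
    mul_le_mul_of_nonneg_right hK (sq_nonneg _)
  nlinarith

end

end Vale.Agent.P088.R2.H942.Iso.Near
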