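import Vale.Agent.P088.R2.H942.Near10

/-!
# P088, stage 3: the near certificate close to the diagonal (4): the profile `(cosh θ s - 1)/θ²`
-/

noncomputable section

namespace Vale.Agent.P088.R2.H942.Iso.Near

open Real Set

lemma cosh_ge_two {x : ℝ} (hx : 0 ≤ x) : 1 + x ^ 2 / 2 ≤ cosh x := by
  have h1 : x / 2 ≤ sinh (x / 2) := self_le_sinh_iff.2 (by linarith)
  have h2 : cosh x = 1 + 2 * sinh (x / 2) ^ 2 := by
    have := cosh_sq (x / 2)
    have h3 := cosh_two_mul (x / 2)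
    rw [show 2 * (x / 2) = x by ring] at h3
    linarith
  have h4 : (x / 2) ^ 2 ≤ sinh (x / 2) ^ 2 := pow_le_pow_left₀ (by linarith) h1 2
  rw [h2]; linarith

lemma sinh_ge_three {x : ℝ} (hx : 0 ≤ x) : x + x ^ 3 / 6 ≤ sinh x := by
  have h : 0 ≤ sinh x - (x + x ^ 3 / 6) := by
    apply nonneg_of_hasDerivAt (f := fun x => sinh x - (x + x ^ 3 / 6))
      (f' := fun x => cosh x - (1 + x ^ 2 / 2))
    · intro y
      have := (hasDerivAt_sinh y).sub ((hasDerivAt_id y).add ((hasDerivAt_pow 3 y).div_const 6))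
      refine HasDerivAt.congr_deriv this ?_
      norm_num
      ring
    · simp
    · intro y hy
      linarith [cosh_ge_two hy]
    · exact hx
  linarith

lemma cosh_le_near {x : ℝ} (hx : 0 ≤ x) (hx1 : x ≤ 1 / 2) : cosh x ≤ 1 + 9 / 16 * x ^ 2 := by
  have h1 := cosh_le_exp_half_sq x
  have h2 : x ^ 2 ≤ (1 / 2) ^ 2 := pow_le_pow_left₀ hx hx1 2
  have h3 := Real.abs_exp_sub_one_sub_id_le (x := x ^ 2 / 2)
    (by rw [abs_of_nonneg (by positivity)]; linarith)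
  have h4 := (abs_le.1 h3).2
  have h5 : (x ^ 2 / 2) ^ 2 ≤ x ^ 2 / 16 := by nlinarith [sq_nonneg x]
  linarith

theorem small_cosh {θ s : ℝ} (hθ : 0 < θ) (hθ2 : 1 / 2 ≤ θ ^ 2) (hs : 0 < s) (hs1 : s ≤ 1 / 4)
    (hs2 : θ * s ≤ 1 / 2) : Small (gp θ s) (kp θ s) (zp θ s) s := by
  have hx : 0 < θ * s := mul_pos hθ hs
  have h1 := cosh_ge_two hx.le
  have h2 := cosh_le_near hx.le hs2
  have h3 := sinh_ge_three hx.le
  have h4 : (θ * s) ^ 2 ≤ (1 / 2) ^ 2 := pow_le_pow_left₀ hx.le hs2 2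
  refine ⟨hs, hs1, rad2_cosh hθ hθ2 hs, ?_, ?_, ?_, ?_⟩
  · unfold gp
    rw [le_div_iff₀ (by positivity)]
    nlinarith
  · unfold gp
    rw [div_le_iff₀ (by positivity)]
    nlinarith
  · rw [kp_add hs]
    linarith
  · unfold kp
    rw [le_sub_iff_add_le, le_div_iff₀ hx]
    have h5 : (s ^ 2 / 12 + 1) * (θ * s) ≤ θ * s + (θ * s) ^ 3 / 6 := by
      have : 0 ≤ (θ * s) * s ^ 2 * (θ ^ 2 - 1 / 2) := by
        have : 0 ≤ θ ^ 2 - 1 / 2 := by linarith
        positivity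
      nlinarith
    linarith

end Vale.Agent.P088.R2.H942.Iso.Near
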