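import Vale.Agent.P088.R2.H942.Near11

/-!
# P088, stage 3: zone II (region II of zone C and zone B2), pointwise
-/

noncomputable section

namespace Vale.Agent.P088.R2.H942.Iso.Near

set_option linter.unusedSectionVars false

open Vale.Agent.P088.R2.H230.W (dd dd_comm dd_add_left dd_add_right dd_sub_left dd_sub_right
  dd_smul_left dd_smul_right dd_self_nonneg dd_cs TT Hm TT_abs_le)
open Set

variable {ι : Type*} [Fintype ι]

lemma TT_add_left' (c d w U : ι → ℝ) : TT (c + d) w U = TT c w U + TT d w U := by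
  unfold TT; simp only [dd_add_left]; ring

/-- `dm |w|² (c_1 - e) = d1 e + cq q`, with `d1` below -/
def dn (g k z b s2 p : ℝ) : ℝ :=
  4 * g * k * p + 8 * g * k ^ 2 * b - dq g k z b s2 * (p ^ 2 + 2 * p * k * b)
    + k * s2 * (4 * (g * z) * b - 2 * k * (g + z * s2))

lemma cn_sub {e q : ι → ℝ} {g k z b s2 p : ℝ} (hdm : dq g k z b s2 ≠ 0)
    (hD : wq k b s2 p 1 ≠ 0) :
    cn e q g k z b s2 p 1 = e + (dq g k z b s2 * wq k b s2 p 1)⁻¹ •
        (dn g k z b s2 p • e + (p * aa g k z b - 4 * g * k ^ 2) • q) := by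
  have h0 := mul_ne_zero hdm hD
  have e1 : 4 * g * k * (p + 2 * 1 * k * b) + 1 * k * s2 * aa g k z b
      = dq g k z b s2 * wq k b s2 p 1 + dn g k z b s2 p := by
    unfold dn wq aa dq; ring
  unfold cn
  rw [e1]
  generalize dq g k z b s2 * wq k b s2 p 1 = X at *
  ext i
  simp only [Pi.smul_apply, Pi.add_apply, smul_eq_mul]
  field_simp
  ring

section

variable {e q : ι → ℝ} {g k z s : ℝ} (H : Small g k z s) (he : dd e e = 1)
  (hq : dd q q = s ^ 2)
include H he hq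

lemma dq_ge : 57 / 20 ≤ dq g k z (dd e q) (s ^ 2) := by
  obtain ⟨h', rfl, hh, hγ⟩ := exists_h H he hq
  have hs2 := sq_bc (s := s) hγ
  have eb : dd e (s • h') = s * dd e h' := dd_smul_right _ _ _
  have := H.dm_ge hs2
  rw [eb]
  unfold dm Sg at this
  unfold dq
  rw [← hs2] at this
  exact this

lemma dq_le : dq g k z (dd e q) (s ^ 2) ≤ 6 := by
  obtain ⟨h', rfl, hh, hγ⟩ := exists_h H he hq
  have hs2 := sq_bc (s := s) hγ
  have eb : dd e (s • h') = s * dd e h' := dd_smul_right _ _ _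
  have := H.dm_le hs2
  rw [eb]
  unfold dm Sg at this
  unfold dq
  rw [← hs2] at this
  exact this

lemma abs_eq_le : |dd e q| ≤ s := by
  have h1 : dd e q ^ 2 ≤ s ^ 2 := by
    have := dd_cs e q; rwa [he, hq, one_mul] at this
  exact abs_le_of_sq_le_sq (by linarith) H.s_pos.le

lemma aa_le : |aa g k z (dd e q)| ≤ 8 := by
  obtain ⟨h', rfl, hh, hγ⟩ := exists_h H he hq
  have hs2 := sq_bc (s := s) hγ
  have eb : dd e (s • h') = s * dd e h' := dd_smul_right _ _ _
  rw [eb]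
  exact H.aa_abs hs2

lemma dn_le {Z p : ℝ} (hZ : z ≤ Z) (hp : 0 ≤ p) (hpl : p ≤ k * s / 2) :
    |dn g k z (dd e q) (s ^ 2) p| ≤ s * (18 * p + 14 * (1 + Z) * s ^ 2) := by
  have hb := abs_eq_le H he hq
  have hd1 := dq_ge H he hq
  have hd2 := dq_le H he hq
  have hs := H.s_pos
  have hs4 := H.s_le
  have hk1 := H.k_gt
  have hk2 := H.k_le
  have hg := H.rad.g_pos
  have hgl := H.g_le
  have hz := H.rad.z_nonneg
  have hgz : g * z ≤ k ^ 2 := by
    obtain ⟨h', rfl, hh, hγ⟩ := exists_h H he hq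
    exact H.gz_le (sq_bc (s := s) hγ)
  have hgz0 := H.gz_nonneg
  set b := dd e q
  set d := dq g k z b (s ^ 2)
  have hb2 := abs_le.1 hb
  have hk3 : k ^ 2 ≤ 529 / 400 := by nlinarith
  have hps : p ≤ 23 / 40 * s := by nlinarith
  have hs2 : 0 ≤ s ^ 2 := sq_nonneg s
  have t1 : |4 * g * k * p| ≤ 7 / 10 * (s * p) := by
    rw [abs_of_nonneg (by positivity)]
    have a1 : g * k ≤ 9 / 16 * s ^ 2 * (23 / 20) := mul_le_mul hgl hk2 (by linarith) (by positivity)
    have a2 : g * k * p ≤ 9 / 16 * s ^ 2 * (23 / 20) * p := mul_le_mul_of_nonneg_right a1 hp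
    have a3 : s ^ 2 * p ≤ 1 / 4 * (s * p) := by
      have := mul_le_mul_of_nonneg_right hs4 (show 0 ≤ s * p by positivity)
      nlinarith
    have a4 : 0 ≤ s * p := by positivity
    linarith
  have t2 : |8 * g * k ^ 2 * b| ≤ 6 * s ^ 3 := by
    rw [abs_mul, abs_of_nonneg (show 0 ≤ 8 * g * k ^ 2 by positivity)]
    have a1 : g * k ^ 2 ≤ 9 / 16 * s ^ 2 * (529 / 400) :=
      mul_le_mul hgl hk3 (by positivity) (by positivity)
    have a2 : g * k ^ 2 * |b| ≤ 9 / 16 * s ^ 2 * (529 / 400) * s :=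
      mul_le_mul a1 hb (abs_nonneg _) (by positivity)
    have a3 : 0 ≤ s ^ 3 := by positivity
    nlinarith
  have t3 : |d * (p ^ 2 + 2 * p * k * b)| ≤ 173 / 10 * (s * p) := by
    rw [abs_mul, abs_of_nonneg (show 0 ≤ d by linarith)]
    have a1 : |p ^ 2 + 2 * p * k * b| ≤ 23 / 40 * (s * p) + 23 / 10 * (s * p) := by
      refine (abs_add_le _ _).trans (add_le_add ?_ ?_)
      · rw [abs_of_nonneg (sq_nonneg p)]; nlinarith
      · rw [abs_mul, abs_of_nonneg (show 0 ≤ 2 * p * k by positivity)]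
        have : 2 * p * k * |b| ≤ 2 * p * (23 / 20) * s :=
          mul_le_mul (mul_le_mul_of_nonneg_left hk2 (by positivity)) hb (abs_nonneg _)
            (by positivity)
        linarith
    have a2 : d * |p ^ 2 + 2 * p * k * b| ≤ 6 * (23 / 40 * (s * p) + 23 / 10 * (s * p)) :=
      mul_le_mul hd2 a1 (abs_nonneg _) (by norm_num)
    have a3 : 0 ≤ s * p := by positivity
    linarith
  have t4 : |k * s ^ 2 * (4 * (g * z) * b - 2 * k * (g + z * s ^ 2))|
      ≤ 7 * s ^ 3 + 3 / 4 * (1 + Z) * s ^ 3 := by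
    rw [abs_mul, abs_of_nonneg (show 0 ≤ k * s ^ 2 by positivity)]
    have a1 : |4 * (g * z) * b| ≤ 529 / 100 * s := by
      rw [abs_mul, abs_of_nonneg (show 0 ≤ 4 * (g * z) by positivity)]
      have : 4 * (g * z) * |b| ≤ 4 * (529 / 400) * s :=
        mul_le_mul (by linarith) hb (abs_nonneg _) (by norm_num)
      linarith
    have a2 : |2 * k * (g + z * s ^ 2)| ≤ 23 / 10 * ((1 + Z) * s ^ 2) := by
      rw [abs_of_nonneg (by positivity)]
      have b1 : g + z * s ^ 2 ≤ (1 + Z) * s ^ 2 := by nlinarith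
      have b2 : 0 ≤ g + z * s ^ 2 := by positivity
      calc 2 * k * (g + z * s ^ 2) ≤ 23 / 10 * (g + z * s ^ 2) :=
            mul_le_mul_of_nonneg_right (by linarith) b2
        _ ≤ _ := mul_le_mul_of_nonneg_left b1 (by norm_num)
    have a3 := abs_sub (4 * (g * z) * b) (2 * k * (g + z * s ^ 2))
    have a4 : |4 * (g * z) * b - 2 * k * (g + z * s ^ 2)|
        ≤ 529 / 100 * s + 23 / 10 * ((1 + Z) * s ^ 2) := a3.trans (add_le_add a1 a2)
    have hZ0 : 0 ≤ 1 + Z := by linarith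
    have a5 : k * s ^ 2 * |4 * (g * z) * b - 2 * k * (g + z * s ^ 2)|
        ≤ 23 / 20 * s ^ 2 * (529 / 100 * s + 23 / 10 * ((1 + Z) * s ^ 2)) :=
      mul_le_mul (mul_le_mul_of_nonneg_right hk2 hs2) a4 (abs_nonneg _) (by positivity)
    refine a5.trans ?_
    have a6 : (1 + Z) * s ^ 4 ≤ 1 / 4 * ((1 + Z) * s ^ 3) := by
      have : 0 ≤ (1 + Z) * s ^ 3 := by positivity
      have := mul_le_mul_of_nonneg_left hs4 this
      nlinarith
    have a7 : 0 ≤ s ^ 3 := by positivity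
    have a8 : 0 ≤ (1 + Z) * s ^ 3 := by positivity
    nlinarith
  have hZ0 : 0 ≤ 1 + Z := by linarith
  have a8 : 0 ≤ Z * s ^ 3 := mul_nonneg (by linarith) (by positivity)
  have a9 : 0 ≤ s ^ 3 := by positivity
  have a10 : 0 ≤ s * p := by positivity
  unfold dn
  rw [show dq g k z b (s ^ 2) = d from rfl]
  have u1 := abs_add_le (4 * g * k * p + 8 * g * k ^ 2 * b - d * (p ^ 2 + 2 * p * k * b))
    (k * s ^ 2 * (4 * (g * z) * b - 2 * k * (g + z * s ^ 2)))
  have u2 := abs_sub (4 * g * k * p + 8 * g * k ^ 2 * b) (d * (p ^ 2 + 2 * p * k * b))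
  have u3 := abs_add_le (4 * g * k * p) (8 * g * k ^ 2 * b)
  have u4 : s * (18 * p + 14 * (1 + Z) * s ^ 2) = 18 * (s * p) + 14 * s ^ 3 + 14 * (Z * s ^ 3) := by
    ring
  rw [u4]
  have u5 : 7 * s ^ 3 + 3 / 4 * (1 + Z) * s ^ 3 = 31 / 4 * s ^ 3 + 3 / 4 * (Z * s ^ 3) := by ring
  rw [u5] at t4
  linarith

/-- `|D|^2 |w|^2` for `D = c_1 - e` -/
lemma cn_dev {Z p : ℝ} (hZ : z ≤ Z) (hp : 0 ≤ p) (hpl : p ≤ k * s / 2) (U : ι → ℝ) :
    TT e (p • e + k • q) U - 20 * (1 + Z) * (p + s ^ 2) * dd U U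
      ≤ TT (cn e q g k z (dd e q) (dd q q) p 1) (p • e + k • q) U := by
  have hs := H.s_pos
  have hk1 := H.k_gt
  have hz := H.rad.z_nonneg
  have hd1 := dq_ge H he hq
  have hdn := dn_le H he hq hZ hp hpl
  have haa := aa_le H he hq
  have w1 : dd (p • e + k • q) (p • e + k • q) = wq k (dd e q) (s ^ 2) p 1 := by
    unfold wq
    simp only [dd_smul_left, dd_smul_right, dd_add_left, dd_add_right, he, hq, dd_comm q e]
    ring
  have g1 := dd_w_ge he hs hq hp hpl (by linarith : 0 ≤ k)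
  have hD : 0 < wq k (dd e q) (s ^ 2) p 1 := by
    rw [← w1]; exact lt_of_lt_of_le (by positivity) g1
  rw [w1] at g1
  rw [hq, cn_sub (by linarith) hD.ne', TT_add_left']
  have hgl := H.g_le
  have hg := H.rad.g_pos
  have hk2 := H.k_le
  set d := dq g k z (dd e q) (s ^ 2)
  set w := wq k (dd e q) (s ^ 2) p 1
  set D := (d * w)⁻¹ • (dn g k z (dd e q) (s ^ 2) p • e
    + (p * aa g k z (dd e q) - 4 * g * k ^ 2) • q) with hDd
  have hcq : |p * aa g k z (dd e q) - 4 * g * k ^ 2| * s ≤ s * (8 * p + 3 * s ^ 2) := by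
    rw [mul_comm]
    apply mul_le_mul_of_nonneg_left _ hs.le
    refine (abs_sub _ _).trans (add_le_add ?_ ?_)
    · rw [abs_mul, abs_of_nonneg hp, mul_comm]
      exact mul_le_mul_of_nonneg_right haa hp
    · rw [abs_of_nonneg (by positivity)]
      have hk3 : k ^ 2 ≤ 529 / 400 := by nlinarith
      have a1 : g * k ^ 2 ≤ 9 / 16 * s ^ 2 * (529 / 400) :=
        mul_le_mul hgl hk3 (by positivity) (by positivity)
      nlinarith [sq_nonneg s]
  have hZ0 : 0 ≤ Z := hz.trans hZ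
  have hm0 : 0 ≤ 20 * (1 + Z) * (p + s ^ 2) := by positivity
  have hnum : dd (dn g k z (dd e q) (s ^ 2) p • e + (p * aa g k z (dd e q) - 4 * g * k ^ 2) • q)
      (dn g k z (dd e q) (s ^ 2) p • e + (p * aa g k z (dd e q) - 4 * g * k ^ 2) • q)
      ≤ (s * (26 * (1 + Z) * (p + s ^ 2))) ^ 2 := by
    have hb := abs_eq_le H he hq
    have e1 : dd (dn g k z (dd e q) (s ^ 2) p • e + (p * aa g k z (dd e q) - 4 * g * k ^ 2) • q)
      (dn g k z (dd e q) (s ^ 2) p • e + (p * aa g k z (dd e q) - 4 * g * k ^ 2) • q)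
      = dn g k z (dd e q) (s ^ 2) p ^ 2
        + 2 * (dn g k z (dd e q) (s ^ 2) p * (p * aa g k z (dd e q) - 4 * g * k ^ 2) * dd e q)
        + (p * aa g k z (dd e q) - 4 * g * k ^ 2) ^ 2 * s ^ 2 := by
      simp only [dd_smul_left, dd_smul_right, dd_add_left, dd_add_right, he, hq, dd_comm q e]
      ring
    rw [e1]
    generalize dn g k z (dd e q) (s ^ 2) p = x at *
    generalize p * aa g k z (dd e q) - 4 * g * k ^ 2 = y at *
    generalize dd e q = b at *
    have e2 : x ^ 2 + 2 * (x * y * b) + y ^ 2 * s ^ 2 ≤ (|x| + |y| * s) ^ 2 := by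
      have a1 : x * y * b ≤ |x| * |y| * s := by
        calc x * y * b ≤ |x * y * b| := le_abs_self _
          _ = |x| * |y| * |b| := by rw [abs_mul, abs_mul]
          _ ≤ |x| * |y| * s := mul_le_mul_of_nonneg_left hb (by positivity)
      have a2 : (|x| + |y| * s) ^ 2 = x ^ 2 + 2 * (|x| * |y| * s) + y ^ 2 * s ^ 2 := by
        rw [add_sq, mul_pow, sq_abs, sq_abs]; ring
      rw [a2]; linarith
    refine e2.trans ?_
    apply pow_le_pow_left₀ (by positivity)
    have a3 : 0 ≤ Z * p := by positivity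
    have a4 : 0 ≤ Z * s ^ 2 := by positivity
    have a5 : s * (18 * p + 14 * (1 + Z) * s ^ 2) + s * (8 * p + 3 * s ^ 2)
        ≤ s * (26 * (1 + Z) * (p + s ^ 2)) := by
      rw [← mul_add]
      apply mul_le_mul_of_nonneg_left _ hs.le
      nlinarith [sq_nonneg s]
    linarith
  have hDD : dd D D * dd (p • e + k • q) (p • e + k • q) ≤ (20 * (1 + Z) * (p + s ^ 2)) ^ 2 := by
    rw [w1, hDd, dd_smul_left, dd_smul_right]
    have e3 : (d * w)⁻¹ * ((d * w)⁻¹ * dd (dn g k z (dd e q) (s ^ 2) p • e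
        + (p * aa g k z (dd e q) - 4 * g * k ^ 2) • q)
        (dn g k z (dd e q) (s ^ 2) p • e + (p * aa g k z (dd e q) - 4 * g * k ^ 2) • q)) * w
        = dd (dn g k z (dd e q) (s ^ 2) p • e
        + (p * aa g k z (dd e q) - 4 * g * k ^ 2) • q)
        (dn g k z (dd e q) (s ^ 2) p • e + (p * aa g k z (dd e q) - 4 * g * k ^ 2) • q)
          / (d ^ 2 * w) := by
      field_simp
    rw [e3, div_le_iff₀ (by positivity)]
    refine hnum.trans ?_
    have a6 : s ^ 2 / 4 ≤ w := by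
      refine le_trans ?_ g1
      have : (1:ℝ) ≤ k ^ 2 := by nlinarith
      nlinarith [sq_nonneg s]
    have a7 : (57 / 20) ^ 2 * (s ^ 2 / 4) ≤ d ^ 2 * w := by
      apply mul_le_mul _ a6 (by positivity) (by positivity)
      exact pow_le_pow_left₀ (by norm_num) hd1 2
    have a8 := mul_le_mul_of_nonneg_left a7 (sq_nonneg (20 * (1 + Z) * (p + s ^ 2)))
    refine le_trans ?_ a8
    have a9 : 0 ≤ s ^ 2 * ((1 + Z) * (p + s ^ 2)) ^ 2 := by positivity
    nlinarith
  have := (abs_le.1 (TT_abs_le D (p • e + k • q) U hm0 hDD)).1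
  linarith

end

end Vale.Agent.P088.R2.H942.Iso.Near
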