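import Vale.Agent.P088.R2.H942.Near12

/-!
# P088, stage 3: zone II, pointwise (2): the main inequality and its perturbation
-/

noncomputable section

namespace Vale.Agent.P088.R2.H942.Iso.Near

set_option linter.unusedSectionVars false

open Vale.Agent.P088.R2.H230.W (dd dd_comm dd_add_left dd_add_right dd_sub_left dd_sub_right
  dd_smul_left dd_smul_right dd_self_nonneg dd_cs TT Hm TT_abs_le)
open Set

variable {ι : Type*} [Fintype ι]

lemma dd_neg_right (e q : ι → ℝ) : dd e (-q) = -dd e q := by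
  unfold dd
  rw [← Finset.sum_neg_distrib]; exact Finset.sum_congr rfl fun i _ => by simp

lemma dd_neg_neg (q : ι → ℝ) : dd (-q) (-q) = dd q q := by
  unfold dd; exact Finset.sum_congr rfl fun i _ => by simp

/-- the cross term of the multiplier `e` -/
lemma TTe_cross {e q : ι → ℝ} (he : dd e e = 1) {s : ℝ} (hs : 0 ≤ s) (hq : dd q q = s ^ 2)
    (U V : ι → ℝ) {η : ℝ} (hη : 0 < η) :
    -(η * dd (U - V) (U - V) + 9 * s ^ 2 / η * (dd U U + dd V V))
      ≤ TT e q U - TT e q V := by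
  have hU := dd_self_nonneg U
  have hV := dd_self_nonneg V
  set Q := U - V with hQ
  set P := U + V with hP
  have hPP : dd P P ≤ 2 * (dd U U + dd V V) := by
    have : 0 ≤ dd (U - V) (U - V) := dd_self_nonneg _
    simp only [hP, dd_add_left, dd_add_right, dd_sub_left, dd_sub_right, dd_comm V U] at this ⊢
    linarith
  have hQQ := dd_self_nonneg Q
  have hPP0 := dd_self_nonneg P
  have e1 : TT e q U - TT e q V = dd e q * dd P Q - (dd e P * dd q Q + dd e Q * dd q P) := by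
    unfold TT
    simp only [hP, hQ, dd_add_left, dd_add_right, dd_sub_left, dd_sub_right, dd_comm V U]
    ring
  rw [e1]
  obtain ⟨a, ha, ha2⟩ : ∃ a : ℝ, 0 ≤ a ∧ a ^ 2 = dd P P :=
    ⟨√(dd P P), Real.sqrt_nonneg _, Real.sq_sqrt hPP0⟩
  obtain ⟨b, hb, hb2⟩ : ∃ b : ℝ, 0 ≤ b ∧ b ^ 2 = dd Q Q :=
    ⟨√(dd Q Q), Real.sqrt_nonneg _, Real.sq_sqrt hQQ⟩
  have c1 : |dd e q| ≤ s := abs_le_of_sq_le_sq (by have := dd_cs e q; rw [he, hq] at this; linarith) hs
  have c2 : |dd P Q| ≤ a * b := abs_le_of_sq_le_sq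
    (by have := dd_cs P Q; rw [← ha2, ← hb2] at this; nlinarith) (by positivity)
  have c3 : |dd e P| ≤ a := abs_le_of_sq_le_sq
    (by have := dd_cs e P; rw [he, ← ha2] at this; linarith) ha
  have c4 : |dd e Q| ≤ b := abs_le_of_sq_le_sq
    (by have := dd_cs e Q; rw [he, ← hb2] at this; linarith) hb
  have c5 : |dd q Q| ≤ s * b := abs_le_of_sq_le_sq
    (by have := dd_cs q Q; rw [hq, ← hb2] at this; nlinarith) (by positivity)
  have c6 : |dd q P| ≤ s * a := abs_le_of_sq_le_sq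
    (by have := dd_cs q P; rw [hq, ← ha2] at this; nlinarith) (by positivity)
  have d1 : |dd e q * dd P Q| ≤ s * (a * b) := by
    rw [abs_mul]; exact mul_le_mul c1 c2 (abs_nonneg _) hs
  have d2 : |dd e P * dd q Q| ≤ a * (s * b) := by
    rw [abs_mul]; exact mul_le_mul c3 c5 (abs_nonneg _) ha
  have d3 : |dd e Q * dd q P| ≤ b * (s * a) := by
    rw [abs_mul]; exact mul_le_mul c4 c6 (abs_nonneg _) hb
  have f1 := (abs_le.1 d1).1
  have f2 := (abs_le.1 d2).2
  have f3 := (abs_le.1 d3).2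
  -- `3 s a b ≤ η b² + (9 s²/(4 η)) a²`
  have f4 : 3 * s * a * b ≤ η * b ^ 2 + 9 * s ^ 2 / (4 * η) * a ^ 2 := by
    have h1 : 0 ≤ (2 * η * b - 3 * s * a) ^ 2 / (4 * η) := by positivity
    have h2 : (2 * η * b - 3 * s * a) ^ 2 / (4 * η)
        = η * b ^ 2 + 9 * s ^ 2 / (4 * η) * a ^ 2 - 3 * s * a * b := by
      field_simp; ring
    linarith
  have f5 : 9 * s ^ 2 / (4 * η) * a ^ 2 ≤ 9 * s ^ 2 / η * (dd U U + dd V V) := by
    rw [ha2]
    have h1 : 9 * s ^ 2 / (4 * η) * dd P P ≤ 9 * s ^ 2 / (4 * η) * (2 * (dd U U + dd V V)) :=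
      mul_le_mul_of_nonneg_left hPP (by positivity)
    have h2 : 9 * s ^ 2 / (4 * η) * (2 * (dd U U + dd V V))
        = 9 * s ^ 2 / η * (dd U U + dd V V) / 2 := by field_simp; ring
    have h3 : 0 ≤ 9 * s ^ 2 / η * (dd U U + dd V V) := by positivity
    linarith
  rw [← hb2]
  nlinarith

section

variable {e q : ι → ℝ} {g k z s : ℝ} (H : Small g k z s) (he : dd e e = 1)
  (hq : dd q q = s ^ 2)
include H he hq

lemma HQ_low (U V : ι → ℝ) :
    1 / 2 * dd (U - V) (U - V) - 5 * s ^ 2 * (dd U U + dd V V) ≤ HQ e q g k z U V := by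
  have := Y_le_HQ H he hq U V
  linarith

/-- the second margin -/
lemma Q_le_FU {Z p1 p2 : ℝ} (hZ : z ≤ Z) (hp1 : 0 ≤ p1) (hp1' : p1 ≤ k * s / 2) (hp2 : 0 ≤ p2)
    (hp2' : p2 ≤ k * s / 2) (U V : ι → ℝ) :
    1 / 4 * dd (U - V) (U - V) - 100 * (1 + Z) * (p1 + p2 + s ^ 2) * (dd U U + dd V V)
      ≤ FU e q g k z p1 1 p2 1 U V := by
  have hs := H.s_pos
  have hk1 := H.k_gt
  have hk2 := H.k_le
  have hz := H.rad.z_nonneg
  have hZ0 : 0 ≤ Z := hz.trans hZ
  have hU := dd_self_nonneg U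
  have hV := dd_self_nonneg V
  have c1 := cn_dev H he hq hZ hp1 hp1' U
  have c2 := cn_dev H he (q := -q) (by rw [dd_neg_neg]; exact hq) hZ hp2 hp2' V
  rw [dd_neg_right, dd_neg_neg] at c2
  have e2 : p2 • e + k • (-q) = p2 • e - k • q := by rw [smul_neg, sub_eq_add_neg]
  rw [e2] at c2
  have hH := HQ_low H he hq U V
  have hX := TTe_cross he hs.le hq U V (η := 1 / 5) (by norm_num)
  have e3 : TT e (p1 • e + k • q) U = p1 * (dd U U - 2 * dd e U ^ 2) + k * TT e q U := by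
    unfold TT
    simp only [dd_add_left, dd_smul_left, dd_add_right, dd_smul_right, he]
    ring
  have e4 : TT e (p2 • e - k • q) V = p2 * (dd V V - 2 * dd e V ^ 2) - k * TT e q V := by
    unfold TT
    simp only [dd_sub_left, dd_smul_left, dd_sub_right, dd_smul_right, he]
    ring
  have u1 : dd e U ^ 2 ≤ dd U U := by have := dd_cs e U; rwa [he, one_mul] at this
  have v1 : dd e V ^ 2 ≤ dd V V := by have := dd_cs e V; rwa [he, one_mul] at this
  have e5 : -(p1 * dd U U) ≤ p1 * (dd U U - 2 * dd e U ^ 2) := by nlinarith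
  have e6 : -(p2 * dd V V) ≤ p2 * (dd V V - 2 * dd e V ^ 2) := by nlinarith
  have hX2 := mul_le_mul_of_nonneg_left hX (by linarith : 0 ≤ k)
  have hY := dd_self_nonneg (U - V)
  unfold FU
  simp only [one_mul]
  have m1 : 0 ≤ (1 + Z) * p1 * (dd U U + dd V V) := by positivity
  have m2 : 0 ≤ (1 + Z) * p2 * (dd U U + dd V V) := by positivity
  have m3 : 0 ≤ (1 + Z) * s ^ 2 * (dd U U + dd V V) := by positivity
  have m4 : (1 + Z) * (p1 + s ^ 2) * dd U U ≤ (1 + Z) * (p1 + s ^ 2) * (dd U U + dd V V) := by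
    have : 0 ≤ (1 + Z) * (p1 + s ^ 2) * dd V V := by positivity
    linarith
  have m5 : (1 + Z) * (p2 + s ^ 2) * dd V V ≤ (1 + Z) * (p2 + s ^ 2) * (dd U U + dd V V) := by
    have : 0 ≤ (1 + Z) * (p2 + s ^ 2) * dd U U := by positivity
    linarith
  have m6 : p1 * dd U U ≤ (1 + Z) * p1 * (dd U U + dd V V) := by
    have h1 : 0 ≤ p1 * dd V V := by positivity
    have h2 : 0 ≤ Z * p1 * (dd U U + dd V V) := by positivity
    linarith
  have m7 : p2 * dd V V ≤ (1 + Z) * p2 * (dd U U + dd V V) := by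
    have h1 : 0 ≤ p2 * dd U U := by positivity
    have h2 : 0 ≤ Z * p2 * (dd U U + dd V V) := by positivity
    linarith
  have m8 : k * (1 / 5 * dd (U - V) (U - V)) ≤ 23 / 100 * dd (U - V) (U - V) := by nlinarith
  have m9 : k * (9 * s ^ 2 / (1 / 5) * (dd U U + dd V V)) ≤ 52 * (s ^ 2 * (dd U U + dd V V)) := by
    have : 0 ≤ s ^ 2 * (dd U U + dd V V) := by positivity
    nlinarith
  have m10 : s ^ 2 * (dd U U + dd V V) ≤ (1 + Z) * s ^ 2 * (dd U U + dd V V) := by
    have : 0 ≤ Z * s ^ 2 * (dd U U + dd V V) := by positivity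
    linarith
  rw [e3] at c1
  rw [e4] at c2
  generalize TT e q U = x1 at *
  generalize TT e q V = x2 at *
  generalize TT _ _ U = x3 at *
  generalize TT _ _ V = x4 at *
  generalize HQ e q g k z U V = x5 at *
  generalize dd (U - V) (U - V) = Y at *
  generalize dd U U = A at *
  generalize dd V V = B at *
  have f1 : 100 * (1 + Z) * (p1 + p2 + s ^ 2) * (A + B) = 100 * ((1 + Z) * p1 * (A + B))
    + 100 * ((1 + Z) * p2 * (A + B)) + 100 * ((1 + Z) * s ^ 2 * (A + B)) := by ring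
  have f2 : 20 * (1 + Z) * (p1 + s ^ 2) * A ≤ 20 * ((1 + Z) * p1 * (A + B))
      + 20 * ((1 + Z) * s ^ 2 * (A + B)) := by linarith
  have f3 : 20 * (1 + Z) * (p2 + s ^ 2) * B ≤ 20 * ((1 + Z) * p2 * (A + B))
      + 20 * ((1 + Z) * s ^ 2 * (A + B)) := by linarith
  have f4 : -(23 / 100 * Y + 52 * (s ^ 2 * (A + B))) ≤ k * (x1 - x2) := by
    refine le_trans ?_ hX2
    have : k * -(1 / 5 * Y + 9 * s ^ 2 / (1 / 5) * (A + B))
      = -(k * (1 / 5 * Y) + k * (9 * s ^ 2 / (1 / 5) * (A + B))) := by ring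
    rw [this]; linarith
  have f5 : k * (x1 - x2) = k * x1 - k * x2 := by ring
  rw [f5] at f4
  rw [f1]
  linarith

end

section

variable {e q : ι → ℝ} {g k z s : ℝ} (H : Small g k z s) (he : dd e e = 1)
  (hq : dd q q = s ^ 2)
include H he hq

/-- **Zone II, pointwise** (region II of zone C and zone B2). -/
theorem zII {Z p1 p2 E K κ : ℝ} (hZ : z ≤ Z) (hs26 : 26 * s ≤ 1)
    (h1 : g ≤ p1) (h2 : g ≤ p2) (h1' : p1 ≤ k * s / 2) (h2' : p2 ≤ k * s / 2)
    (hκ : 0 ≤ κ) (hK : κ ≤ K) (hE : 800 * κ ≤ E * s ^ 2) (hE2 : 8 * κ ≤ E) (U V : ι → ℝ) :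
    κ / 4 * (dd U U + dd V V) + κ / (1600 * (1 + Z) * (p1 + p2 + s ^ 2)) * dd (U - V) (U - V)
      ≤ K * (dd e U + dd e V) ^ 2 + E * FU e q g k z p1 1 p2 1 U V
        + κ * TT (kf e (p1 • e + k • q)) (p1 • e + k • q) U
        + κ * TT (kf e (p2 • e - k • q)) (p2 • e - k • q) V := by
  have hs := H.s_pos
  have hg := H.rad.g_pos
  have hz := H.rad.z_nonneg
  have hZ0 : 0 ≤ Z := hz.trans hZ
  have main := regIIu H he hq (t1 := 1) (t2 := 1) (K := K) (κ := κ) (E := E) one_pos one_pos hs26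
    (by linarith : 1 * g ≤ p1) (by linarith : 1 * g ≤ p2) (by linarith : p1 ≤ 1 * k * s / 2)
    (by linarith : p2 ≤ 1 * k * s / 2) hκ hK hE hE2 U V
  simp only [one_mul] at main
  have hFQ := Q_le_FU H he hq hZ (hg.le.trans h1) h1' (hg.le.trans h2) h2' U V
  have hk1 := H.k_gt
  have g1 := dd_w_ge he hs hq (hg.le.trans h1) (by linarith : p1 ≤ k * s / 2) (by linarith : 0 ≤ k)
  have hq' : dd (-q) (-q) = s ^ 2 := by rw [dd_neg_neg]; exact hq
  have g2 := dd_w_ge he hs hq' (hg.le.trans h2) (by linarith : p2 ≤ k * s / 2) (by linarith : 0 ≤ k)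
  have w1 : dd (p1 • e + k • q) (p1 • e + k • q) = wq k (dd e q) (s ^ 2) p1 1 := by
    unfold wq
    simp only [dd_smul_left, dd_smul_right, dd_add_left, dd_add_right, he, hq, dd_comm q e]
    ring
  have e1 : dd e (-q) = -dd e q := dd_neg_right e q
  have w2 : dd (p2 • e + k • (-q)) (p2 • e + k • (-q))
      = wq k (-dd e q) (s ^ 2) p2 1 := by
    unfold wq
    simp only [dd_smul_left, dd_smul_right, dd_add_left, dd_add_right, he, hq', dd_comm (-q) e, e1]
    ring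
  have hD1 : 0 < wq k (dd e q) (s ^ 2) p1 1 := by
    rw [← w1]; exact lt_of_lt_of_le (by positivity) g1
  have hD2 : 0 < wq k (-dd e q) (s ^ 2) p2 1 := by
    rw [← w2]; exact lt_of_lt_of_le (by positivity) g2
  have hF := near_small H he hq (t1 := 1) (t2 := 1) zero_le_one zero_le_one
    (by linarith : 1 * g ≤ p1) (by linarith : 1 * g ≤ p2) hD1 hD2 U V
  have hF0 : 0 ≤ FU e q g k z p1 1 p2 1 U V := by
    refine le_trans ?_ hF
    have G1 := Gr_nonneg (q := q) he U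
    have G2 := Gr_nonneg (q := q) he V
    have hU := dd_self_nonneg U
    have hV := dd_self_nonneg V
    positivity
  set M := p1 + p2 + s ^ 2 with hM
  have hs2 : 0 < s ^ 2 := pow_pos hs 2
  have hM0 : 0 < M := by
    have : 0 < p1 := hg.trans_le h1
    have : 0 < p2 := hg.trans_le h2
    rw [hM]; positivity
  have hMs : s ^ 2 ≤ M := by
    have : 0 < p1 := hg.trans_le h1
    have : 0 < p2 := hg.trans_le h2
    linarith
  have hE0 : 0 ≤ E := by
    by_contra hn
    have h3 : E * s ^ 2 < 0 := mul_neg_of_neg_of_pos (not_le.1 hn) hs2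
    linarith
  -- `λ = κ / (100 (1+Z) M)`, `λ ≤ E`
  set lam := κ / (100 * (1 + Z) * M) with hlam
  have hl0 : 0 ≤ lam := by positivity
  have hlE : lam ≤ E := by
    rw [hlam, div_le_iff₀ (by positivity)]
    have a1 : E * s ^ 2 ≤ E * M := mul_le_mul_of_nonneg_left hMs hE0
    have a2 : 0 ≤ E * M * Z := by positivity
    nlinarith
  have hll : lam * (100 * (1 + Z) * M) = κ := by
    rw [hlam]; field_simp
  have hY := dd_self_nonneg (U - V)
  have hN : 0 ≤ dd U U + dd V V := add_nonneg (dd_self_nonneg _) (dd_self_nonneg _)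
  have a3 : lam / 4 * FU e q g k z p1 1 p2 1 U V ≤ E / 4 * FU e q g k z p1 1 p2 1 U V :=
    mul_le_mul_of_nonneg_right (by linarith) hF0
  have a4 := mul_le_mul_of_nonneg_left hFQ (show 0 ≤ lam / 4 by linarith)
  have a5 : lam / 4 * (1 / 4 * dd (U - V) (U - V) - 100 * (1 + Z) * M * (dd U U + dd V V))
      = lam / 16 * dd (U - V) (U - V) - κ / 4 * (dd U U + dd V V) := by
    rw [← hll]; ring
  rw [a5] at a4
  have a6 : κ / (1600 * (1 + Z) * M) = lam / 16 := by
    rw [hlam, div_div]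
    congr 1
    ring
  rw [a6]
  clear hFQ hD1 hD2 w1 w2 g1 g2 hF hlam
  generalize dd (U - V) (U - V) = Y at *
  generalize FU e q g k z p1 1 p2 1 U V = F at *
  generalize TT _ _ U = x3 at *
  generalize TT _ _ V = x4 at *
  generalize dd U U + dd V V = N at *
  have b1 : lam / 16 * Y - κ / 4 * N ≤ E / 4 * F := a4.trans a3
  linarith

end

/-- Perturbation: `al |Q||P| + be |Q|² + ga |P|²`, `P = (U + V)/2`, `Q = U - V`. -/
lemma perturb_al {m1 m2 al be ga F F' : ℝ} {U V : ι → ℝ} (hm1 : 0 ≤ m1) (hm2' : 0 ≤ m2)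
    (h : m1 * (dd U U + dd V V) + m2 * dd (U - V) (U - V) ≤ F)
    (hF : F - (al * (√(dd (U - V) (U - V)) * √(dd (U + V) (U + V)))
      + be * dd (U - V) (U - V) + ga * (dd U U + dd V V)) ≤ F')
    (hal : 32 * al ^ 2 ≤ m1 * m2) (hbe : 4 * be ≤ m2) (hga : 4 * ga ≤ m1) :
    m1 / 2 * (dd U U + dd V V) + m2 / 2 * dd (U - V) (U - V) ≤ F' := by
  have hU := dd_self_nonneg U
  have hV := dd_self_nonneg V
  have hQ := dd_self_nonneg (U - V)
  have hP := dd_self_nonneg (U + V)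
  have hPP : dd (U + V) (U + V) ≤ 2 * (dd U U + dd V V) := by
    have := hQ
    simp only [dd_add_left, dd_add_right, dd_sub_left, dd_sub_right, dd_comm V U] at this ⊢
    linarith
  obtain ⟨a, ha, ha2⟩ : ∃ a : ℝ, a = √(dd (U - V) (U - V)) ∧ a ^ 2 = dd (U - V) (U - V) :=
    ⟨_, rfl, Real.sq_sqrt hQ⟩
  obtain ⟨b, hb, hb2⟩ : ∃ b : ℝ, b = √(dd (U + V) (U + V)) ∧ b ^ 2 = dd (U + V) (U + V) :=
    ⟨_, rfl, Real.sq_sqrt hP⟩
  rw [← ha, ← hb] at hF
  rw [← ha2] at h hF hQ ⊢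
  have hm2 : 0 ≤ m1 * m2 := le_trans (by positivity) hal
  -- `al a b ≤ m2/4 a² + m1/4 N`
  have key : al * (a * b) ≤ m2 / 4 * a ^ 2 + m1 / 4 * (dd U U + dd V V) := by
    have h1 : m1 / 8 * b ^ 2 ≤ m1 / 4 * (dd U U + dd V V) := by
      rw [hb2]; nlinarith
    rcases eq_or_lt_of_le hm1 with h0 | h0
    · have hal0 : al = 0 := by
        rw [← h0, zero_mul] at hal
        have : al ^ 2 = 0 := le_antisymm (by linarith) (sq_nonneg _)
        exact pow_eq_zero_iff (two_ne_zero) |>.1 this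
      rw [hal0, zero_mul]; positivity
    · have h2 : m1 * (al * (a * b)) ≤ m1 * (m2 / 4 * a ^ 2 + m1 / 8 * b ^ 2) := by
        nlinarith [sq_nonneg (4 * al * a - m1 * b), sq_nonneg a, sq_nonneg b,
          mul_le_mul_of_nonneg_right hal (sq_nonneg a)]
      have h3 := le_of_mul_le_mul_left h2 h0
      linarith
  nlinarith

end Vale.Agent.P088.R2.H942.Iso.Near
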