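import Vale.Agent.P088.R2.H942.Near13

/-!
# P088, stage 3: zone II, pointwise (3): the second margin without the slope
-/

noncomputable section

namespace Vale.Agent.P088.R2.H942.Iso.Near

set_option linter.unusedSectionVars false

open Vale.Agent.P088.R2.H230.W (dd dd_comm dd_add_left dd_add_right dd_sub_left dd_sub_right
  dd_smul_left dd_smul_right dd_self_nonneg dd_cs TT Hm TT_abs_le)
open Set

variable {ι : Type*} [Fintype ι]

/-- scalar lower bound -/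
lemma n1_ge {g k z b c2 s p m d D : ℝ} (hs : 0 < s) (hk1 : 1 < k) (hk2 : k ≤ 23 / 20)
    (hg : 0 < g) (hgl : g ≤ 9 / 16 * s ^ 2) (hgz : g * z ≤ k ^ 2) (hgz0 : 0 ≤ g * z)
    (hb : |b| ≤ 1) (hc0 : 0 ≤ c2) (hc2 : c2 ≤ s ^ 2) (hp : 0 ≤ p) (hdm : 57 / 20 ≤ d)
    (hD : k ^ 2 * s ^ 2 / 4 ≤ D) :
    m / d - 15 / 2 * s ^ 2
      ≤ (m * D + 8 * k * c2 * 1 * ((p - 1 * g) * k ^ 2 - b * (k ^ 2 - g * z) * p)) / (d * D) := by
  have hd : 0 < d := by linarith
  have hsk : 0 < k ^ 2 * s ^ 2 / 4 := by positivity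
  have hD0 : 0 < D := hsk.trans_le hD
  rw [le_div_iff₀ (by positivity)]
  have q0 : 0 ≤ p * (k ^ 2 * (1 - b) + b * (g * z)) := by
    apply mul_nonneg hp
    have hb1 := abs_le.1 hb
    rcases le_total 0 b with h0 | h0
    · have : 0 ≤ 1 - b := by linarith
      positivity
    · have h3 : b * k ^ 2 ≤ b * (g * z) := mul_le_mul_of_nonpos_left hgz h0
      nlinarith [sq_nonneg k]
  have q1 : -(8 * k ^ 3 * c2 * g)
      ≤ 8 * k * c2 * 1 * ((p - 1 * g) * k ^ 2 - b * (k ^ 2 - g * z) * p) := by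
    have e1 : 8 * k * c2 * 1 * ((p - 1 * g) * k ^ 2 - b * (k ^ 2 - g * z) * p)
      = 8 * k * c2 * (p * (k ^ 2 * (1 - b) + b * (g * z))) - 8 * k ^ 3 * c2 * g := by ring
    rw [e1]
    have h3 : 0 ≤ 8 * k * c2 := by positivity
    have : 0 ≤ 8 * k * c2 * (p * (k ^ 2 * (1 - b) + b * (g * z))) := mul_nonneg h3 q0
    linarith
  have r1 : 57 / 20 * (k ^ 2 * s ^ 2 / 4) ≤ d * D := mul_le_mul hdm hD hsk.le hd.le
  have r2 : c2 * g ≤ s ^ 2 * (9 / 16 * s ^ 2) := mul_le_mul hc2 hgl hg.le (sq_nonneg s)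
  have r3 : 8 * k ^ 3 * (c2 * g) ≤ 8 * k ^ 3 * (s ^ 2 * (9 / 16 * s ^ 2)) :=
    mul_le_mul_of_nonneg_left r2 (by positivity)
  have r4 : 8 * k ^ 3 * (s ^ 2 * (9 / 16 * s ^ 2))
      ≤ 8 * (k ^ 2 * (23 / 20)) * (s ^ 2 * (9 / 16 * s ^ 2)) := by
    apply mul_le_mul_of_nonneg_right _ (by positivity)
    have : k ^ 3 = k ^ 2 * k := by ring
    rw [this]
    nlinarith [sq_nonneg k]
  have r5 := mul_le_mul_of_nonneg_left r1 (show 0 ≤ 15 / 2 * s ^ 2 by positivity)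
  have r6 : 0 ≤ k ^ 2 * s ^ 4 := by positivity
  have q2 : 8 * k ^ 3 * c2 * g ≤ 15 / 2 * s ^ 2 * (d * D) := by linarith
  have q3 : (m / d - 15 / 2 * s ^ 2) * (d * D) = m * D - 15 / 2 * s ^ 2 * (d * D) := by
    field_simp
  rw [q3]
  linarith

/-- scalar upper bound -/
lemma n2_le {g k z b c2 s m d D : ℝ} (hs : 0 < s) (hs4 : s ≤ 1 / 4) (hk1 : 1 < k)
    (hk2 : k ≤ 23 / 20)
    (hg : 0 < g) (hgl : g ≤ 9 / 16 * s ^ 2) (hgz : g * z ≤ k ^ 2) (hgz0 : 0 ≤ g * z)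
    (hb : |b| ≤ s) (hc0 : 0 ≤ c2) (hc2 : c2 ≤ s ^ 2) (hdm : 57 / 20 ≤ d)
    (hD : k ^ 2 * s ^ 2 / 4 ≤ D) :
    (m * D + 8 * k * c2 * 1 * ((g - 1 * g) * k ^ 2 - b * (k ^ 2 - g * z) * g)) / (d * D)
      ≤ m / d + 2 * s ^ 2 := by
  have hd : 0 < d := by linarith
  have hsk : 0 < k ^ 2 * s ^ 2 / 4 := by positivity
  have hD0 : 0 < D := hsk.trans_le hD
  rw [div_le_iff₀ (by positivity)]
  have q1 : 8 * k * c2 * 1 * ((g - 1 * g) * k ^ 2 - b * (k ^ 2 - g * z) * g)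
      ≤ 8 * k ^ 3 * c2 * g * s := by
    have hb1 := abs_le.1 hb
    have e1 : 8 * k * c2 * 1 * ((g - 1 * g) * k ^ 2 - b * (k ^ 2 - g * z) * g)
      = 8 * k * c2 * g * (-b * (k ^ 2 - g * z)) := by ring
    have e2 : 8 * k ^ 3 * c2 * g * s = 8 * k * c2 * g * (k ^ 2 * s) := by ring
    rw [e1, e2]
    apply mul_le_mul_of_nonneg_left _ (by positivity)
    have h3 : 0 ≤ k ^ 2 - g * z := by linarith
    have h4 : -b * (k ^ 2 - g * z) ≤ s * (k ^ 2 - g * z) :=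
      mul_le_mul_of_nonneg_right (by linarith) h3
    nlinarith
  have r1 : 57 / 20 * (k ^ 2 * s ^ 2 / 4) ≤ d * D := mul_le_mul hdm hD hsk.le hd.le
  have r2 : c2 * g ≤ s ^ 2 * (9 / 16 * s ^ 2) := mul_le_mul hc2 hgl hg.le (sq_nonneg s)
  have r3 : 8 * k ^ 3 * (c2 * g) ≤ 8 * k ^ 3 * (s ^ 2 * (9 / 16 * s ^ 2)) :=
    mul_le_mul_of_nonneg_left r2 (by positivity)
  have r4 : 8 * k ^ 3 * (s ^ 2 * (9 / 16 * s ^ 2))
      ≤ 8 * (k ^ 2 * (23 / 20)) * (s ^ 2 * (9 / 16 * s ^ 2)) := by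
    apply mul_le_mul_of_nonneg_right _ (by positivity)
    have : k ^ 3 = k ^ 2 * k := by ring
    rw [this]
    nlinarith [sq_nonneg k]
  have r5 := mul_le_mul_of_nonneg_left r1 (show 0 ≤ 2 * s ^ 2 by positivity)
  have r6 : 0 ≤ k ^ 2 * s ^ 4 := by positivity
  have r7 : 8 * k ^ 3 * c2 * g * s
      ≤ (8 * (k ^ 2 * (23 / 20)) * (s ^ 2 * (9 / 16 * s ^ 2))) * (1 / 4) := by
    have : 8 * k ^ 3 * c2 * g * s = (8 * k ^ 3 * (c2 * g)) * s := by ring
    rw [this]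
    exact mul_le_mul (r3.trans r4) hs4 hs.le (by positivity)
  have q2 : 8 * k ^ 3 * c2 * g * s ≤ 2 * s ^ 2 * (d * D) := by linarith
  have q3 : (m / d + 2 * s ^ 2) * (d * D) = m * D + 2 * s ^ 2 * (d * D) := by
    field_simp
  rw [q3]
  linarith

/-- the multiplier form in coordinates -/
lemma TT_val {e h' : ι → ℝ} {g k z s : ℝ} (H : Small g k z s) (he : dd e e = 1)
    (hh : dd h' h' = 1)
    (hs2 : s ^ 2 = (s * dd e h') ^ 2 + (s * √(1 - dd e h' ^ 2)) ^ 2)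
    (hσ : √(1 - dd e h' ^ 2) ^ 2 = 1 - dd e h' ^ 2)
    (hcc : (s * √(1 - dd e h' ^ 2)) ^ 2 = s ^ 2 * (1 - dd e h' ^ 2)) {U u : ι → ℝ} {U1 : ℝ}
    (a1 : dd h' U = dd e h' * dd e U + √(1 - dd e h' ^ 2) * U1)
    (a3 : dd U U = dd e U ^ 2 + U1 ^ 2 + dd u u) {p : ℝ}
    (hD : 0 < D1 k (s * dd e h') (s * √(1 - dd e h' ^ 2)) p 1) :
    TT (cn e (s • h') g k z (dd e (s • h')) (dd (s • h') (s • h')) p 1)
        (p • e + k • (s • h')) U
      = ar g k z (s * dd e h') (s * √(1 - dd e h' ^ 2))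
          / dm g k z (s * dd e h') (s * √(1 - dd e h' ^ 2)) * (dd e U ^ 2 - U1 ^ 2)
        - 2 * (√(1 - dd e h' ^ 2) * (s * (ai g k z (s * dd e h')
          / dm g k z (s * dd e h') (s * √(1 - dd e h' ^ 2))))) * dd e U * U1
        + (N1 g k z (s * dd e h') (s * √(1 - dd e h' ^ 2)) p 1
          / (dm g k z (s * dd e h') (s * √(1 - dd e h' ^ 2))
            * D1 k (s * dd e h') (s * √(1 - dd e h' ^ 2)) p 1) - k) * dd u u := by
  have hr := H.rad' hs2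
  have hE : p ^ 2 + (1 * k * s) ^ 2 + 2 * dd e h' * p * (1 * k * s)
      = D1 k (s * dd e h') (s * √(1 - dd e h' ^ 2)) p 1 := by
    unfold D1; rw [← hs2]; ring
  have c1 := cw1 (z := z) (g := g) (k := k) (p := p) (t := 1) (γ := dd e h') (s := s) rfl hcc
    hr.dpos.1 hD
  rw [mul_div_assoc] at c1
  have T1 := lee_TT (A := ar g k z (s * dd e h') (s * √(1 - dd e h' ^ 2))
      / dm g k z (s * dd e h') (s * √(1 - dd e h' ^ 2)))
    (B := s * (ai g k z (s * dd e h') / dm g k z (s * dd e h') (s * √(1 - dd e h' ^ 2))))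
    he hh (v := p) (l := 1 * k * s) (by rw [hE]; exact hD.ne') hσ U rfl a1 a3
  rw [lee1_eq rfl hr.dpos.1.ne', cx_cn hs2] at T1
  have eb : dd e (s • h') = s * dd e h' := dd_smul_right _ _ _
  have hq : dd (s • h') (s • h') = s ^ 2 := by
    rw [dd_smul_left, dd_smul_right, hh]; ring
  rw [eb, hq, show k • (s • h') = (1 * k * s) • h' by rw [smul_smul, one_mul], T1, ← c1]
  ring

section

variable {e q : ι → ℝ} {g k z s : ℝ} (H : Small g k z s) (he : dd e e = 1)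
  (hq : dd q q = s ^ 2)
include H he hq

/-- monotonicity in the slope, up to `s²` -/
lemma TT_ref {p : ℝ} (hp : g ≤ p) (hpl : p ≤ k * s / 2) (U : ι → ℝ) :
    TT (cn e q g k z (dd e q) (dd q q) g 1) (g • e + k • q) U - 10 * s ^ 2 * dd U U
      ≤ TT (cn e q g k z (dd e q) (dd q q) p 1) (p • e + k • q) U := by
  have hs := H.s_pos
  have hs4 := H.s_le
  have hk1 := H.k_gt
  have hk2 := H.k_le
  have hg := H.rad.g_pos
  have hgl := H.g_le
  have hgs : g ≤ k * s / 2 := by nlinarith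
  have D1p := dd_w_ge he hs hq (hg.le.trans hp) hpl (by linarith : 0 ≤ k)
  have D1g := dd_w_ge he hs hq hg.le hgs (by linarith : 0 ≤ k)
  obtain ⟨h', rfl, hh, hγ⟩ := exists_h H he hq
  have hs2 := sq_bc (s := s) hγ
  have eb : dd e (s • h') = s * dd e h' := dd_smul_right _ _ _
  have hr := H.rad' hs2
  have hdm := H.dm_ge hs2
  have hb := H.abs_b hs2
  have hgz := H.gz_le hs2
  have hgz0 := H.gz_nonneg
  have hσ : √(1 - dd e h' ^ 2) ^ 2 = 1 - dd e h' ^ 2 :=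
    Real.sq_sqrt (by nlinarith [hγ.1, hγ.2])
  have hcc : (s * √(1 - dd e h' ^ 2)) ^ 2 = s ^ 2 * (1 - dd e h' ^ 2) := by
    rw [mul_pow, hσ]
  obtain ⟨U1, V1, u, v, a1, a2, a3, a4, a5⟩ := split2 he hh hσ U U
  have hwD : ∀ p : ℝ, dd (p • e + k • (s • h')) (p • e + k • (s • h'))
      = D1 k (s * dd e h') (s * √(1 - dd e h' ^ 2)) p 1 := by
    intro p
    unfold D1
    rw [← hs2]
    simp only [dd_smul_left, dd_smul_right, dd_add_left, dd_add_right, he, hh, dd_comm h' e]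
    ring
  rw [hwD] at D1p D1g
  have hsk : 0 < k ^ 2 * s ^ 2 / 4 := by positivity
  have hDp : 0 < D1 k (s * dd e h') (s * √(1 - dd e h' ^ 2)) p 1 := hsk.trans_le D1p
  have hDg : 0 < D1 k (s * dd e h') (s * √(1 - dd e h' ^ 2)) g 1 := hsk.trans_le D1g
  have hE : ∀ p : ℝ, p ^ 2 + (1 * k * s) ^ 2 + 2 * dd e h' * p * (1 * k * s)
      = D1 k (s * dd e h') (s * √(1 - dd e h' ^ 2)) p 1 := by
    intro p; unfold D1; rw [← hs2]; ring
  have key := fun p hD => TT_val (U := U) H he hh hs2 hσ hcc a1 a3 (p := p) hD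
  rw [key p hDp, key g hDg]
  have hc2 : (s * √(1 - dd e h' ^ 2)) ^ 2 ≤ s ^ 2 := by
    rw [hs2]; nlinarith [sq_nonneg (s * dd e h')]
  have hc0 : 0 ≤ (s * √(1 - dd e h' ^ 2)) ^ 2 := sq_nonneg _
  have huu : dd u u ≤ dd U U := by rw [a3]; nlinarith [sq_nonneg (dd e U), sq_nonneg U1]
  have huu0 := dd_self_nonneg u
  have n1 : m0 g k z (s * dd e h') (s * √(1 - dd e h' ^ 2))
        / dm g k z (s * dd e h') (s * √(1 - dd e h' ^ 2)) - 15 / 2 * s ^ 2
      ≤ N1 g k z (s * dd e h') (s * √(1 - dd e h' ^ 2)) p 1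
          / (dm g k z (s * dd e h') (s * √(1 - dd e h' ^ 2))
            * D1 k (s * dd e h') (s * √(1 - dd e h' ^ 2)) p 1) := by
    unfold N1
    exact n1_ge hs hk1 hk2 hg hgl hgz hgz0 (hb.trans (by linarith)) hc0 hc2 (hg.le.trans hp)
      hdm D1p
  have n2 : N1 g k z (s * dd e h') (s * √(1 - dd e h' ^ 2)) g 1
          / (dm g k z (s * dd e h') (s * √(1 - dd e h' ^ 2))
            * D1 k (s * dd e h') (s * √(1 - dd e h' ^ 2)) g 1)
      ≤ m0 g k z (s * dd e h') (s * √(1 - dd e h' ^ 2))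
        / dm g k z (s * dd e h') (s * √(1 - dd e h' ^ 2)) + 2 * s ^ 2 := by
    unfold N1
    exact n2_le hs hs4 hk1 hk2 hg hgl hgz hgz0 hb hc0 hc2 hdm D1g
  generalize N1 g k z (s * dd e h') (s * √(1 - dd e h' ^ 2)) p 1
          / (dm g k z (s * dd e h') (s * √(1 - dd e h' ^ 2))
            * D1 k (s * dd e h') (s * √(1 - dd e h' ^ 2)) p 1) = Xp at *
  generalize N1 g k z (s * dd e h') (s * √(1 - dd e h' ^ 2)) g 1
          / (dm g k z (s * dd e h') (s * √(1 - dd e h' ^ 2))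
            * D1 k (s * dd e h') (s * √(1 - dd e h' ^ 2)) g 1) = Xg at *
  have f1 : Xg - Xp ≤ 10 * s ^ 2 := by linarith [sq_nonneg s]
  have f2 := mul_le_mul_of_nonneg_right f1 huu0
  have f3 : 10 * s ^ 2 * dd u u ≤ 10 * s ^ 2 * dd U U :=
    mul_le_mul_of_nonneg_left huu (by positivity)
  linarith

/-- **the second margin, without the slope** -/
lemma Q_le_FU2 {Z p1 p2 : ℝ} (hZ : z ≤ Z) (hp1 : g ≤ p1) (hp1' : p1 ≤ k * s / 2) (hp2 : g ≤ p2)
    (hp2' : p2 ≤ k * s / 2) (U V : ι → ℝ) :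
    1 / 4 * dd (U - V) (U - V) - 225 * (1 + Z) * s ^ 2 * (dd U U + dd V V)
      ≤ FU e q g k z p1 1 p2 1 U V := by
  have hs := H.s_pos
  have hs4 := H.s_le
  have hk1 := H.k_gt
  have hg := H.rad.g_pos
  have hgl := H.g_le
  have hz := H.rad.z_nonneg
  have hZ0 : 0 ≤ Z := hz.trans hZ
  have hgs : g ≤ k * s / 2 := by nlinarith
  have h0 := Q_le_FU H he hq hZ hg.le hgs hg.le hgs U V
  have r1 := TT_ref H he hq hp1 hp1' U
  have r2 := TT_ref H he (q := -q) (by rw [dd_neg_neg]; exact hq) hp2 hp2' V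
  rw [dd_neg_right, dd_neg_neg] at r2
  have e2 : ∀ p : ℝ, p • e + k • (-q) = p • e - k • q := by
    intro p; rw [smul_neg, sub_eq_add_neg]
  rw [e2, e2] at r2
  unfold FU at h0 ⊢
  simp only [one_mul] at h0 ⊢
  generalize TT _ _ U = x1 at *
  generalize TT (cn e q g k z (dd e q) (dd q q) p1 1) _ U = x2 at *
  generalize TT (cn e (-q) g k z (-dd e q) (dd q q) g 1) _ V = x3 at *
  generalize TT (cn e (-q) g k z (-dd e q) (dd q q) p2 1) _ V = x4 at *
  generalize HQ e q g k z U V = x5 at *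
  have hU := dd_self_nonneg U
  have hV := dd_self_nonneg V
  generalize dd (U - V) (U - V) = Y at *
  generalize dd U U = A at *
  generalize dd V V = B at *
  have m1 : 100 * (1 + Z) * (g + g + s ^ 2) * (A + B) ≤ 100 * (1 + Z) * (17 / 8 * s ^ 2) * (A + B) := by
    apply mul_le_mul_of_nonneg_right _ (by linarith)
    apply mul_le_mul_of_nonneg_left _ (by positivity)
    linarith
  have m2 : 0 ≤ Z * (s ^ 2 * (A + B)) := by positivity
  have m3 : 0 ≤ s ^ 2 * (A + B) := by positivity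
  nlinarith

/-- **Zone II, pointwise**, final form. -/
theorem zII2 {Z p1 p2 E K κ : ℝ} (hZ : z ≤ Z) (hs26 : 26 * s ≤ 1)
    (h1 : g ≤ p1) (h2 : g ≤ p2) (h1' : p1 ≤ k * s / 2) (h2' : p2 ≤ k * s / 2)
    (hκ : 0 ≤ κ) (hK : κ ≤ K) (hE : 800 * κ ≤ E * s ^ 2) (hE2 : 8 * κ ≤ E) (U V : ι → ℝ) :
    κ / 4 * (dd U U + dd V V) + κ / (3600 * (1 + Z) * s ^ 2) * dd (U - V) (U - V)
      ≤ K * (dd e U + dd e V) ^ 2 + E * FU e q g k z p1 1 p2 1 U V
        + κ * TT (kf e (p1 • e + k • q)) (p1 • e + k • q) U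
        + κ * TT (kf e (p2 • e - k • q)) (p2 • e - k • q) V := by
  have hs := H.s_pos
  have hg := H.rad.g_pos
  have hz := H.rad.z_nonneg
  have hZ0 : 0 ≤ Z := hz.trans hZ
  have hk1 := H.k_gt
  have main := regIIu H he hq (t1 := 1) (t2 := 1) (K := K) (κ := κ) (E := E) one_pos one_pos hs26
    (by linarith : 1 * g ≤ p1) (by linarith : 1 * g ≤ p2) (by linarith : p1 ≤ 1 * k * s / 2)
    (by linarith : p2 ≤ 1 * k * s / 2) hκ hK hE hE2 U V
  simp only [one_mul] at main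
  have hFQ := Q_le_FU2 H he hq hZ h1 h1' h2 h2' U V
  have g1 := dd_w_ge he hs hq (hg.le.trans h1) (by linarith : p1 ≤ k * s / 2) (by linarith : 0 ≤ k)
  have hq' : dd (-q) (-q) = s ^ 2 := by rw [dd_neg_neg]; exact hq
  have g2 := dd_w_ge he hs hq' (hg.le.trans h2) (by linarith : p2 ≤ k * s / 2) (by linarith : 0 ≤ k)
  have w1 : dd (p1 • e + k • q) (p1 • e + k • q) = wq k (dd e q) (s ^ 2) p1 1 := by
    unfold wq
    simp only [dd_smul_left, dd_smul_right, dd_add_left, dd_add_right, he, hq, dd_comm q e]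
    ring
  have e1 : dd e (-q) = -dd e q := dd_neg_right e q
  have w2 : dd (p2 • e + k • (-q)) (p2 • e + k • (-q))
      = wq k (-dd e q) (s ^ 2) p2 1 := by
    unfold wq
    simp only [dd_smul_left, dd_smul_right, dd_add_left, dd_add_right, he, hq', dd_comm (-q) e, e1]
    ring
  have hD1 : 0 < wq k (dd e q) (s ^ 2) p1 1 := by
    rw [← w1]; exact lt_of_lt_of_le (by positivity) g1
  have hD2 : 0 < wq k (-dd e q) (s ^ 2) p2 1 := by
    rw [← w2]; exact lt_of_lt_of_le (by positivity) g2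
  have hF := near_small H he hq (t1 := 1) (t2 := 1) zero_le_one zero_le_one
    (by linarith : 1 * g ≤ p1) (by linarith : 1 * g ≤ p2) hD1 hD2 U V
  have hF0 : 0 ≤ FU e q g k z p1 1 p2 1 U V := by
    refine le_trans ?_ hF
    have G1 := Gr_nonneg (q := q) he U
    have G2 := Gr_nonneg (q := q) he V
    have hU := dd_self_nonneg U
    have hV := dd_self_nonneg V
    positivity
  have hs2 : 0 < s ^ 2 := pow_pos hs 2
  set lam := κ / (225 * (1 + Z) * s ^ 2) with hlam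
  have hl0 : 0 ≤ lam := by positivity
  have hlE : lam ≤ E := by
    rw [hlam, div_le_iff₀ (by positivity)]
    have a2 : 0 ≤ E * s ^ 2 * Z := by
      have : 0 ≤ E * s ^ 2 := le_trans (by positivity) hE
      positivity
    nlinarith
  have hll : lam * (225 * (1 + Z) * s ^ 2) = κ := by
    rw [hlam]; field_simp
  have hY := dd_self_nonneg (U - V)
  have hN : 0 ≤ dd U U + dd V V := add_nonneg (dd_self_nonneg _) (dd_self_nonneg _)
  have a3 : lam / 4 * FU e q g k z p1 1 p2 1 U V ≤ E / 4 * FU e q g k z p1 1 p2 1 U V :=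
    mul_le_mul_of_nonneg_right (by linarith) hF0
  have a4 := mul_le_mul_of_nonneg_left hFQ (show 0 ≤ lam / 4 by linarith)
  have a5 : lam / 4 * (1 / 4 * dd (U - V) (U - V) - 225 * (1 + Z) * s ^ 2 * (dd U U + dd V V))
      = lam / 16 * dd (U - V) (U - V) - κ / 4 * (dd U U + dd V V) := by
    rw [← hll]; ring
  rw [a5] at a4
  have a6 : κ / (3600 * (1 + Z) * s ^ 2) = lam / 16 := by
    rw [hlam, div_div]
    congr 1
    ring
  rw [a6]
  clear hFQ hD1 hD2 w1 w2 g1 g2 hF hlam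
  generalize dd (U - V) (U - V) = Y at *
  generalize FU e q g k z p1 1 p2 1 U V = F at *
  generalize TT _ _ U = x3 at *
  generalize TT _ _ V = x4 at *
  generalize dd U U + dd V V = N at *
  have b1 : lam / 16 * Y - κ / 4 * N ≤ E / 4 * F := a4.trans a3
  linarith

end

end Vale.Agent.P088.R2.H942.Iso.Near
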