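import Vale.Agent.P088.R2.H942.Near1
import Vale.Agent.P088.R2.H230.W.Far

/-!
# P088, stage 3: strict form of the isotropic certificate, vectors

Format of `H230.W.Far`: `e`, `h` unit vectors, `TT c w U = (c.w)|U|^2 - 2 (c.U)(w.U)`.
-/

noncomputable section

namespace Vale.Agent.P088.R2.H942.Iso.Near

set_option linter.unusedSectionVars false

open Vale.Agent.P088.R2.H230.W (dd dd_comm dd_add_left dd_add_right dd_sub_left dd_sub_right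
  dd_smul_left dd_smul_right dd_self_nonneg dd_cs TT)

/-- In-plane form, real coordinates, with the quantitative lower bound. -/
lemma planeC_low {dp dm zr zi wr wi : ℝ} (hdp : 0 < dp) (hdm : 0 < dm)
    (hw : wr ^ 2 + wi ^ 2 ≤ dp * dm) (hz : zr ^ 2 + zi ^ 2 ≤ dp * dm) (U0 U1 V0 V1 : ℝ) :
    (dp * dm - (zr ^ 2 + zi ^ 2)) * (dp * dm - (wr ^ 2 + wi ^ 2)) / (4 * (dp * dm) ^ 2)
      * (dp * (U0 ^ 2 + U1 ^ 2) + dm * (V0 ^ 2 + V1 ^ 2)) ≤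
    dp * (U0 ^ 2 + U1 ^ 2) + dm * (V0 ^ 2 + V1 ^ 2)
      + 2 * (zr * (U0 * V0 + U1 * V1) - zi * (U1 * V0 - U0 * V1))
      + (((wr * zr - wi * zi) * (U0 ^ 2 - U1 ^ 2) - 2 * (wr * zi + wi * zr) * U0 * U1) / dm
        + 2 * (wr * (U0 * V0 - U1 * V1) - wi * (U0 * V1 + U1 * V0))
        + ((wr * zr + wi * zi) * (V0 ^ 2 - V1 ^ 2) - 2 * (wi * zr - wr * zi) * V0 * V1) / dp) := by
  obtain ⟨s, hs, hs2⟩ : ∃ s : ℝ, 0 < s ∧ s ^ 2 = dp := ⟨√dp, Real.sqrt_pos.2 hdp, Real.sq_sqrt hdp.le⟩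
  obtain ⟨t, ht, ht2⟩ : ∃ t : ℝ, 0 < t ∧ t ^ 2 = dm := ⟨√dm, Real.sqrt_pos.2 hdm, Real.sq_sqrt hdm.le⟩
  subst hs2 ht2
  have hst : 0 < s * t := mul_pos hs ht
  have hst2 : 0 < (s * t) ^ 2 := by positivity
  have nsq : ∀ a b : ℝ, ‖(⟨a / (s * t), b / (s * t)⟩ : ℂ)‖ ^ 2 = (a ^ 2 + b ^ 2) / (s ^ 2 * t ^ 2) := by
    intro a b
    rw [← Complex.normSq_eq_norm_sq, Complex.normSq_mk]
    field_simp
  have key : ∀ a b : ℝ, a ^ 2 + b ^ 2 ≤ s ^ 2 * t ^ 2 →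
      ‖(⟨a / (s * t), b / (s * t)⟩ : ℂ)‖ ≤ 1 := by
    intro a b hab
    rw [← sq_le_one_iff₀ (norm_nonneg _), nsq, div_le_one (by positivity)]
    exact hab
  have key2 : ∀ a b : ℝ, a ^ 2 + b ^ 2 ≤ s ^ 2 * t ^ 2 →
      0 ≤ (s ^ 2 * t ^ 2 - (a ^ 2 + b ^ 2)) / (2 * (s ^ 2 * t ^ 2)) ∧
      (s ^ 2 * t ^ 2 - (a ^ 2 + b ^ 2)) / (2 * (s ^ 2 * t ^ 2))
        ≤ 1 - ‖(⟨a / (s * t), b / (s * t)⟩ : ℂ)‖ := by
    intro a b hab
    refine ⟨div_nonneg (by linarith) (by positivity), ?_⟩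
    have h1 := nsq a b
    have h2 : (s ^ 2 * t ^ 2 - (a ^ 2 + b ^ 2)) / (2 * (s ^ 2 * t ^ 2))
        = (1 - ‖(⟨a / (s * t), b / (s * t)⟩ : ℂ)‖ ^ 2) / 2 := by
      rw [h1]; field_simp
    rw [h2]
    nlinarith [sq_nonneg (1 - ‖(⟨a / (s * t), b / (s * t)⟩ : ℂ)‖)]
  have h := prodC ⟨zr / (s * t), zi / (s * t)⟩ ⟨wr / (s * t), wi / (s * t)⟩
    ⟨s * U0, s * U1⟩ ⟨t * V0, t * V1⟩ (key _ _ hz) (key _ _ hw)
  have hN : ‖(⟨s * U0, s * U1⟩ : ℂ)‖ ^ 2 + ‖(⟨t * V0, t * V1⟩ : ℂ)‖ ^ 2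
      = s ^ 2 * (U0 ^ 2 + U1 ^ 2) + t ^ 2 * (V0 ^ 2 + V1 ^ 2) := by
    rw [← Complex.normSq_eq_norm_sq, ← Complex.normSq_eq_norm_sq, Complex.normSq_mk,
      Complex.normSq_mk]
    ring
  have hlow : (s ^ 2 * t ^ 2 - (zr ^ 2 + zi ^ 2)) * (s ^ 2 * t ^ 2 - (wr ^ 2 + wi ^ 2))
        / (4 * (s ^ 2 * t ^ 2) ^ 2) * (s ^ 2 * (U0 ^ 2 + U1 ^ 2) + t ^ 2 * (V0 ^ 2 + V1 ^ 2))
      ≤ (1 - ‖(⟨zr / (s * t), zi / (s * t)⟩ : ℂ)‖) * (1 - ‖(⟨wr / (s * t), wi / (s * t)⟩ : ℂ)‖)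
      * (‖(⟨s * U0, s * U1⟩ : ℂ)‖ ^ 2 + ‖(⟨t * V0, t * V1⟩ : ℂ)‖ ^ 2) := by
    rw [hN]
    obtain ⟨k1, k2⟩ := key2 _ _ hz
    obtain ⟨k3, k4⟩ := key2 _ _ hw
    have e : (s ^ 2 * t ^ 2 - (zr ^ 2 + zi ^ 2)) * (s ^ 2 * t ^ 2 - (wr ^ 2 + wi ^ 2))
        / (4 * (s ^ 2 * t ^ 2) ^ 2)
        = (s ^ 2 * t ^ 2 - (zr ^ 2 + zi ^ 2)) / (2 * (s ^ 2 * t ^ 2))
          * ((s ^ 2 * t ^ 2 - (wr ^ 2 + wi ^ 2)) / (2 * (s ^ 2 * t ^ 2))) := by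
      field_simp; ring
    rw [e]
    exact mul_le_mul_of_nonneg_right (mul_le_mul k2 k4 k3 (k1.trans k2)) (by positivity)
  have h3 := hlow.trans h
  refine h3.trans (le_of_eq ?_)
  rw [← Complex.normSq_eq_norm_sq, ← Complex.normSq_eq_norm_sq, Complex.normSq_mk, Complex.normSq_mk]
  simp only [sq, Complex.mul_re, Complex.mul_im, Complex.add_re, Complex.add_im, Complex.conj_re,
    Complex.conj_im, Complex.re_ofNat, Complex.im_ofNat]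
  field_simp
  ring

/-- In-plane part, independent of the slopes. -/
def pl (g k z b c U0 U1 V0 V1 : ℝ) : ℝ :=
  g * (U0 + V0) ^ 2 + 2 * (U0 + V0) * (k * b * (U0 - V0) + k * c * (U1 - V1))
    + (k + z * b ^ 2) * (U0 - V0) ^ 2 + 2 * z * b * c * (U0 - V0) * (U1 - V1)
    + (k + z * c ^ 2) * (U1 - V1) ^ 2
    + (ar g k z b c / dm g k z b c * (U0 ^ 2 - U1 ^ 2)
        - 2 * (c * ai g k z b / dm g k z b c) * U0 * U1)
    + (br g k z b c / dp g k z b c * (V0 ^ 2 - V1 ^ 2)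
        - 2 * (c * bi g k z b / dp g k z b c) * V0 * V1)

lemma pl_eq {g k z b c : ℝ} (hdm : 0 < dm g k z b c) (hdp : 0 < dp g k z b c) (U0 U1 V0 V1 : ℝ) :
    4 * pl g k z b c U0 U1 V0 V1
      = dp g k z b c * (U0 ^ 2 + U1 ^ 2) + dm g k z b c * (V0 ^ 2 + V1 ^ 2)
      + 2 * ((2 * g - 4 * k - 2 * z * (b ^ 2 + c ^ 2)) * (U0 * V0 + U1 * V1)
        - (-(4 * k * c)) * (U1 * V0 - U0 * V1))
      + ((((2 * g - 2 * z * b ^ 2 + 2 * z * c ^ 2) * (2 * g - 4 * k - 2 * z * (b ^ 2 + c ^ 2))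
            - (4 * z * b * c) * (-(4 * k * c))) * (U0 ^ 2 - U1 ^ 2)
          - 2 * ((2 * g - 2 * z * b ^ 2 + 2 * z * c ^ 2) * (-(4 * k * c))
            + (4 * z * b * c) * (2 * g - 4 * k - 2 * z * (b ^ 2 + c ^ 2))) * U0 * U1)
            / dm g k z b c
        + 2 * ((2 * g - 2 * z * b ^ 2 + 2 * z * c ^ 2) * (U0 * V0 - U1 * V1)
          - (4 * z * b * c) * (U0 * V1 + U1 * V0))
        + (((2 * g - 2 * z * b ^ 2 + 2 * z * c ^ 2) * (2 * g - 4 * k - 2 * z * (b ^ 2 + c ^ 2))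
            + (4 * z * b * c) * (-(4 * k * c))) * (V0 ^ 2 - V1 ^ 2)
          - 2 * ((4 * z * b * c) * (2 * g - 4 * k - 2 * z * (b ^ 2 + c ^ 2))
            - (2 * g - 2 * z * b ^ 2 + 2 * z * c ^ 2) * (-(4 * k * c))) * V0 * V1)
            / dp g k z b c) := by
  unfold pl
  have h1 := hdm.ne'
  have h2 := hdp.ne'
  field_simp
  unfold ar ai br bi De dm dp Sg
  ring

/-- in plane margin -/
def muI (g k z b c s : ℝ) : ℝ :=
  8 * g * (k - 1) * (k * (k + z * s ^ 2) - g) / (dp g k z b c * dm g k z b c * Sg g k z b c)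

/-- out of plane margin -/
def muO (g k z b c s : ℝ) : ℝ := DL g k z b s / (4 * MM g k z b c s * Sg g k z b c)

section

variable {g k z b c s : ℝ} (h : Rad2 g k z (b ^ 2 + c ^ 2)) (hs : 0 < s)
  (hs2 : s ^ 2 = b ^ 2 + c ^ 2)
include h hs hs2

lemma MM_pos : 0 < MM g k z b c s := by
  have h1 := h.m0_pos
  have h2 := h.g_pos
  have h3 : 0 < k := by linarith [h.k_gt]
  unfold MM; positivity

lemma muI_pos : 0 < muI g k z b c s := by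
  have h1 := h.dpos.1
  have h2 := h.dpos.2
  have h3 := h.Sg_pos
  have h4 := h.c2
  rw [← hs2] at h4
  have h5 := h.g_pos
  have h6 : 0 < k - 1 := by linarith [h.k_gt]
  have h7 : 0 < k * (k + z * s ^ 2) - g := by linarith
  unfold muI; positivity

lemma muO_pos : 0 < muO g k z b c s := by
  have h1 := DL_pos h hs hs2
  have h2 := MM_pos h hs hs2
  have h3 := h.Sg_pos
  unfold muO; positivity

lemma pl_low (U0 U1 V0 V1 : ℝ) :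
    muI g k z b c s * (U0 ^ 2 + U1 ^ 2 + (V0 ^ 2 + V1 ^ 2)) ≤ pl g k z b c U0 U1 V0 V1 := by
  obtain ⟨hdm, hdp⟩ := h.dpos
  have hlow := planeC_low hdp hdm h.C2.le h.C1 U0 U1 V0 V1
  rw [← pl_eq hdm hdp] at hlow
  have e1 : dp g k z b c * dm g k z b c
      - ((2 * g - 4 * k - 2 * z * (b ^ 2 + c ^ 2)) ^ 2 + (-(4 * k * c)) ^ 2)
      = 16 * g * (k - 1) := by
    have h1 := h.rel
    unfold dp dm Sg; linear_combination (-16) * h1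
  have e2 : dp g k z b c * dm g k z b c
      - ((2 * g - 2 * z * b ^ 2 + 2 * z * c ^ 2) ^ 2 + (4 * z * b * c) ^ 2)
      = 16 * (k * (k + z * s ^ 2) - g + c ^ 2 * (k ^ 2 - g * z)) := by
    have h1 := h.Kk_s2
    rw [hs2]
    unfold dp dm Sg; linear_combination (-16) * h1
  rw [e1, e2] at hlow
  have hg := h.g_pos
  have hk1 : 0 < k - 1 := by linarith [h.k_gt]
  have hy : 0 ≤ c ^ 2 * (k ^ 2 - g * z) := mul_nonneg (sq_nonneg c) h.Kk_pos.le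
  have hc2 := h.c2
  rw [← hs2] at hc2
  have hS : dp g k z b c + dm g k z b c = 2 * Sg g k z b c := by unfold dp dm; ring
  have hSp := h.Sg_pos
  set dP := dp g k z b c
  set dM := dm g k z b c
  set S := Sg g k z b c
  set G := k * (k + z * s ^ 2) - g with hG
  have hGp : 0 < G := by rw [hG]; linarith
  have hmin : dP * dM / (2 * S) * (U0 ^ 2 + U1 ^ 2 + (V0 ^ 2 + V1 ^ 2))
      ≤ dP * (U0 ^ 2 + U1 ^ 2) + dM * (V0 ^ 2 + V1 ^ 2) := by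
    have a1 : dP * dM / (2 * S) ≤ dP := by
      rw [div_le_iff₀ (by positivity), ← hS]; nlinarith
    have a2 : dP * dM / (2 * S) ≤ dM := by
      rw [div_le_iff₀ (by positivity), ← hS]; nlinarith
    nlinarith [mul_le_mul_of_nonneg_right a1 (show 0 ≤ U0 ^ 2 + U1 ^ 2 by positivity),
      mul_le_mul_of_nonneg_right a2 (show 0 ≤ V0 ^ 2 + V1 ^ 2 by positivity)]
  have h3 : 16 * g * (k - 1) * (16 * G) / (4 * (dP * dM) ^ 2)
        * (dP * dM / (2 * S) * (U0 ^ 2 + U1 ^ 2 + (V0 ^ 2 + V1 ^ 2)))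
      ≤ 16 * g * (k - 1) * (16 * (G + c ^ 2 * (k ^ 2 - g * z))) / (4 * (dP * dM) ^ 2)
        * (dP * (U0 ^ 2 + U1 ^ 2) + dM * (V0 ^ 2 + V1 ^ 2)) := by
    apply mul_le_mul _ hmin (by positivity) (by positivity)
    apply div_le_div_of_nonneg_right _ (by positivity)
    apply mul_le_mul_of_nonneg_left _ (by positivity)
    linarith
  have e3 : 16 * g * (k - 1) * (16 * G) / (4 * (dP * dM) ^ 2)
        * (dP * dM / (2 * S) * (U0 ^ 2 + U1 ^ 2 + (V0 ^ 2 + V1 ^ 2)))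
      = 4 * (8 * g * (k - 1) * G / (dP * dM * S) * (U0 ^ 2 + U1 ^ 2 + (V0 ^ 2 + V1 ^ 2))) := by
    field_simp; ring
  rw [e3] at h3
  have e4 : muI g k z b c s = 8 * g * (k - 1) * G / (dP * dM * S) := rfl
  rw [e4]
  linarith

end

end Vale.Agent.P088.R2.H942.Iso.Near
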