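import Vale.Agent.P088.R2.H942.Near2

/-!
# P088, stage 3: strict form of the isotropic certificate, vectors (2)
-/

noncomputable section

namespace Vale.Agent.P088.R2.H942.Iso.Near

set_option linter.unusedSectionVars false

open Vale.Agent.P088.R2.H230.W (dd dd_comm dd_add_left dd_add_right dd_sub_left dd_sub_right
  dd_smul_left dd_smul_right dd_self_nonneg dd_cs TT)

variable {ι : Type*} [Fintype ι]

/-- Lee field `c` with `- conj (c w) = A + i sin B` for `w = v e + l h` (plane `e = 1`). -/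
def lee (e h : ι → ℝ) (v l A B : ℝ) : ι → ℝ :=
  (v ^ 2 + l ^ 2 + 2 * dd e h * v * l)⁻¹ •
    ((-A * v - 2 * dd e h * A * l - B * v * dd e h + l * B * (1 - 2 * dd e h ^ 2)) • e
      + (A * l + B * v + l * B * dd e h) • h)

lemma dd_vec {e h : ι → ℝ} (he : dd e e = 1) (hh : dd h h = 1) (v l : ℝ) :
    dd (v • e + l • h) (v • e + l • h) = v ^ 2 + l ^ 2 + 2 * dd e h * v * l := by
  simp only [dd_add_left, dd_add_right, dd_smul_left, dd_smul_right, he, hh, dd_comm h e]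
  ring

/-- scalar product `c.w` -/
def cw (γ v l A B : ℝ) : ℝ :=
  ((-A * v - 2 * γ * A * l - B * v * γ + l * B * (1 - 2 * γ ^ 2)) * (v + l * γ)
    + (A * l + B * v + l * B * γ) * (v * γ + l)) / (v ^ 2 + l ^ 2 + 2 * γ * v * l)

lemma lee_w {e h : ι → ℝ} (he : dd e e = 1) (hh : dd h h = 1) (v l A B : ℝ) :
    dd (lee e h v l A B) (v • e + l • h) = cw (dd e h) v l A B := by
  unfold lee cw
  simp only [dd_add_left, dd_add_right, dd_smul_left, dd_smul_right, he, hh, dd_comm h e]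
  rw [div_eq_inv_mul]
  ring

lemma lee_sq {e h : ι → ℝ} (he : dd e e = 1) (hh : dd h h = 1) (v l A B : ℝ)
    (hD : v ^ 2 + l ^ 2 + 2 * dd e h * v * l ≠ 0) :
    dd (lee e h v l A B) (lee e h v l A B) * dd (v • e + l • h) (v • e + l • h)
      = A ^ 2 + (1 - dd e h ^ 2) * B ^ 2 := by
  rw [dd_vec he hh]
  unfold lee
  simp only [dd_add_left, dd_add_right, dd_smul_left, dd_smul_right, he, hh, dd_comm h e]
  generalize hD' : v ^ 2 + l ^ 2 + 2 * dd e h * v * l = D at *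
  field_simp
  subst hD'
  ring

/-- The multiplier form in coordinates. -/
lemma lee_TT {e h : ι → ℝ} (he : dd e e = 1) (hh : dd h h = 1) {v l A B σ : ℝ}
    (hD : v ^ 2 + l ^ 2 + 2 * dd e h * v * l ≠ 0) (hσ : σ ^ 2 = 1 - dd e h ^ 2)
    (U : ι → ℝ) {U0 U1 u2 : ℝ} (h0 : dd e U = U0) (h1 : dd h U = dd e h * U0 + σ * U1)
    (h2 : dd U U = U0 ^ 2 + U1 ^ 2 + u2) :
    TT (lee e h v l A B) (v • e + l • h) U
      = A * (U0 ^ 2 - U1 ^ 2) - 2 * (σ * B) * U0 * U1 + cw (dd e h) v l A B * u2 := by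
  unfold TT
  rw [lee_w he hh, h2]
  have e1 : dd (lee e h v l A B) U = (v ^ 2 + l ^ 2 + 2 * dd e h * v * l)⁻¹ *
    ((-A * v - 2 * dd e h * A * l - B * v * dd e h + l * B * (1 - 2 * dd e h ^ 2)) * U0
      + (A * l + B * v + l * B * dd e h) * (dd e h * U0 + σ * U1)) := by
    unfold lee
    simp only [dd_add_left, dd_smul_left, h0, h1]
  have e2 : dd (v • e + l • h) U = v * U0 + l * (dd e h * U0 + σ * U1) := by
    simp only [dd_add_left, dd_smul_left, h0, h1]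
  rw [e1, e2]
  unfold cw
  clear e1 e2 h1
  generalize dd e h = γ at *
  obtain ⟨D, hD'⟩ : ∃ D, D = v ^ 2 + l ^ 2 + 2 * γ * v * l := ⟨_, rfl⟩
  rw [← hD'] at hD ⊢
  have e3 : ∀ X : ℝ, X = X * D * D⁻¹ := fun X => by field_simp
  rw [div_eq_mul_inv, e3 (A * (U0 ^ 2 - U1 ^ 2) - 2 * (σ * B) * U0 * U1)]
  rw [hD']
  linear_combination (-2 * (A * l + B * v + l * B * γ) * l * U1 ^ 2
    * (v ^ 2 + l ^ 2 + 2 * γ * v * l)⁻¹) * hσ

/-- Decomposition of two vectors along the plane of `e`, `h`. -/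
lemma split2 {e h : ι → ℝ} (he : dd e e = 1) (hh : dd h h = 1) {σ : ℝ}
    (hσ : σ ^ 2 = 1 - dd e h ^ 2) (U V : ι → ℝ) :
    ∃ (U1 V1 : ℝ) (u v : ι → ℝ), dd h U = dd e h * dd e U + σ * U1 ∧
      dd h V = dd e h * dd e V + σ * V1 ∧ dd U U = dd e U ^ 2 + U1 ^ 2 + dd u u ∧
      dd V V = dd e V ^ 2 + V1 ^ 2 + dd v v ∧ dd U V = dd e U * dd e V + U1 * V1 + dd u v := by
  have hq : σ ^ 2 = ∑ i, (h - dd e h • e) i ^ 2 := by
    have e1 : ∑ i, (h - dd e h • e) i ^ 2 = dd (h - dd e h • e) (h - dd e h • e) := by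
      unfold dd; exact Finset.sum_congr rfl fun i _ => sq _
    rw [e1, hσ]
    simp only [dd_sub_left, dd_sub_right, dd_smul_left, dd_smul_right, he, hh, dd_comm h e]
    ring
  obtain ⟨U1, V1, u, v, a1, a2, a3, a4, a5⟩ :=
    split (h - dd e h • e) (U - dd e U • e) (V - dd e V • e) hq
  have s1 : ∀ A B : ι → ℝ, ∑ i, A i * B i = dd A B := fun A B => rfl
  have s2 : ∀ A : ι → ℝ, ∑ i, A i ^ 2 = dd A A := fun A => by
    unfold dd; exact Finset.sum_congr rfl fun i _ => sq _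
  rw [s1] at a1 a2 a5
  rw [s2, s2] at a3 a4
  rw [s1] at a5
  refine ⟨U1, V1, u, v, ?_, ?_, ?_, ?_, ?_⟩
  · simp only [dd_sub_left, dd_sub_right, dd_smul_left, dd_smul_right, he, dd_comm h e] at a1
    linarith
  · simp only [dd_sub_left, dd_sub_right, dd_smul_left, dd_smul_right, he, dd_comm h e] at a2
    linarith
  · simp only [dd_sub_left, dd_sub_right, dd_smul_left, dd_smul_right, he, dd_comm U e] at a3
    linarith
  · simp only [dd_sub_left, dd_sub_right, dd_smul_left, dd_smul_right, he, dd_comm V e] at a4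
    linarith
  · simp only [dd_sub_left, dd_sub_right, dd_smul_left, dd_smul_right, he, dd_comm U e] at a5
    linarith

/-- The main part in units `e^{2a} = 1`: `g (U_n+V_n)^2 + 2 k s (U_n+V_n)(h.Q)
+ F'' (h.Q)^2 + k (|Q|^2 - (h.Q)^2)`. -/
def HH (e h : ι → ℝ) (g k z s : ℝ) (U V : ι → ℝ) : ℝ :=
  g * (dd e U + dd e V) ^ 2 + 2 * k * s * (dd e U + dd e V) * dd h (U - V)
    + z * s ^ 2 * dd h (U - V) ^ 2 + k * dd (U - V) (U - V)

lemma cw1 {g k z b c s γ p t : ℝ} (hb : b = s * γ) (hc : c ^ 2 = s ^ 2 * (1 - γ ^ 2))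
    (hdm : 0 < dm g k z b c) (hD : 0 < D1 k b c p t) :
    k + cw γ p (t * k * s) (ar g k z b c / dm g k z b c) (s * ai g k z b / dm g k z b c)
      = N1 g k z b c p t / (dm g k z b c * D1 k b c p t) := by
  have hD' : p ^ 2 + (t * k * s) ^ 2 + 2 * γ * p * (t * k * s) = D1 k b c p t := by
    unfold D1; rw [hb, hc]; ring
  unfold cw
  rw [hD', eq_div_iff (mul_pos hdm hD).ne']
  have h1 := hdm.ne'
  have h2 := hD.ne'
  field_simp
  unfold N1 D1 m0 ar ai De dm Sg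
  rw [hb]
  obtain ⟨d, hd⟩ : ∃ d, d = c ^ 2 := ⟨_, rfl⟩
  simp only [← hd]
  rw [← hd] at hc
  rw [hc]
  ring

lemma cw2 {g k z b c s γ p t : ℝ} (hb : b = s * γ) (hc : c ^ 2 = s ^ 2 * (1 - γ ^ 2))
    (hdp : 0 < dp g k z b c) (hD : 0 < D1 k (-b) c p t) :
    k + cw γ p (-(t * k * s)) (br g k z b c / dp g k z b c) (s * bi g k z b / dp g k z b c)
      = N1 g k z (-b) c p t / (dp g k z b c * D1 k (-b) c p t) := by
  have hD' : p ^ 2 + (-(t * k * s)) ^ 2 + 2 * γ * p * (-(t * k * s)) = D1 k (-b) c p t := by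
    unfold D1; rw [hb, hc]; ring
  unfold cw
  rw [hD', eq_div_iff (mul_pos hdp hD).ne']
  have h1 := hdp.ne'
  have h2 := hD.ne'
  field_simp
  unfold N1 D1 m0 br bi De dp Sg
  rw [hb]
  obtain ⟨d, hd⟩ : ∃ d, d = c ^ 2 := ⟨_, rfl⟩
  simp only [← hd]
  rw [← hd] at hc
  rw [hc]
  ring

lemma out_low {A B k δ a b : ℝ} (hA : 0 < A) (hB : 0 < B) (hδ : 0 < δ)
    (hAB : k ^ 2 + δ ≤ A * B) (ha : A ≤ a) (hb : B ≤ b) (u v : ι → ℝ) :
    δ / (a + b) * (dd u u + dd v v) ≤ A * dd u u - 2 * k * dd u v + B * dd v v := by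
  set l := δ / (a + b) with hl
  have hab : 0 < a + b := by linarith
  have hl0 : 0 < l := div_pos hδ hab
  have hl1 : l * (A + B) ≤ δ := by
    have : l * (A + B) ≤ l * (a + b) := mul_le_mul_of_nonneg_left (by linarith) hl0.le
    rw [hl, div_mul_cancel₀ _ hab.ne'] at this
    exact this
  have hlA : 0 < A - l := by
    have h1 : l * (A + B) ≤ A * B := by nlinarith [sq_nonneg k]
    have h2 : l * A + l * B ≤ A * B := by linarith
    have h3 : l * B < A * B := by nlinarith [mul_pos hl0 hA]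
    have := lt_of_mul_lt_mul_right h3 hB.le
    linarith
  have hdet : 0 ≤ (A - l) * (B - l) - k ^ 2 := by nlinarith [sq_nonneg l]
  have e : (A - l) * ((A - l) * dd u u - 2 * k * dd u v + (B - l) * dd v v)
      = dd ((A - l) • u - k • v) ((A - l) • u - k • v)
        + ((A - l) * (B - l) - k ^ 2) * dd v v := by
    simp only [dd_sub_left, dd_sub_right, dd_smul_left, dd_smul_right, dd_comm v u]
    ring
  have h1 : 0 ≤ (A - l) * ((A - l) * dd u u - 2 * k * dd u v + (B - l) * dd v v) := by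
    rw [e]
    exact add_nonneg (dd_self_nonneg _) (mul_nonneg hdet (dd_self_nonneg _))
  have h2 := nonneg_of_mul_nonneg_right h1 hlA
  linarith

/-- scalar form of the in plane part -/
def plq (g k z b c q1 w1 q2 w2 U0 U1 V0 V1 : ℝ) : ℝ :=
  g * (U0 + V0) ^ 2 + 2 * (U0 + V0) * (k * b * (U0 - V0) + k * c * (U1 - V1))
    + (k + z * b ^ 2) * (U0 - V0) ^ 2 + 2 * z * b * c * (U0 - V0) * (U1 - V1)
    + (k + z * c ^ 2) * (U1 - V1) ^ 2
    + (q1 * (U0 ^ 2 - U1 ^ 2) - 2 * w1 * U0 * U1)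
    + (q2 * (V0 ^ 2 - V1 ^ 2) - 2 * w2 * V0 * V1)

lemma pl_plq (g k z b c U0 U1 V0 V1 : ℝ) :
    pl g k z b c U0 U1 V0 V1 = plq g k z b c (ar g k z b c / dm g k z b c)
      (c * ai g k z b / dm g k z b c) (br g k z b c / dp g k z b c)
      (c * bi g k z b / dp g k z b c) U0 U1 V0 V1 := rfl

lemma sum_eq (g k z b c s γ σ q1 w1 q2 w2 U0 U1 V0 V1 uu uv vv C1 C2 : ℝ) (hb : b = s * γ)
    (hc : c = s * σ) :
    (g * (U0 + V0) ^ 2 + 2 * k * s * (U0 + V0) * ((γ * U0 + σ * U1) - (γ * V0 + σ * V1))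
      + z * s ^ 2 * ((γ * U0 + σ * U1) - (γ * V0 + σ * V1)) ^ 2
      + k * ((U0 ^ 2 + U1 ^ 2 + uu) - (U0 * V0 + U1 * V1 + uv)
        - ((U0 * V0 + U1 * V1 + uv) - (V0 ^ 2 + V1 ^ 2 + vv))))
      + (q1 * (U0 ^ 2 - U1 ^ 2) - 2 * (σ * (s * w1)) * U0 * U1 + C1 * uu)
      + (q2 * (V0 ^ 2 - V1 ^ 2) - 2 * (σ * (s * w2)) * V0 * V1 + C2 * vv)
    = plq g k z b c q1 (c * w1) q2 (c * w2) U0 U1 V0 V1
      + ((k + C1) * uu - 2 * k * uv + (k + C2) * vv) := by
  subst hb hc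
  unfold plq
  ring

/-- out of plane bound -/
lemma outO {g k z b c s : ℝ} (h : Rad2 g k z (b ^ 2 + c ^ 2)) (hs : 0 < s)
    (hs2 : s ^ 2 = b ^ 2 + c ^ 2) {p1 t1 p2 t2 ε : ℝ} (hp1 : 0 ≤ p1) (ht1 : 0 ≤ t1) (hp2 : 0 ≤ p2)
    (ht2 : 0 ≤ t2) (hε : 0 ≤ ε) (h1 : t1 * g ≤ (1 + ε) * p1) (h2 : t2 * g ≤ (1 + ε) * p2)
    (hε2 : 8 * k ^ 2 * s * ε * (m0 g k z b c ^ 2
      + (k ^ 2 * (dp g k z b c * dm g k z b c) + DL g k z b s)) ≤ m0 g k z b c * DL g k z b s / 2)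
    (hD1 : 0 < D1 k b c p1 t1) (hD2 : 0 < D1 k (-b) c p2 t2) (u v : ι → ℝ) :
    muO g k z b c s * (dd u u + dd v v)
      ≤ N1 g k z b c p1 t1 / (dm g k z b c * D1 k b c p1 t1) * dd u u - 2 * k * dd u v
          + N1 g k z (-b) c p2 t2 / (dp g k z b c * D1 k (-b) c p2 t2) * dd v v := by
  obtain ⟨n1, n2, n3⟩ := prod_ge h hs hs2 hp1 ht1 hp2 ht2 hε h1 h2 hε2 hD1 hD2
  have u1 := up h hs hs2 hp1 ht1
  have u2 := up (neg_rad h) hs (by rw [neg_sq]; exact hs2) hp2 ht2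
  have hMM : MM g k z (-b) c s = MM g k z b c s := by unfold MM; rw [m0_neg]
  rw [hMM] at u2
  have hM := MM_pos h hs hs2
  have hDL := DL_pos h hs hs2
  obtain ⟨hdm, hdp⟩ := h.dpos
  have hSd : dp g k z b c + dm g k z b c = 2 * Sg g k z b c := by unfold dp dm; ring
  have hS := h.Sg_pos
  unfold muO
  generalize N1 g k z b c p1 t1 = n at *
  generalize N1 g k z (-b) c p2 t2 = n' at *
  generalize D1 k b c p1 t1 = d at *
  generalize D1 k (-b) c p2 t2 = d' at *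
  generalize MM g k z b c s = M at *
  generalize DL g k z b s = L at *
  generalize Sg g k z b c = S at *
  generalize dm g k z b c = x at *
  generalize dp g k z b c = y at *
  have hO := out_low (A := n / (x * d)) (B := n' / (y * d')) (k := k)
    (δ := L / (2 * (y * x))) (a := M / x) (b := M / y)
    (by positivity) (by positivity) (by positivity)
    (by
      rw [div_mul_div_comm, le_div_iff₀ (by positivity)]
      refine le_trans (le_of_eq ?_) n3
      field_simp)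
    (by
      rw [div_le_div_iff₀ (by positivity) hdm]
      nlinarith [mul_le_mul_of_nonneg_left u1 hdm.le])
    (by
      rw [div_le_div_iff₀ (by positivity) hdp]
      nlinarith [mul_le_mul_of_nonneg_left u2 hdp.le]) u v
  have hmu : L / (2 * (y * x)) / (M / x + M / y) = L / (4 * M * S) := by
    have : M / x + M / y = M * (2 * S) / (y * x) := by
      rw [← hSd]; field_simp
    rw [this]; field_simp; ring
  rw [hmu] at hO
  exact hO

/-- **Strict certificate, exact profile values**, units `e^{2a} = 1`. -/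
theorem vec_low {g k z b c s : ℝ} (h : Rad2 g k z (b ^ 2 + c ^ 2)) (hs : 0 < s)
    (hs2 : s ^ 2 = b ^ 2 + c ^ 2) {e h' : ι → ℝ} (he : dd e e = 1) (hh : dd h' h' = 1)
    (hb : b = s * dd e h') {p1 t1 p2 t2 ε : ℝ} (hp1 : 0 ≤ p1) (ht1 : 0 ≤ t1) (hp2 : 0 ≤ p2)
    (ht2 : 0 ≤ t2) (hε : 0 ≤ ε) (h1 : t1 * g ≤ (1 + ε) * p1) (h2 : t2 * g ≤ (1 + ε) * p2)
    (hε2 : 8 * k ^ 2 * s * ε * (m0 g k z b c ^ 2
      + (k ^ 2 * (dp g k z b c * dm g k z b c) + DL g k z b s)) ≤ m0 g k z b c * DL g k z b s / 2)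
    (hD1 : 0 < D1 k b c p1 t1) (hD2 : 0 < D1 k (-b) c p2 t2) (U V : ι → ℝ) :
    min (muI g k z b c s) (muO g k z b c s) * (dd U U + dd V V) ≤ HH e h' g k z s U V
      + TT (lee e h' p1 (t1 * k * s) (ar g k z b c / dm g k z b c) (s * (ai g k z b / dm g k z b c)))
          (p1 • e + (t1 * k * s) • h') U
      + TT (lee e h' p2 (-(t2 * k * s)) (br g k z b c / dp g k z b c)
          (s * (bi g k z b / dp g k z b c))) (p2 • e + (-(t2 * k * s)) • h') V := by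
  have hs0 := hs.ne'
  have hcc : c ^ 2 = s ^ 2 * (1 - dd e h' ^ 2) := by rw [hb] at hs2; linarith
  obtain ⟨σ, hcσ⟩ : ∃ σ, c = s * σ := ⟨c / s, by field_simp⟩
  have hσ : σ ^ 2 = 1 - dd e h' ^ 2 := by
    have : s ^ 2 * σ ^ 2 = s ^ 2 * (1 - dd e h' ^ 2) := by rw [← hcc, hcσ]; ring
    exact mul_left_cancel₀ (pow_ne_zero 2 hs0) this
  obtain ⟨hdm, hdp⟩ := h.dpos
  obtain ⟨U1, V1, u, v, a1, a2, a3, a4, a5⟩ := split2 he hh hσ U V
  have E1 : p1 ^ 2 + (t1 * k * s) ^ 2 + 2 * dd e h' * p1 * (t1 * k * s) = D1 k b c p1 t1 := by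
    unfold D1; rw [hcc, hb]; ring
  have E2 : p2 ^ 2 + (-(t2 * k * s)) ^ 2 + 2 * dd e h' * p2 * (-(t2 * k * s))
      = D1 k (-b) c p2 t2 := by
    unfold D1; rw [hcc, hb]; ring
  have T1 := lee_TT (A := ar g k z b c / dm g k z b c) (B := s * (ai g k z b / dm g k z b c)) he hh
    (by rw [E1]; exact hD1.ne') hσ U rfl a1 a3
  have T2 := lee_TT (A := br g k z b c / dp g k z b c) (B := s * (bi g k z b / dp g k z b c)) he hh
    (by rw [E2]; exact hD2.ne') hσ V rfl a2 a4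
  have hP := pl_low h hs hs2 (dd e U) U1 (dd e V) V1
  have hO := outO h hs hs2 hp1 ht1 hp2 ht2 hε h1 h2 hε2 hD1 hD2 u v
  have c1 := cw1 (z := z) (p := p1) (t := t1) hb hcc hdm hD1
  have c2 := cw2 (z := z) (p := p2) (t := t2) hb hcc hdp hD2
  rw [mul_div_assoc] at c1 c2
  rw [← c1, ← c2] at hO
  rw [T1, T2]
  rw [pl_plq, mul_div_assoc, mul_div_assoc] at hP
  have hH : HH e h' g k z s U V = g * (dd e U + dd e V) ^ 2 + 2 * k * s * (dd e U + dd e V)
        * ((dd e h' * dd e U + σ * U1) - (dd e h' * dd e V + σ * V1))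
      + z * s ^ 2 * ((dd e h' * dd e U + σ * U1) - (dd e h' * dd e V + σ * V1)) ^ 2
      + k * ((dd e U ^ 2 + U1 ^ 2 + dd u u) - (dd e U * dd e V + U1 * V1 + dd u v)
        - ((dd e U * dd e V + U1 * V1 + dd u v) - (dd e V ^ 2 + V1 ^ 2 + dd v v))) := by
    unfold HH
    simp only [dd_sub_right, dd_sub_left, dd_comm V U]
    rw [a1, a2, a3, a4, a5]
  rw [hH, a3, a4]
  have hsum := sum_eq g k z b c s (dd e h') σ (ar g k z b c / dm g k z b c)
    (ai g k z b / dm g k z b c) (br g k z b c / dp g k z b c) (bi g k z b / dp g k z b c)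
    (dd e U) U1 (dd e V) V1 (dd u u) (dd u v) (dd v v)
    (cw (dd e h') p1 (t1 * k * s) (ar g k z b c / dm g k z b c) (s * (ai g k z b / dm g k z b c)))
    (cw (dd e h') p2 (-(t2 * k * s)) (br g k z b c / dp g k z b c)
      (s * (bi g k z b / dp g k z b c))) hb hcσ
  rw [hsum]
  have m1 : min (muI g k z b c s) (muO g k z b c s) ≤ muI g k z b c s := min_le_left _ _
  have m2 : min (muI g k z b c s) (muO g k z b c s) ≤ muO g k z b c s := min_le_right _ _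
  have r1 : 0 ≤ dd e U ^ 2 + U1 ^ 2 + (dd e V ^ 2 + V1 ^ 2) := by positivity
  have r2 : 0 ≤ dd u u + dd v v := add_nonneg (dd_self_nonneg _) (dd_self_nonneg _)
  have r3 := mul_le_mul_of_nonneg_right m1 r1
  have r4 := mul_le_mul_of_nonneg_right m2 r2
  have r5 := add_le_add (r3.trans hP) (r4.trans hO)
  refine le_trans (le_of_eq ?_) r5
  ring

end Vale.Agent.P088.R2.H942.Iso.Near
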