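import Vale.Agent.P088.R2.H942.Near1

/-!
# P088, stage 3: the profile `F = (cosh (θ s) - 1) / θ^2`

Hyperbolic inequalities (`sinh x <= x cosh x`, `x^3 cosh x <= sinh^3 x`) and the structure `Rad2`.
-/

noncomputable section

namespace Vale.Agent.P088.R2.H942.Iso.Near

open Real Set

lemma nonneg_of_hasDerivAt {f f' : ℝ → ℝ} (hf : ∀ x, HasDerivAt f (f' x) x) (h0 : 0 ≤ f 0)
    (hf' : ∀ x, 0 ≤ x → 0 ≤ f' x) {x : ℝ} (hx : 0 ≤ x) : 0 ≤ f x := by
  have hm : MonotoneOn f (Ici 0) := by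
    apply monotoneOn_of_deriv_nonneg (convex_Ici 0)
    · exact fun y _ => (hf y).continuousAt.continuousWithinAt
    · exact fun y _ => (hf y).differentiableAt.differentiableWithinAt
    · intro y hy
      rw [interior_Ici] at hy
      rw [(hf y).deriv]
      exact hf' y (le_of_lt hy)
  exact h0.trans (hm (mem_Ici.2 le_rfl) (mem_Ici.2 hx) hx)

lemma sinh_le_mul_cosh {x : ℝ} (hx : 0 ≤ x) : sinh x ≤ x * cosh x := by
  have h : 0 ≤ x * cosh x - sinh x := by
    apply nonneg_of_hasDerivAt (f := fun x => x * cosh x - sinh x) (f' := fun x => x * sinh x)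
    · intro y
      have := ((hasDerivAt_id y).mul (hasDerivAt_cosh y)).sub (hasDerivAt_sinh y)
      refine HasDerivAt.congr_deriv this ?_
      simp only [id]
      ring
    · simp
    · intro y hy
      exact mul_nonneg hy (sinh_nonneg_iff.2 hy)
    · exact hx
  linarith

lemma laz3 (x : ℝ) : 0 ≤ 4 * (cosh x ^ 2 + sinh x ^ 2)
    + 2 * (cosh x ^ 2 - 3 * sinh x ^ 2) / cosh x ^ 4 - 6 := by
  have hc := cosh_pos x
  have hs : sinh x ^ 2 = cosh x ^ 2 - 1 := by
    have := cosh_sq x; linarith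
  have hc1 : 1 ≤ cosh x := one_le_cosh x
  have e : 4 * (cosh x ^ 2 + sinh x ^ 2)
      + 2 * (cosh x ^ 2 - 3 * sinh x ^ 2) / cosh x ^ 4 - 6
      = (cosh x ^ 2 - 1) ^ 2 * (8 * cosh x ^ 2 + 6) / cosh x ^ 4 := by
    rw [hs]; field_simp; ring
  rw [e]; positivity

lemma laz2 {x : ℝ} (hx : 0 ≤ x) : 0 ≤ 4 * (sinh x * cosh x) + 2 * (sinh x / cosh x ^ 3) - 6 * x := by
  apply nonneg_of_hasDerivAt
    (f := fun x => 4 * (sinh x * cosh x) + 2 * (sinh x / cosh x ^ 3) - 6 * x)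
    (f' := fun x => 4 * (cosh x ^ 2 + sinh x ^ 2)
      + 2 * (cosh x ^ 2 - 3 * sinh x ^ 2) / cosh x ^ 4 - 6) _ _ (fun y _ => laz3 y) hx
  · intro y
    have hc := (cosh_pos y).ne'
    have h1 := ((hasDerivAt_sinh y).mul (hasDerivAt_cosh y)).const_mul 4
    have h2 := ((hasDerivAt_sinh y).div ((hasDerivAt_cosh y).pow 3) (pow_ne_zero 3 hc)).const_mul 2
    have h3 := (hasDerivAt_id y).const_mul 6
    have := (h1.add h2).sub h3
    refine HasDerivAt.congr_deriv this ?_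
    simp only [Pi.pow_apply, Nat.cast_ofNat, Nat.add_one_sub_one, mul_one]
    field_simp
  · simp

lemma laz1 {x : ℝ} (hx : 0 ≤ x) :
    0 ≤ 2 * sinh x ^ 2 + sinh x ^ 2 / cosh x ^ 2 - 3 * x ^ 2 := by
  apply nonneg_of_hasDerivAt
    (f := fun x => 2 * sinh x ^ 2 + sinh x ^ 2 / cosh x ^ 2 - 3 * x ^ 2)
    (f' := fun x => 4 * (sinh x * cosh x) + 2 * (sinh x / cosh x ^ 3) - 6 * x) _ _
    (fun y hy => laz2 hy) hx
  · intro y
    have hc := (cosh_pos y).ne'
    have hs : cosh y ^ 2 = sinh y ^ 2 + 1 := cosh_sq y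
    have h1 := ((hasDerivAt_sinh y).pow 2).const_mul 2
    have h2 := ((hasDerivAt_sinh y).pow 2).div ((hasDerivAt_cosh y).pow 2) (pow_ne_zero 2 hc)
    have h3 := ((hasDerivAt_id y).pow 2).const_mul 3
    have := (h1.add h2).sub h3
    refine HasDerivAt.congr_deriv this ?_
    simp only [Pi.pow_apply, Nat.cast_ofNat, Nat.add_one_sub_one, mul_one, pow_one, id]
    have e : (2 * sinh y * cosh y * cosh y ^ 2 - sinh y ^ 2 * (2 * cosh y * sinh y))
        / (cosh y ^ 2) ^ 2 = 2 * (sinh y / cosh y ^ 3) := by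
      have : 2 * sinh y * cosh y * cosh y ^ 2 - sinh y ^ 2 * (2 * cosh y * sinh y)
          = 2 * sinh y * cosh y := by rw [hs]; ring
      rw [this]; field_simp
    rw [e]; ring
  · simp

/-- Lazarevic's inequality. -/
lemma lazarevic {x : ℝ} (hx : 0 ≤ x) : x ^ 3 * cosh x ≤ sinh x ^ 3 := by
  have h : 0 ≤ sinh x ^ 3 / cosh x - x ^ 3 := by
    apply nonneg_of_hasDerivAt (f := fun x => sinh x ^ 3 / cosh x - x ^ 3)
      (f' := fun x => 2 * sinh x ^ 2 + sinh x ^ 2 / cosh x ^ 2 - 3 * x ^ 2) _ _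
      (fun y hy => laz1 hy) hx
    · intro y
      have hc := (cosh_pos y).ne'
      have hs : cosh y ^ 2 = sinh y ^ 2 + 1 := cosh_sq y
      have h2 := ((hasDerivAt_sinh y).pow 3).div (hasDerivAt_cosh y) hc
      have h3 := ((hasDerivAt_id y).pow 3)
      have := h2.sub h3
      refine HasDerivAt.congr_deriv this ?_
      simp only [Pi.pow_apply, Nat.cast_ofNat, Nat.add_one_sub_one, mul_one, id]
      have e : (3 * sinh y ^ 2 * cosh y * cosh y - sinh y ^ 3 * sinh y) / cosh y ^ 2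
          = 2 * sinh y ^ 2 + sinh y ^ 2 / cosh y ^ 2 := by
        field_simp
        rw [hs]; ring
      rw [e]
    · simp
  have hc := cosh_pos x
  have h2 : x ^ 3 ≤ sinh x ^ 3 / cosh x := by linarith
  rwa [le_div_iff₀ hc] at h2

/-- `F`, `F'/s` and `(F'' - F'/s)/s^2` of the profile. -/
def gp (θ s : ℝ) : ℝ := (cosh (θ * s) - 1) / θ ^ 2
def kp (θ s : ℝ) : ℝ := sinh (θ * s) / (θ * s)
def zp (θ s : ℝ) : ℝ := (cosh (θ * s) - kp θ s) / s ^ 2

lemma kp_add {θ s : ℝ} (hs : 0 < s) : kp θ s + zp θ s * s ^ 2 = cosh (θ * s) := by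
  unfold zp; field_simp; ring

theorem rad2_cosh {θ s : ℝ} (hθ : 0 < θ) (hθ2 : 1 / 2 ≤ θ ^ 2) (hs : 0 < s) :
    Rad2 (gp θ s) (kp θ s) (zp θ s) (s ^ 2) := by
  have hx : 0 < θ * s := mul_pos hθ hs
  have hF := kp_add (θ := θ) hs
  have hc1 : 1 < cosh (θ * s) := one_lt_cosh.2 hx.ne'
  have hk1 : 1 < kp θ s := by
    unfold kp; rw [one_lt_div hx]; exact self_lt_sinh_iff.2 hx
  have hg : 0 < gp θ s := by
    unfold gp; apply div_pos (by linarith) (by positivity)
  have hz : 0 ≤ zp θ s := by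
    unfold zp
    apply div_nonneg _ (by positivity)
    have : kp θ s ≤ cosh (θ * s) := by
      unfold kp; rw [div_le_iff₀ hx]
      linarith [sinh_le_mul_cosh hx.le]
    linarith
  have hcube : cosh (θ * s) ≤ kp θ s ^ 3 := by
    unfold kp; rw [div_pow, le_div_iff₀ (by positivity)]
    linarith [lazarevic hx.le]
  have hgl : gp θ s ≤ 2 * (cosh (θ * s) - 1) := by
    unfold gp; rw [div_le_iff₀ (by positivity)]
    nlinarith
  have hrel : kp θ s ^ 2 * s ^ 2 = gp θ s * (1 + cosh (θ * s)) := by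
    unfold kp gp
    have : sinh (θ * s) ^ 2 = (cosh (θ * s) - 1) * (1 + cosh (θ * s)) := by
      have := cosh_sq (θ * s); nlinarith
    rw [div_pow, this]; field_simp
  have hc2 : gp θ s < kp θ s * cosh (θ * s) := by
    refine lt_of_le_of_lt hgl ?_
    generalize kp θ s = k at *
    generalize cosh (θ * s) = F at *
    rcases le_or_gt 2 k with h | h
    · nlinarith
    · have h1 : F * (2 - k) ≤ k ^ 3 * (2 - k) := mul_le_mul_of_nonneg_right hcube (by linarith)
      have h2 : k ^ 3 * (2 - k) < 2 := by nlinarith [sq_nonneg (k * (k - 3 / 2)), sq_nonneg (k - 3 / 2), sq_nonneg (k^2 - 9/4)]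
      linarith
  exact { g_pos := hg, k_ge := hk1.le, z_nonneg := hz, s2_pos := by positivity,
          rel := by rw [hF]; exact hrel, c2 := by rw [hF]; exact hc2, cube := by rw [hF]; exact hcube,
          k_gt := hk1, g_le := by rw [hF]; exact hgl }

end Vale.Agent.P088.R2.H942.Iso.Near
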