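import Vale.Agent.P088.R2.H942.Near3
import Vale.Agent.P088.R2.H942.RadCosh

/-!
# P088, stage 3: the certificate between the diagonal and the far zone, uniform form

Same format as `H230.W.far_cert2`; cosh profile, `s` in `[c0, r1]`, two independent slopes,
tolerance `ε` in all profile data, strict margin `μ`.
-/

noncomputable section

namespace Vale.Agent.P088.R2.H942.Iso.Near

set_option linter.unusedSectionVars false

open Vale.Agent.P088.R2.H230.W (dd dd_comm dd_add_left dd_add_right dd_sub_left dd_sub_right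
  dd_smul_left dd_smul_right dd_self_nonneg dd_cs TT Hm)
open Set

variable {ι : Type*} [Fintype ι]

lemma lee_smul (e h : ι → ℝ) (v l A B r : ℝ) :
    lee e h v l (r * A) (r * B) = r • lee e h v l A B := by
  unfold lee
  ext i
  simp only [Pi.smul_apply, Pi.add_apply, smul_eq_mul]
  ring

lemma TT_smul_left (r : ℝ) (c w U : ι → ℝ) : TT (r • c) w U = r * TT c w U := by
  unfold TT
  simp only [dd_smul_left]
  ring

lemma HH_eq {g k z s : ℝ} (hg : 0 < g) (hrel : k ^ 2 * s ^ 2 = g * (1 + (k + z * s ^ 2)))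
    (e h : ι → ℝ) (U V : ι → ℝ) :
    HH e h g k z s U V = 4 * g * Hm e h (k * s / (2 * g)) (k / (4 * g)) (1 / (4 * g)) U V := by
  unfold HH Hm
  rw [dd_comm U e, dd_comm V e]
  generalize dd e U = u
  generalize dd e V = v
  generalize dd h (U - V) = t
  generalize dd (U - V) (U - V) = q
  have h1 := hg.ne'
  field_simp
  linear_combination (-4 * t ^ 2) * hrel

/-- The two Lee fields. -/
def nf1 (θ s : ℝ) (e h : ι → ℝ) (ν l : ℝ) : ι → ℝ :=
  lee e h ν l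
    ((4 * gp θ s)⁻¹ * (ar (gp θ s) (kp θ s) (zp θ s) (s * dd e h) (s * √(1 - dd e h ^ 2))
      / dm (gp θ s) (kp θ s) (zp θ s) (s * dd e h) (s * √(1 - dd e h ^ 2))))
    ((4 * gp θ s)⁻¹ * (s * (ai (gp θ s) (kp θ s) (zp θ s) (s * dd e h)
      / dm (gp θ s) (kp θ s) (zp θ s) (s * dd e h) (s * √(1 - dd e h ^ 2)))))

def nf2 (θ s : ℝ) (e h : ι → ℝ) (ν l : ℝ) : ι → ℝ :=
  lee e h ν (-l)
    ((4 * gp θ s)⁻¹ * (br (gp θ s) (kp θ s) (zp θ s) (s * dd e h) (s * √(1 - dd e h ^ 2))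
      / dp (gp θ s) (kp θ s) (zp θ s) (s * dd e h) (s * √(1 - dd e h ^ 2))))
    ((4 * gp θ s)⁻¹ * (s * (bi (gp θ s) (kp θ s) (zp θ s) (s * dd e h)
      / dp (gp θ s) (kp θ s) (zp θ s) (s * dd e h) (s * √(1 - dd e h ^ 2)))))

/-- the coefficient `L = χ'/χ` (units `S = e^{p_n} χ(r)`, `r = 2 s`) -/
def Lp (θ s : ℝ) : ℝ := kp θ s * s / (2 * gp θ s)

section

variable (θ s γ : ℝ)

def qb : ℝ := s * γ
def qc : ℝ := s * √(1 - γ ^ 2)
/-- abbreviations on the compact set of `(s, γ)` -/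
def xm0 : ℝ := m0 (gp θ s) (kp θ s) (zp θ s) (s * γ) (s * √(1 - γ ^ 2))
def xdp : ℝ := dp (gp θ s) (kp θ s) (zp θ s) (s * γ) (s * √(1 - γ ^ 2))
def xdm : ℝ := dm (gp θ s) (kp θ s) (zp θ s) (s * γ) (s * √(1 - γ ^ 2))
def xSg : ℝ := Sg (gp θ s) (kp θ s) (zp θ s) (s * γ) (s * √(1 - γ ^ 2))
def xDL : ℝ := DL (gp θ s) (kp θ s) (zp θ s) (s * γ) s
def xMM : ℝ := MM (gp θ s) (kp θ s) (zp θ s) (s * γ) (s * √(1 - γ ^ 2)) s

end

variable {θ c0 r1 : ℝ}

lemma sq_bc {s γ : ℝ} (hγ : γ ∈ Icc (-1 : ℝ) 1) :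
    s ^ 2 = (s * γ) ^ 2 + (s * √(1 - γ ^ 2)) ^ 2 := by
  have h1 : 0 ≤ 1 - γ ^ 2 := by nlinarith [hγ.1, hγ.2]
  rw [mul_pow, mul_pow, Real.sq_sqrt h1]; ring

section cont

variable {X : Type*} [TopologicalSpace X] {K : Set X} {g k z b c s : X → ℝ}
  (hg : ContinuousOn g K) (hk : ContinuousOn k K) (hz : ContinuousOn z K)
  (hb : ContinuousOn b K) (hc : ContinuousOn c K) (hs : ContinuousOn s K)

include hg hk hz hb hc in
lemma cSg : ContinuousOn (fun x => Sg (g x) (k x) (z x) (b x) (c x)) K := by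
  unfold Sg; fun_prop
include hg hk hz hb hc in
lemma cdp : ContinuousOn (fun x => dp (g x) (k x) (z x) (b x) (c x)) K := by
  unfold dp Sg; fun_prop
include hg hk hz hb hc in
lemma cdm : ContinuousOn (fun x => dm (g x) (k x) (z x) (b x) (c x)) K := by
  unfold dm Sg; fun_prop
include hg hk hz hb hc in
lemma cm0 : ContinuousOn (fun x => m0 (g x) (k x) (z x) (b x) (c x)) K := by
  unfold m0 Sg; fun_prop
include hg hk hz hb hc in
lemma car : ContinuousOn (fun x => ar (g x) (k x) (z x) (b x) (c x)) K := by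
  unfold ar De; fun_prop
include hg hk hz hb hc in
lemma cbr : ContinuousOn (fun x => br (g x) (k x) (z x) (b x) (c x)) K := by
  unfold br De; fun_prop
include hg hk hz hb in
lemma cai : ContinuousOn (fun x => ai (g x) (k x) (z x) (b x)) K := by
  unfold ai; fun_prop
include hg hk hz hb in
lemma cbi : ContinuousOn (fun x => bi (g x) (k x) (z x) (b x)) K := by
  unfold bi; fun_prop
include hg hk hz hb hc hs in
lemma cMM : ContinuousOn (fun x => MM (g x) (k x) (z x) (b x) (c x) (s x)) K := by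
  unfold MM m0 Sg; fun_prop
include hg hk hz hb hs in
lemma cDL (h0 : ∀ x ∈ K, s x ≠ 0) : ContinuousOn (fun x => DL (g x) (k x) (z x) (b x) (s x)) K := by
  have h1 : ContinuousOn (fun x => |b x| / s x) K := hb.abs.div hs h0
  unfold DL Qf
  fun_prop

lemma exists_lb (hK : IsCompact K) {f : X → ℝ} (hf : ContinuousOn f K) (h : ∀ x ∈ K, 0 < f x) :
    ∃ μ > 0, ∀ x ∈ K, μ ≤ f x := by
  rcases K.eq_empty_or_nonempty with h0 | h0
  · exact ⟨1, one_pos, by simp [h0]⟩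
  · obtain ⟨x, hx, hm⟩ := hK.exists_isMinOn h0 hf
    exact ⟨f x, h x hx, fun y hy => hm hy⟩

lemma exists_ub (hK : IsCompact K) {f : X → ℝ} (hf : ContinuousOn f K) :
    ∃ C > 0, ∀ x ∈ K, f x ≤ C := by
  rcases K.eq_empty_or_nonempty with h0 | h0
  · exact ⟨1, one_pos, by simp [h0]⟩
  · obtain ⟨x, hx, hm⟩ := hK.exists_isMaxOn h0 hf
    exact ⟨|f x| + 1, by positivity, fun y hy => (hm hy).trans (by linarith [le_abs_self (f x)])⟩

end cont

lemma perturb_fin {N a d t q k k' m m' ε μ T L : ℝ} (hN : 0 ≤ N) (hε : 0 ≤ ε)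
    (hk : k - ε ≤ k') (hm : m' ≤ m + ε) (hμ : ε * (4 + 4 * L) ≤ μ / 2)
    (b3 : |a * d| ≤ 2 * ((1 / 2 + L) * ε) * N) (t1 : t ^ 2 ≤ q) (t2 : q ≤ 2 * N)
    (hb : μ * N ≤ a ^ 2 + k * (q - t ^ 2) - m * t ^ 2 + T) :
    μ / 2 * N ≤ (a + d) ^ 2 + k' * (q - t ^ 2) - m' * t ^ 2 + T := by
  have t3 := mul_nonneg (sub_nonneg.2 hk) (sub_nonneg.2 t1)
  have t4 := mul_nonneg (sub_nonneg.2 hm) (sq_nonneg t)
  have t5 := mul_le_mul_of_nonneg_left t2 hε
  have t6 := mul_le_mul_of_nonneg_right hμ hN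
  have b5 := (abs_le.1 b3).1
  have e : (a + d) ^ 2 + k' * (q - t ^ 2) - m' * t ^ 2 + T
      = (a ^ 2 + k * (q - t ^ 2) - m * t ^ 2 + T) + d ^ 2 + 2 * (a * d)
        + (k' - (k - ε)) * (q - t ^ 2) + (m + ε - m') * t ^ 2 - ε * q := by ring
  rw [e]
  have : μ / 2 * N = μ * N - μ / 2 * N := by ring
  rw [this]
  have t7 : ε * (4 + 4 * L) * N = 2 * (2 * ((1 / 2 + L) * ε) * N) + ε * (2 * N) := by ring
  rw [t7] at t6
  linarith [sq_nonneg d]

/-- perturbation of the profile data -/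
lemma perturb {e h φx φy : ι → ℝ} (he : dd e e = 1) (hh : dd h h = 1) {L k m k' m' ε μ T : ℝ}
    (hL : 0 ≤ L) (hε : 0 ≤ ε)
    (hx : dd (φx - ((1 / 2 : ℝ) • e + L • h)) (φx - ((1 / 2 : ℝ) • e + L • h)) ≤ ε ^ 2)
    (hy : dd (φy - ((1 / 2 : ℝ) • e - L • h)) (φy - ((1 / 2 : ℝ) • e - L • h)) ≤ ε ^ 2)
    (hk : k - ε ≤ k') (hm : m' ≤ m + ε) (hμ : ε * (4 + 4 * L) ≤ μ / 2) (U V : ι → ℝ)
    (hbase : μ * (dd U U + dd V V) ≤ Hm e h L k m U V + T) :
    μ / 2 * (dd U U + dd V V) ≤ (dd φx U + dd φy V) ^ 2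
      + k' * (dd (U - V) (U - V) - dd h (U - V) ^ 2) - m' * dd h (U - V) ^ 2 + T := by
  have hU := dd_self_nonneg U
  have hV := dd_self_nonneg V
  -- vectors
  have eh : |dd e h| ≤ 1 := by
    have := dd_cs e h; rw [he, hh] at this
    exact abs_le_of_sq_le_sq (by linarith) (by norm_num)
  set a := 1 / 2 * (dd U e + dd V e) + L * dd h (U - V) with ha
  set d := dd φx U + dd φy V - a with hd
  have ea : a = dd ((1 / 2 : ℝ) • e + L • h) U + dd ((1 / 2 : ℝ) • e - L • h) V := by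
    rw [ha]
    simp only [dd_add_left, dd_sub_left, dd_smul_left, dd_sub_right, dd_comm U e, dd_comm V e]
    ring
  have ed : d = dd (φx - ((1 / 2 : ℝ) • e + L • h)) U + dd (φy - ((1 / 2 : ℝ) • e - L • h)) V := by
    rw [hd, ea]
    simp only [dd_sub_left]
    ring
  have n1 : dd ((1 / 2 : ℝ) • e + L • h) ((1 / 2 : ℝ) • e + L • h) ≤ (1 / 2 + L) ^ 2 := by
    simp only [dd_add_left, dd_add_right, dd_smul_left, dd_smul_right, he, hh, dd_comm h e]
    nlinarith [mul_le_mul_of_nonneg_left (abs_le.1 eh).2 hL]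
  have n2 : dd ((1 / 2 : ℝ) • e - L • h) ((1 / 2 : ℝ) • e - L • h) ≤ (1 / 2 + L) ^ 2 := by
    simp only [dd_sub_left, dd_sub_right, dd_smul_left, dd_smul_right, he, hh, dd_comm h e]
    nlinarith [mul_le_mul_of_nonneg_left (abs_le.1 eh).1 hL]
  have gen : ∀ {p q : ι → ℝ} {r : ℝ}, dd p p ≤ r ^ 2 → dd q q ≤ r ^ 2 →
      (dd p U + dd q V) ^ 2 ≤ 2 * r ^ 2 * (dd U U + dd V V) := by
    intro p q r hp hq
    have h1 := dd_cs p U
    have h2 := dd_cs q V
    have h3 := mul_le_mul_of_nonneg_right hp hU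
    have h4 := mul_le_mul_of_nonneg_right hq hV
    nlinarith [sq_nonneg (dd p U - dd q V)]
  have b1 : a ^ 2 ≤ 2 * (1 / 2 + L) ^ 2 * (dd U U + dd V V) := by rw [ea]; exact gen n1 n2
  have b2 : d ^ 2 ≤ 2 * ε ^ 2 * (dd U U + dd V V) := by rw [ed]; exact gen hx hy
  have b3 : |a * d| ≤ 2 * ((1 / 2 + L) * ε) * (dd U U + dd V V) := by
    apply abs_le_of_sq_le_sq _ (by positivity)
    have := mul_le_mul b1 b2 (sq_nonneg _) (by positivity)
    calc (a * d) ^ 2 = a ^ 2 * d ^ 2 := by ring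
      _ ≤ _ := this
      _ = _ := by ring
  have t1 : dd h (U - V) ^ 2 ≤ dd (U - V) (U - V) := by
    have := dd_cs h (U - V); rw [hh, one_mul] at this; exact this
  have t2 : dd (U - V) (U - V) ≤ 2 * (dd U U + dd V V) := by
    have := dd_self_nonneg (U + V)
    simp only [dd_add_left, dd_add_right, dd_sub_left, dd_sub_right, dd_comm V U] at this ⊢
    linarith
  have b5 : dd φx U + dd φy V = a + d := by rw [hd]; ring
  rw [b5]
  exact perturb_fin (add_nonneg hU hV) hε hk hm hμ b3 t1 t2 hbase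

end Vale.Agent.P088.R2.H942.Iso.Near
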