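import Vale.Agent.P088.R2.H942.Near6

/-!
# P088, stage 3: the near fields in explicit form

`c_1 = ((4 g k (p + 2 t k b) + t k s^2 a) e + (p a - 4 g k^2 t) q) / (dm |w|^2)`,
`w = p e + t k q`, `q = s h`, `b = q.e`, `a = 4 k^2 (1 - b) + 4 g z b`, and the same for `c_2` with
`-q`.
-/

noncomputable section

namespace Vale.Agent.P088.R2.H942.Iso.Near

set_option linter.unusedSectionVars false

open Vale.Agent.P088.R2.H230.W (dd dd_comm dd_add_left dd_add_right dd_sub_left dd_sub_right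
  dd_smul_left dd_smul_right dd_self_nonneg dd_cs TT Hm)
open Set

variable {ι : Type*} [Fintype ι]

/-- `a = 4 k^2 (1 - b) + 4 g z b` -/
def aa (g k z b : ℝ) : ℝ := 4 * k ^ 2 * (1 - b) + 4 * g * z * b

lemma ai_eq (g k z b : ℝ) : ai g k z b = aa g k z b := by unfold ai aa; ring

lemma bi_eq (g k z b : ℝ) : bi g k z b = -aa g k z (-b) := by unfold bi aa; ring

lemma ar_eq (g k z b c : ℝ) : ar g k z b c = -4 * g * k - b * aa g k z b := by
  unfold ar aa De; ring

lemma br_eq (g k z b c : ℝ) : br g k z b c = -4 * g * k + b * aa g k z (-b) := by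
  unfold br aa De; ring

/-- coefficient of `e` in the numerator -/
def ce (g k z b s p t : ℝ) : ℝ := 4 * g * k * (p + 2 * t * k * b) + t * k * s ^ 2 * aa g k z b

/-- coefficient of `q` in the numerator -/
def cq (g k z b p t : ℝ) : ℝ := p * aa g k z b - 4 * g * k ^ 2 * t

/-- explicit field for the first point, `q = s h` -/
def cx (e q : ι → ℝ) (g k z b c s p t : ℝ) : ι → ℝ :=
  (dm g k z b c * (p ^ 2 + 2 * p * t * k * b + t ^ 2 * k ^ 2 * s ^ 2))⁻¹ •
    (ce g k z b s p t • e + cq g k z b p t • q)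

lemma lee1_eq {e h : ι → ℝ} {g k z b c s p t : ℝ} (hb : b = s * dd e h)
    (hdm : dm g k z b c ≠ 0) :
    lee e h p (t * k * s) (ar g k z b c / dm g k z b c) (s * (ai g k z b / dm g k z b c))
      = cx e (s • h) g k z b c s p t := by
  have e1 : p ^ 2 + (t * k * s) ^ 2 + 2 * dd e h * p * (t * k * s)
      = p ^ 2 + 2 * p * t * k * b + t ^ 2 * k ^ 2 * s ^ 2 := by rw [hb]; ring
  unfold lee cx
  rw [e1, ar_eq, ai_eq, mul_inv, mul_comm (dm g k z b c)⁻¹, mul_smul]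
  congr 1
  rw [smul_add, smul_smul, smul_smul, smul_smul]
  unfold ce cq
  generalize aa g k z b = a
  generalize dm g k z b c = d at *
  generalize dd e h = γ at *
  subst hb
  congr 2
  · field_simp
    ring
  · field_simp
    ring

lemma lee2_eq {e h : ι → ℝ} {g k z b c s p t : ℝ} (hb : b = s * dd e h)
    (hdp : dp g k z b c ≠ 0) :
    lee e h p (-(t * k * s)) (br g k z b c / dp g k z b c) (s * (bi g k z b / dp g k z b c))
      = cx e (-(s • h)) g k z (-b) c s p t := by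
  have e1 : p ^ 2 + (-(t * k * s)) ^ 2 + 2 * dd e h * p * (-(t * k * s))
      = p ^ 2 + 2 * p * t * k * (-b) + t ^ 2 * k ^ 2 * s ^ 2 := by rw [hb]; ring
  unfold lee cx
  rw [e1, br_eq, bi_eq, dm_neg, mul_inv, mul_comm (dp g k z b c)⁻¹, mul_smul]
  congr 1
  rw [smul_add, smul_neg, smul_smul, smul_smul, ← neg_smul, smul_smul]
  unfold ce cq
  generalize aa g k z (-b) = a
  generalize dp g k z b c = d at *
  generalize dd e h = γ at *
  subst hb
  congr 2
  · field_simp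
    ring
  · field_simp
    ring

/-- `nf1` in explicit form: for `l = t k s`. -/
lemma nf1_eq {θ s : ℝ} {e h : ι → ℝ} (ν t : ℝ)
    (hrad : Rad2 (gp θ s) (kp θ s) (zp θ s)
      ((s * dd e h) ^ 2 + (s * √(1 - dd e h ^ 2)) ^ 2)) :
    nf1 θ s e h ν (t * kp θ s * s) = (4 * gp θ s)⁻¹ •
      cx e (s • h) (gp θ s) (kp θ s) (zp θ s) (s * dd e h) (s * √(1 - dd e h ^ 2)) s ν t := by
  unfold nf1
  rw [lee_smul, lee1_eq rfl hrad.dpos.1.ne']

lemma nf2_eq {θ s : ℝ} {e h : ι → ℝ} (ν t : ℝ)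
    (hrad : Rad2 (gp θ s) (kp θ s) (zp θ s)
      ((s * dd e h) ^ 2 + (s * √(1 - dd e h ^ 2)) ^ 2)) :
    nf2 θ s e h ν (t * kp θ s * s) = (4 * gp θ s)⁻¹ •
      cx e (-(s • h)) (gp θ s) (kp θ s) (zp θ s) (-(s * dd e h)) (s * √(1 - dd e h ^ 2)) s ν t := by
  unfold nf2
  rw [lee_smul, lee2_eq rfl hrad.dpos.2.ne']

/-- `c_1 - e` times `dm |w|^2`. -/
def de1 (g k z b c s p t : ℝ) : ℝ :=
  4 * g * k * p + 8 * g * t * k ^ 2 * b
    - dm g k z b c * (p ^ 2 + 2 * p * t * k * b)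
    + t * k * s ^ 2 * (aa g k z b - t * k * dm g k z b c)

lemma cx_sub {e q : ι → ℝ} {g k z b c s p t : ℝ} (hdm : dm g k z b c ≠ 0)
    (hD : p ^ 2 + 2 * p * t * k * b + t ^ 2 * k ^ 2 * s ^ 2 ≠ 0) :
    cx e q g k z b c s p t = e +
      (dm g k z b c * (p ^ 2 + 2 * p * t * k * b + t ^ 2 * k ^ 2 * s ^ 2))⁻¹ •
        (de1 g k z b c s p t • e + cq g k z b p t • q) := by
  have e1 : ce g k z b s p t = dm g k z b c
      * (p ^ 2 + 2 * p * t * k * b + t ^ 2 * k ^ 2 * s ^ 2) + de1 g k z b c s p t := by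
    unfold ce de1; ring
  have h0 := mul_ne_zero hdm hD
  unfold cx
  rw [e1]
  generalize dm g k z b c * (p ^ 2 + 2 * p * t * k * b + t ^ 2 * k ^ 2 * s ^ 2) = X at *
  ext i
  simp only [Pi.smul_apply, Pi.add_apply, smul_eq_mul]
  field_simp
  ring

end Vale.Agent.P088.R2.H942.Iso.Near
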