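import Vale.Agent.P088.R2.H942.Near7

/-!
# P088, stage 3: the near certificate close to the diagonal (zone C, region II)

Small distances: quantitative out of plane margin `s^2 |q'|^2/ s^2`, quartic margin, the size of the
fields, and the additional field which distributes the normal convexity `K U_n^2`.
-/

noncomputable section

namespace Vale.Agent.P088.R2.H942.Iso.Near

set_option linter.unusedSectionVars false

open Vale.Agent.P088.R2.H230.W (dd dd_comm dd_add_left dd_add_right dd_sub_left dd_sub_right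
  dd_smul_left dd_smul_right dd_self_nonneg dd_cs TT Hm TT_abs_le)
open Set

/-- Profile data at small distance. -/
structure Small (g k z s : ℝ) : Prop where
  s_pos : 0 < s
  s_le : s ≤ 1 / 4
  rad : Rad2 g k z (s ^ 2)
  g_ge : s ^ 2 / 2 ≤ g
  g_le : g ≤ 9 / 16 * s ^ 2
  F_le : k + z * s ^ 2 ≤ 23 / 20
  k_ge : s ^ 2 / 12 ≤ k - 1

section

variable {g k z b c s : ℝ} (H : Small g k z s) (hs2 : s ^ 2 = b ^ 2 + c ^ 2)
include H hs2

lemma Small.rad' : Rad2 g k z (b ^ 2 + c ^ 2) := by rw [← hs2]; exact H.rad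

omit hs2 in
lemma Small.k_le : k ≤ 23 / 20 := by
  have h1 := H.F_le
  have h2 : 0 ≤ z * s ^ 2 := mul_nonneg H.rad.z_nonneg (sq_nonneg s)
  linarith

omit hs2 in
lemma Small.k_gt : 1 < k := H.rad.k_gt

omit hs2 in
lemma Small.g_sm : g ≤ 9 / 256 := by
  have h1 := H.g_le
  have h2 : s ^ 2 ≤ (1 / 4) ^ 2 := pow_le_pow_left₀ H.s_pos.le H.s_le 2
  linarith

lemma Small.abs_b : |b| ≤ s := abs_b_le (H.rad' hs2) H.s_pos hs2

lemma Small.gz_le : g * z ≤ k ^ 2 := by
  have := (H.rad' hs2).Kk_pos; linarith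

omit hs2 in
lemma Small.gz_nonneg : 0 ≤ g * z := mul_nonneg H.rad.g_pos.le H.rad.z_nonneg

lemma Small.Sg_le : Sg g k z b c ≤ 47 / 10 := by
  have h1 := H.F_le
  have h2 := H.k_le
  have h3 := H.g_sm
  unfold Sg; rw [← hs2]; linarith

lemma Small.Sg_ge : 4 ≤ Sg g k z b c := by
  have h1 := H.k_gt
  have h2 : 0 ≤ z * s ^ 2 := mul_nonneg H.rad.z_nonneg (sq_nonneg s)
  have h3 := H.rad.g_pos
  unfold Sg; rw [← hs2]; linarith

lemma Small.kb : 4 * k * |b| ≤ 23 / 20 := by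
  have h1 := H.k_le
  have h2 := H.abs_b hs2
  have h3 := H.s_le
  have h4 : 0 ≤ |b| := abs_nonneg b
  have h5 := H.k_gt
  nlinarith

lemma Small.dm_ge : 57 / 20 ≤ dm g k z b c := by
  have h1 := H.Sg_ge hs2
  have h2 := H.kb hs2
  have h3 : 4 * k * b ≤ 4 * k * |b| :=
    mul_le_mul_of_nonneg_left (le_abs_self b) (by linarith [H.k_gt])
  unfold dm; linarith

lemma Small.dm_le : dm g k z b c ≤ 6 := by
  have h1 := H.Sg_le hs2
  have h2 := H.kb hs2
  have h3 : 4 * k * (-b) ≤ 4 * k * |b| :=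
    mul_le_mul_of_nonneg_left (neg_le_abs b) (by linarith [H.k_gt])
  unfold dm; linarith

lemma Small.dp_ge : 57 / 20 ≤ dp g k z b c := by
  have h := Small.dm_ge (b := -b) (c := c) H (by rw [neg_sq]; exact hs2)
  rwa [dm_neg] at h

lemma Small.dp_le : dp g k z b c ≤ 6 := by
  have h := Small.dm_le (b := -b) (c := c) H (by rw [neg_sq]; exact hs2)
  rwa [dm_neg] at h

lemma Small.aa_abs : |aa g k z b| ≤ 8 := by
  have h1 := H.gz_le hs2
  have h2 := H.gz_nonneg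
  have h3 := H.abs_b hs2
  have h4 := H.s_le
  have h5 := H.k_le
  have h6 := H.k_gt
  have h7 : k ^ 2 ≤ 529 / 400 := by nlinarith
  have h8 : |b| ≤ 1 / 4 := by linarith
  have h9 := abs_le.1 h8
  have e : aa g k z b = 4 * k ^ 2 + b * (4 * (g * z) - 4 * k ^ 2) := by unfold aa; ring
  have h10 : |b * (4 * (g * z) - 4 * k ^ 2)| ≤ 1 / 4 * (4 * k ^ 2) := by
    rw [abs_mul]
    apply mul_le_mul h8 _ (abs_nonneg _) (by norm_num)
    rw [abs_le]; constructor <;> nlinarith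
  have h11 := abs_le.1 h10
  have h12 : 0 ≤ k ^ 2 := sq_nonneg k
  rw [e, abs_le]
  constructor <;> linarith [h11.1, h11.2]

lemma Small.alpha_sq : (ar g k z b c / dm g k z b c) ^ 2
    + (s * (ai g k z b / dm g k z b c)) ^ 2 ≤ 25 * s ^ 2 := by
  have h1 := H.aa_abs hs2
  have h2 := H.dm_ge hs2
  have h3 := H.abs_b hs2
  have h4 := H.k_le
  have h5 := H.k_gt
  have h6 := H.g_le
  have h7 := H.rad.g_pos
  have h8 := H.s_le
  have h9 := H.s_pos
  have hd : 0 < dm g k z b c := by linarith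
  rw [ar_eq, ai_eq]
  generalize aa g k z b = a at *
  generalize dm g k z b c = d at *
  have k1 : |(-4 * g * k - b * a) / d| ≤ 4 * s := by
    rw [abs_div, abs_of_pos hd, div_le_iff₀ hd]
    have q1 : |-4 * g * k - b * a| ≤ 4 * g * k + s * 8 := by
      have q2 : |b * a| ≤ s * 8 := by
        rw [abs_mul]; exact mul_le_mul h3 h1 (abs_nonneg _) h9.le
      have q3 := abs_le.1 q2
      have q4 : 0 ≤ 4 * g * k := by positivity
      rw [abs_le]; constructor <;> linarith [q3.1, q3.2]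
    have q5 : 4 * g * k ≤ s := by
      have : g * k ≤ (9 / 16 * s ^ 2) * (23 / 20) :=
        mul_le_mul h6 h4 (by linarith) (by positivity)
      nlinarith
    nlinarith
  have k2 : |a / d| ≤ 57 / 20 := by
    rw [abs_div, abs_of_pos hd, div_le_iff₀ hd]
    nlinarith
  have k3 : ((-4 * g * k - b * a) / d) ^ 2 ≤ 16 * s ^ 2 := by
    rw [← sq_abs]
    calc |(-4 * g * k - b * a) / d| ^ 2 ≤ (4 * s) ^ 2 := pow_le_pow_left₀ (abs_nonneg _) k1 2
      _ = 16 * s ^ 2 := by ring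
  have k4 : (s * (a / d)) ^ 2 ≤ 9 * s ^ 2 := by
    have : (a / d) ^ 2 ≤ 9 := by
      rw [← sq_abs]
      calc |a / d| ^ 2 ≤ (57 / 20) ^ 2 := pow_le_pow_left₀ (abs_nonneg _) k2 2
        _ ≤ 9 := by norm_num
    rw [mul_pow]; nlinarith [sq_nonneg s]
  linarith

lemma Small.m0_le : m0 g k z b c ≤ 6 := by
  have hr := H.rad' hs2
  have hK := hr.Kk_pos
  have hKs := hr.Kk_s2
  rw [← hs2] at hKs
  have h1 := H.Sg_le hs2
  have h2 := H.k_le
  have h3 := H.k_gt
  have h4 := H.g_sm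
  have h5 := H.rad.g_pos
  have h6 : c ^ 2 * (k ^ 2 - g * z) ≤ s ^ 2 * (k ^ 2 - g * z) := by
    apply mul_le_mul_of_nonneg_right _ hK.le
    rw [hs2]; nlinarith [sq_nonneg b]
  have h7 : s ^ 2 * (k ^ 2 - g * z) = g * (1 + k) := by linarith
  have h8 : k * Sg g k z b c ≤ 23 / 20 * (47 / 10) :=
    mul_le_mul h2 h1 (by linarith [H.Sg_ge hs2]) (by norm_num)
  rw [hr.m0_eq]
  nlinarith

lemma Small.MM_le : MM g k z b c s ≤ 10 := by
  have h1 := H.m0_le hs2
  have h2 := H.k_le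
  have h3 := H.k_gt
  have h4 := H.g_sm
  have h5 := H.s_le
  have h6 := H.s_pos
  have h7 := H.rad.g_pos
  have h8 : k ^ 2 ≤ 529 / 400 := by nlinarith
  have h9 : k ^ 2 * s ≤ 529 / 400 * (1 / 4) := mul_le_mul h8 h5 h6.le (by norm_num)
  unfold MM
  nlinarith

lemma Small.Qf_ge {d : ℝ} (hd : 0 ≤ d) (hd1 : d ≤ 1) :
    2 * d + 3 / 2 * (k - 1) ≤ Qf (k - 1) d g (k + z * s ^ 2) := by
  have h1 := H.k_le
  have h2 := H.k_gt
  have h3 := H.g_sm
  have h4 := H.rad.g_pos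
  have h5 : k ≤ k + z * s ^ 2 := by
    have : 0 ≤ z * s ^ 2 := mul_nonneg H.rad.z_nonneg (sq_nonneg s)
    linarith
  generalize k + z * s ^ 2 = F at *
  obtain ⟨x, rfl⟩ : ∃ x, k = 1 + x := ⟨k - 1, by ring⟩
  have hx : 0 < x := by linarith
  have hx1 : x ≤ 3 / 20 := by linarith
  rw [show 1 + x - 1 = x by ring]
  unfold Qf
  have a1 : 3 / 2 * x ≤ 2 * x * ((1 + x) * F - g) := by
    have : 1 ≤ (1 + x) * F := by nlinarith
    nlinarith
  have a2 : g * (2 + x) * (3 - d) * (1 - x) ≤ 1 / 4 := by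
    have e1 : g * (2 + x) ≤ 1 / 12 := by nlinarith
    have e2 : (3 - d) * (1 - x) ≤ 3 := by nlinarith
    have e3 : 0 ≤ g * (2 + x) := by positivity
    have e4 : 0 ≤ (3 - d) * (1 - x) := mul_nonneg (by linarith) (by linarith)
    calc g * (2 + x) * (3 - d) * (1 - x) = (g * (2 + x)) * ((3 - d) * (1 - x)) := by ring
      _ ≤ 1 / 12 * 3 := mul_le_mul e1 e2 e4 (by norm_num)
      _ = 1 / 4 := by norm_num
  have a3 : 0 ≤ 2 * g * d * (2 - d) * (2 + x) ^ 2 := by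
    have : 0 ≤ 2 - d := by linarith
    positivity
  have a4 : 1 ≤ F * (1 + x) * (2 - x * (1 - d)) := by
    have e1 : 1 ≤ F * (1 + x) := by nlinarith
    have e2 : 1 ≤ 2 - x * (1 - d) := by nlinarith
    nlinarith
  have a5 : 2 ≤ (1 + x) ^ 2 * (2 * (1 + x) + x * (1 - d)) := by
    have e1 : 1 ≤ (1 + x) ^ 2 := by nlinarith
    have e2 : 2 ≤ 2 * (1 + x) + x * (1 - d) := by
      have : 0 ≤ x * (1 - d) := mul_nonneg hx.le (by linarith)
      linarith
    nlinarith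
  nlinarith

lemma Small.DL_ge : 4 * s ^ 2 * (1 - (b / s) ^ 2) + s ^ 4 / 2 ≤ DL g k z b s := by
  have hb := H.abs_b hs2
  have hs := H.s_pos
  have h1 := H.g_ge
  have h2 := H.k_ge
  obtain ⟨β, hβ, hβ0, hβ1⟩ : ∃ β : ℝ, |b| / s = β ∧ 0 ≤ β ∧ β ≤ 1 :=
    ⟨_, rfl, by positivity, by rw [div_le_one hs]; exact hb⟩
  have e1 : (b / s) ^ 2 = β ^ 2 := by rw [← hβ, div_pow, div_pow, sq_abs]
  unfold DL
  rw [hβ, e1]
  have hQ := H.Qf_ge hs2 (d := 1 - β) (by linarith) (by linarith)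
  have h3 : 2 * (1 - β) + 1 / 8 * s ^ 2 ≤ Qf (k - 1) (1 - β) g (k + z * s ^ 2) := by linarith
  have h4 : 8 * (s ^ 2 / 2) * (2 * (1 - β) + 1 / 8 * s ^ 2)
      ≤ 8 * g * Qf (k - 1) (1 - β) g (k + z * s ^ 2) := by
    apply mul_le_mul _ h3 _ (by linarith [H.rad.g_pos])
    · linarith
    · have : 0 ≤ 1 - β := by linarith
      positivity
  refine le_trans ?_ h4
  have h5 : 0 ≤ s ^ 2 * (1 - β) ^ 2 := by positivity
  nlinarith

lemma Small.muO_ge : s ^ 2 / 50 * (1 - (b / s) ^ 2) + s ^ 4 / 400 ≤ muO g k z b c s := by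
  have h1 := H.DL_ge hs2
  have h2 := H.MM_le hs2
  have h3 := H.Sg_le hs2
  have h4 := MM_pos (H.rad' hs2) H.s_pos hs2
  have h5 := H.Sg_ge hs2
  have h6 : 0 ≤ 1 - (b / s) ^ 2 := by
    have : (b / s) ^ 2 ≤ 1 := by
      rw [div_pow, div_le_one (pow_pos H.s_pos 2), hs2]; nlinarith [sq_nonneg c]
    linarith
  unfold muO
  rw [le_div_iff₀ (by positivity)]
  have h7 : 4 * MM g k z b c s * Sg g k z b c ≤ 4 * 10 * (47 / 10) := by
    apply mul_le_mul _ h3 (by linarith) (by norm_num)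
    linarith
  have h8 : 0 ≤ s ^ 2 / 50 * (1 - (b / s) ^ 2) + s ^ 4 / 400 := by positivity
  have h9 := mul_le_mul_of_nonneg_left h7 h8
  have h10 : 0 ≤ s ^ 2 * (1 - (b / s) ^ 2) := by positivity
  have h11 : 0 ≤ s ^ 4 := by positivity
  linarith

lemma Small.muI_ge : s ^ 4 / 600 ≤ muI g k z b c s := by
  have h1 := H.dp_ge hs2
  have h2 := H.dp_le hs2
  have h3 := H.dm_ge hs2
  have h4 := H.dm_le hs2
  have h5 := H.Sg_ge hs2
  have h6 := H.Sg_le hs2
  have h7 := H.g_ge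
  have h8 := H.k_ge
  have h9 := H.k_gt
  have h10 := H.g_sm
  have hg := H.rad.g_pos
  have h11 : 24 / 25 ≤ k * (k + z * s ^ 2) - g := by
    have : 0 ≤ z * s ^ 2 := mul_nonneg H.rad.z_nonneg (sq_nonneg s)
    nlinarith
  unfold muI
  rw [le_div_iff₀ (by positivity)]
  have q1 : dp g k z b c * dm g k z b c * Sg g k z b c ≤ 6 * 6 * (47 / 10) := by
    apply mul_le_mul _ h6 (by linarith) (by norm_num)
    exact mul_le_mul h2 h4 (by linarith) (by norm_num)
  have q2 : 8 * (s ^ 2 / 2) * (s ^ 2 / 12) * (24 / 25)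
      ≤ 8 * g * (k - 1) * (k * (k + z * s ^ 2) - g) := by
    apply mul_le_mul _ h11 (by norm_num) _
    · apply mul_le_mul _ h8 (by positivity) (by positivity)
      linarith
    · have : 0 ≤ k - 1 := by linarith
      positivity
  have q3 := mul_le_mul_of_nonneg_left q1 (show 0 ≤ s ^ 4 / 600 by positivity)
  have q4 : 0 ≤ s ^ 4 := by positivity
  linarith

end

end Vale.Agent.P088.R2.H942.Iso.Near
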