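import Vale.Agent.P088.R2.H942.Near8

/-!
# P088, stage 3: the near certificate close to the diagonal (2)

Vector form with the Gram determinant of `e, q, U` (the out of plane margin).
-/

noncomputable section

namespace Vale.Agent.P088.R2.H942.Iso.Near

set_option linter.unusedSectionVars false

open Vale.Agent.P088.R2.H230.W (dd dd_comm dd_add_left dd_add_right dd_sub_left dd_sub_right
  dd_smul_left dd_smul_right dd_self_nonneg dd_cs TT Hm TT_abs_le)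
open Set

variable {ι : Type*} [Fintype ι]

/-- Gram determinant of `e, q, U` for a unit vector `e`. -/
def Gr (e q U : ι → ℝ) : ℝ :=
  (dd q q - dd e q ^ 2) * dd U U - dd q q * dd e U ^ 2 - dd q U ^ 2 + 2 * dd e q * dd e U * dd q U

lemma Gr_split {e h : ι → ℝ} {σ U1 uu : ℝ} {U : ι → ℝ} (hh : dd h h = 1)
    (hσ : σ ^ 2 = 1 - dd e h ^ 2) (a1 : dd h U = dd e h * dd e U + σ * U1)
    (a3 : dd U U = dd e U ^ 2 + U1 ^ 2 + uu) : Gr e h U = (1 - dd e h ^ 2) * uu := by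
  unfold Gr
  rw [a1, a3, hh]
  linear_combination (-U1 ^ 2) * hσ

/-- **Strict certificate, exact profile values, with the Gram margin**, units `e^{2a} = 1`. -/
theorem vec_gram {g k z b c s : ℝ} (h : Rad2 g k z (b ^ 2 + c ^ 2)) (hs : 0 < s)
    (hs2 : s ^ 2 = b ^ 2 + c ^ 2) {e h' : ι → ℝ} (he : dd e e = 1) (hh : dd h' h' = 1)
    (hb : b = s * dd e h') {p1 t1 p2 t2 ε μ ν : ℝ} (hp1 : 0 ≤ p1) (ht1 : 0 ≤ t1) (hp2 : 0 ≤ p2)
    (ht2 : 0 ≤ t2) (hε : 0 ≤ ε) (h1 : t1 * g ≤ (1 + ε) * p1) (h2 : t2 * g ≤ (1 + ε) * p2)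
    (hε2 : 8 * k ^ 2 * s * ε * (m0 g k z b c ^ 2
      + (k ^ 2 * (dp g k z b c * dm g k z b c) + DL g k z b s)) ≤ m0 g k z b c * DL g k z b s / 2)
    (hD1 : 0 < D1 k b c p1 t1) (hD2 : 0 < D1 k (-b) c p2 t2) (hμ : μ ≤ muI g k z b c s)
    (hν : μ + ν * (1 - dd e h' ^ 2) ≤ muO g k z b c s) (U V : ι → ℝ) :
    μ * (dd U U + dd V V) + ν * (Gr e h' U + Gr e h' V) ≤ HH e h' g k z s U V
      + TT (lee e h' p1 (t1 * k * s) (ar g k z b c / dm g k z b c) (s * (ai g k z b / dm g k z b c)))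
          (p1 • e + (t1 * k * s) • h') U
      + TT (lee e h' p2 (-(t2 * k * s)) (br g k z b c / dp g k z b c)
          (s * (bi g k z b / dp g k z b c))) (p2 • e + (-(t2 * k * s)) • h') V := by
  have hs0 := hs.ne'
  have hcc : c ^ 2 = s ^ 2 * (1 - dd e h' ^ 2) := by rw [hb] at hs2; linarith
  obtain ⟨σ, hcσ⟩ : ∃ σ, c = s * σ := ⟨c / s, by field_simp⟩
  have hσ : σ ^ 2 = 1 - dd e h' ^ 2 := by
    have : s ^ 2 * σ ^ 2 = s ^ 2 * (1 - dd e h' ^ 2) := by rw [← hcc, hcσ]; ring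
    exact mul_left_cancel₀ (pow_ne_zero 2 hs0) this
  obtain ⟨hdm, hdp⟩ := h.dpos
  obtain ⟨U1, V1, u, v, a1, a2, a3, a4, a5⟩ := split2 he hh hσ U V
  have E1 : p1 ^ 2 + (t1 * k * s) ^ 2 + 2 * dd e h' * p1 * (t1 * k * s) = D1 k b c p1 t1 := by
    unfold D1; rw [hcc, hb]; ring
  have E2 : p2 ^ 2 + (-(t2 * k * s)) ^ 2 + 2 * dd e h' * p2 * (-(t2 * k * s))
      = D1 k (-b) c p2 t2 := by
    unfold D1; rw [hcc, hb]; ring
  have T1 := lee_TT (A := ar g k z b c / dm g k z b c) (B := s * (ai g k z b / dm g k z b c)) he hh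
    (by rw [E1]; exact hD1.ne') hσ U rfl a1 a3
  have T2 := lee_TT (A := br g k z b c / dp g k z b c) (B := s * (bi g k z b / dp g k z b c)) he hh
    (by rw [E2]; exact hD2.ne') hσ V rfl a2 a4
  have hP := pl_low h hs hs2 (dd e U) U1 (dd e V) V1
  have hO := outO h hs hs2 hp1 ht1 hp2 ht2 hε h1 h2 hε2 hD1 hD2 u v
  have c1 := cw1 (z := z) (p := p1) (t := t1) hb hcc hdm hD1
  have c2 := cw2 (z := z) (p := p2) (t := t2) hb hcc hdp hD2
  rw [mul_div_assoc] at c1 c2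
  rw [← c1, ← c2] at hO
  rw [T1, T2, Gr_split hh hσ a1 a3, Gr_split hh hσ a2 a4]
  rw [pl_plq, mul_div_assoc, mul_div_assoc] at hP
  have hH : HH e h' g k z s U V = g * (dd e U + dd e V) ^ 2 + 2 * k * s * (dd e U + dd e V)
        * ((dd e h' * dd e U + σ * U1) - (dd e h' * dd e V + σ * V1))
      + z * s ^ 2 * ((dd e h' * dd e U + σ * U1) - (dd e h' * dd e V + σ * V1)) ^ 2
      + k * ((dd e U ^ 2 + U1 ^ 2 + dd u u) - (dd e U * dd e V + U1 * V1 + dd u v)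
        - ((dd e U * dd e V + U1 * V1 + dd u v) - (dd e V ^ 2 + V1 ^ 2 + dd v v))) := by
    unfold HH
    simp only [dd_sub_right, dd_sub_left, dd_comm V U]
    rw [a1, a2, a3, a4, a5]
  rw [hH, a3, a4]
  have hsum := sum_eq g k z b c s (dd e h') σ (ar g k z b c / dm g k z b c)
    (ai g k z b / dm g k z b c) (br g k z b c / dp g k z b c) (bi g k z b / dp g k z b c)
    (dd e U) U1 (dd e V) V1 (dd u u) (dd u v) (dd v v)
    (cw (dd e h') p1 (t1 * k * s) (ar g k z b c / dm g k z b c) (s * (ai g k z b / dm g k z b c)))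
    (cw (dd e h') p2 (-(t2 * k * s)) (br g k z b c / dp g k z b c)
      (s * (bi g k z b / dp g k z b c))) hb hcσ
  rw [hsum]
  have r1 : 0 ≤ dd e U ^ 2 + U1 ^ 2 + (dd e V ^ 2 + V1 ^ 2) := by positivity
  have r2 : 0 ≤ dd u u + dd v v := add_nonneg (dd_self_nonneg _) (dd_self_nonneg _)
  have r3 := mul_le_mul_of_nonneg_right hμ r1
  have r4 := mul_le_mul_of_nonneg_right hν r2
  have r5 := add_le_add (r3.trans hP) (r4.trans hO)
  refine le_trans (le_of_eq ?_) r5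
  ring

/-! ### coordinates `q = s h` -/

/-- raw Hessian of `E F` at `E = 1` -/
def HQ (e q : ι → ℝ) (g k z : ℝ) (U V : ι → ℝ) : ℝ :=
  g * (dd e U + dd e V) ^ 2 + 2 * k * (dd e U + dd e V) * dd q (U - V)
    + z * dd q (U - V) ^ 2 + k * dd (U - V) (U - V)

/-- `8 W_{y ybar}` in terms of `b` and `s2 = |q|^2` -/
def dq (g k z b s2 : ℝ) : ℝ := 2 * (g + (k + z * s2) + k) - 4 * k * b

/-- `|w|^2` for `w = p e + t k q` -/
def wq (k b s2 p t : ℝ) : ℝ := p ^ 2 + 2 * p * t * k * b + t ^ 2 * k ^ 2 * s2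

/-- **the near field** -/
def cn (e q : ι → ℝ) (g k z b s2 p t : ℝ) : ι → ℝ :=
  (dq g k z b s2 * wq k b s2 p t)⁻¹ •
    ((4 * g * k * (p + 2 * t * k * b) + t * k * s2 * aa g k z b) • e
      + (p * aa g k z b - 4 * g * k ^ 2 * t) • q)

/-- Hessian and the two multiplier forms -/
def FU (e q : ι → ℝ) (g k z p1 t1 p2 t2 : ℝ) (U V : ι → ℝ) : ℝ :=
  HQ e q g k z U V
    + TT (cn e q g k z (dd e q) (dd q q) p1 t1) (p1 • e + (t1 * k) • q) U
    + TT (cn e (-q) g k z (-dd e q) (dd q q) p2 t2) (p2 • e - (t2 * k) • q) V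

lemma cx_cn {e q : ι → ℝ} {g k z b c s p t : ℝ} (hs2 : s ^ 2 = b ^ 2 + c ^ 2) :
    cx e q g k z b c s p t = cn e q g k z b (s ^ 2) p t := by
  unfold cx cn dq wq ce cq
  have : dm g k z b c = 2 * (g + (k + z * s ^ 2) + k) - 4 * k * b := by
    unfold dm Sg; rw [hs2]
  rw [this]

lemma Gr_smul (e h U : ι → ℝ) (s : ℝ) : Gr e (s • h) U = s ^ 2 * Gr e h U := by
  unfold Gr
  simp only [dd_smul_left, dd_smul_right]
  ring

lemma Gr_nonneg_aux {e h U : ι → ℝ} (he : dd e e = 1) (hh : dd h h = 1) : 0 ≤ Gr e h U := by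
  have hγ : dd e h ^ 2 ≤ 1 := by
    have := dd_cs e h; rwa [he, hh, one_mul] at this
  obtain ⟨σ, hσ⟩ : ∃ σ : ℝ, σ ^ 2 = 1 - dd e h ^ 2 :=
    ⟨√(1 - dd e h ^ 2), Real.sq_sqrt (by linarith)⟩
  obtain ⟨U1, V1, u, v, a1, a2, a3, a4, a5⟩ := split2 he hh hσ U U
  rw [Gr_split hh hσ a1 a3]
  exact mul_nonneg (by linarith) (dd_self_nonneg _)

/-- **The near certificate at small distance.** -/
theorem near_small {e q : ι → ℝ} {g k z s : ℝ} (H : Small g k z s) (he : dd e e = 1)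
    (hq : dd q q = s ^ 2) {p1 t1 p2 t2 : ℝ} (ht1 : 0 ≤ t1) (ht2 : 0 ≤ t2)
    (h1 : t1 * g ≤ p1) (h2 : t2 * g ≤ p2) (hD1 : 0 < wq k (dd e q) (s ^ 2) p1 t1)
    (hD2 : 0 < wq k (-dd e q) (s ^ 2) p2 t2) (U V : ι → ℝ) :
    s ^ 4 / 600 * (dd U U + dd V V) + 1 / 50 * (Gr e q U + Gr e q V)
      ≤ FU e q g k z p1 t1 p2 t2 U V := by
  have hs := H.s_pos
  obtain ⟨h', rfl⟩ : ∃ h' : ι → ℝ, q = s • h' := ⟨s⁻¹ • q, by rw [smul_smul, mul_inv_cancel₀ hs.ne', one_smul]⟩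
  have hh : dd h' h' = 1 := by
    rw [dd_smul_left, dd_smul_right] at hq
    have : s ^ 2 * dd h' h' = s ^ 2 * 1 := by linarith
    exact mul_left_cancel₀ (pow_ne_zero 2 hs.ne') this
  have hγ : dd e h' ∈ Icc (-1 : ℝ) 1 := by
    have := dd_cs e h'; rw [he, hh] at this
    exact abs_le.1 (abs_le_of_sq_le_sq (by linarith) (by norm_num))
  have hs2 := sq_bc (s := s) hγ
  have eb : dd e (s • h') = s * dd e h' := dd_smul_right _ _ _
  rw [eb] at hD1 hD2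
  have hg := H.rad.g_pos
  have hp1 : 0 ≤ p1 := le_trans (by positivity) h1
  have hp2 : 0 ≤ p2 := le_trans (by positivity) h2
  set b := s * dd e h' with hb
  set c := s * √(1 - dd e h' ^ 2) with hc
  have hr := H.rad' hs2
  have hDL := DL_pos hr hs hs2
  have hm := hr.m0_pos
  have hmuO := H.muO_ge hs2
  have hbs : (b / s) ^ 2 = dd e h' ^ 2 := by rw [hb]; congr 1; field_simp
  rw [hbs] at hmuO
  have hs4 : 0 ≤ s ^ 4 := by positivity
  have main := vec_gram hr hs hs2 he hh hb hp1 ht1 hp2 ht2 le_rfl (ε := 0) (μ := s ^ 4 / 600)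
    (ν := s ^ 2 / 50)
    (by linarith) (by linarith) (by rw [mul_zero, zero_mul]; positivity)
    (by unfold D1; unfold wq at hD1; rw [← hs2]; exact hD1)
    (by unfold D1; unfold wq at hD2; rw [neg_sq, ← hs2]; exact hD2)
    (H.muI_ge hs2) (by linarith) U V
  rw [lee1_eq hb hr.dpos.1.ne', lee2_eq hb hr.dpos.2.ne', cx_cn hs2,
    cx_cn (by rw [neg_sq]; exact hs2)] at main
  have e1 : (t1 * k * s) • h' = (t1 * k) • (s • h') := by rw [smul_smul]
  have e2 : p2 • e + (-(t2 * k * s)) • h' = p2 • e - (t2 * k) • (s • h') := by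
    rw [smul_smul, neg_smul, sub_eq_add_neg]
  have e3 : HH e h' g k z s U V = HQ e (s • h') g k z U V := by
    unfold HH HQ
    simp only [dd_smul_left]
    ring
  rw [e1, e2, e3] at main
  unfold FU
  rw [hq, eb, Gr_smul, Gr_smul]
  refine le_trans (le_of_eq ?_) main
  ring

end Vale.Agent.P088.R2.H942.Iso.Near
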