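import Vale.Agent.P088.R2.H942.Near14

/-!
# P088, stage 3: zone II, pointwise (4): perturbation of the flat form
-/

noncomputable section

namespace Vale.Agent.P088.R2.H942.Iso.Near

set_option linter.unusedSectionVars false

open Vale.Agent.P088.R2.H230.W (dd dd_comm dd_add_left dd_add_right dd_sub_left dd_sub_right
  dd_smul_left dd_smul_right dd_self_nonneg dd_cs TT Hm TT_abs_le)
open Set

variable {ι : Type*} [Fintype ι]

/-- The Euclidean norm. -/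
def nd (u : ι → ℝ) : ℝ := √(dd u u)

lemma nd_nonneg (u : ι → ℝ) : 0 ≤ nd u := Real.sqrt_nonneg _

lemma nd_sq (u : ι → ℝ) : nd u ^ 2 = dd u u := Real.sq_sqrt (dd_self_nonneg u)

lemma dd_le_nd (u v : ι → ℝ) : |dd u v| ≤ nd u * nd v := by
  apply abs_le_of_sq_le_sq _ (mul_nonneg (nd_nonneg u) (nd_nonneg v))
  rw [mul_pow, nd_sq, nd_sq]
  exact dd_cs u v

lemma nd_add (u v : ι → ℝ) : nd (u + v) ≤ nd u + nd v := by
  apply le_of_sq_le_sq _ (add_nonneg (nd_nonneg u) (nd_nonneg v))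
  rw [nd_sq]
  simp only [dd_add_left, dd_add_right, dd_comm v u]
  have := (abs_le.1 (dd_le_nd u v)).2
  have h1 := nd_sq u
  have h2 := nd_sq v
  nlinarith

lemma nd_smul (a : ℝ) (u : ι → ℝ) : nd (a • u) = |a| * nd u := by
  unfold nd
  rw [dd_smul_left, dd_smul_right, ← mul_assoc, Real.sqrt_mul (mul_self_nonneg a),
    Real.sqrt_mul_self_eq_abs]

lemma nd_le {u : ι → ℝ} {x : ℝ} (hx : 0 ≤ x) (h : dd u u ≤ x ^ 2) : nd u ≤ x :=
  Real.sqrt_le_iff.2 ⟨hx, h⟩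

lemma TT_nd (c w U : ι → ℝ) : |TT c w U| ≤ nd c * nd w * dd U U := by
  apply TT_abs_le c w U (mul_nonneg (nd_nonneg c) (nd_nonneg w))
  rw [mul_pow, nd_sq, nd_sq]

lemma TT_add_mid (c w x U : ι → ℝ) : TT c (w + x) U = TT c w U + TT c x U := by
  unfold TT; simp only [dd_add_left, dd_add_right]; ring

lemma TT_smul_mid (a : ℝ) (c w U : ι → ℝ) : TT c (a • w) U = a * TT c w U := by
  unfold TT; simp only [dd_smul_left, dd_smul_right]; ring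

/-- The first field, with the slope part. -/
def f1 (e q : ι → ℝ) (g k z p θ s : ℝ) : ι → ℝ :=
  cn e q g k z (dd e q) (dd q q) p 1 + (θ * s ^ 2) • kf e (p • e + k • q)

/-- The second field, with the slope part. -/
def f2 (e q : ι → ℝ) (g k z p θ s : ℝ) : ι → ℝ :=
  cn e (-q) g k z (-dd e q) (dd q q) p 1 + (θ * s ^ 2) • kf e (p • e - k • q)

lemma f2_eq (e q : ι → ℝ) (g k z p θ s : ℝ) : f2 e q g k z p θ s = f1 e (-q) g k z p θ s := by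
  unfold f2 f1
  rw [dd_neg_right, dd_neg_neg, smul_neg, sub_eq_add_neg]

section
variable {e q : ι → ℝ} {g k z s : ℝ} (H : Small g k z s) (he : dd e e = 1) (hq : dd q q = s ^ 2)
include H he hq

lemma nd_w {p : ℝ} (hp : 0 ≤ p) (hp' : p ≤ k * s / 2) : nd (p • e + k • q) ≤ 2 * s := by
  have hs := H.s_pos
  have hk1 := H.k_gt
  have hk2 := H.k_le
  refine (nd_add _ _).trans ?_
  rw [nd_smul, nd_smul, abs_of_nonneg hp, abs_of_pos (by linarith : 0 < k)]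
  have n1 : nd e ≤ 1 := nd_le zero_le_one (by rw [he]; norm_num)
  have n2 : nd q ≤ s := nd_le hs.le (by rw [hq])
  have h1 : p * nd e ≤ p * 1 := mul_le_mul_of_nonneg_left n1 hp
  have h2 : k * nd q ≤ k * s := mul_le_mul_of_nonneg_left n2 (by linarith)
  nlinarith

lemma nd_cn {p : ℝ} (hp : 0 ≤ p) (hp' : p ≤ k * s / 2) :
    nd (cn e q g k z (dd e q) (dd q q) p 1) ≤ 10 := by
  have hs := H.s_pos
  have hk1 := H.k_gt
  have hw := dd_w_ge he hs hq hp hp' (by linarith : 0 ≤ k)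
  have w1 : dd (p • e + k • q) (p • e + k • q) = wq k (dd e q) (s ^ 2) p 1 := by
    unfold wq
    simp only [dd_smul_left, dd_smul_right, dd_add_left, dd_add_right, he, hq, dd_comm q e]
    ring
  have hD : 0 < wq k (dd e q) (s ^ 2) p 1 := by
    rw [← w1]; exact lt_of_lt_of_le (by positivity) hw
  have h := cn_sq H he hq (p := p) (t := 1) hD
  rw [one_mul] at h
  apply nd_le (by norm_num)
  set c := dd (cn e q g k z (dd e q) (dd q q) p 1) (cn e q g k z (dd e q) (dd q q) p 1) with hc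
  have hc0 : 0 ≤ c := dd_self_nonneg _
  have h2 : c * (k ^ 2 * s ^ 2 / 4) ≤ 25 * s ^ 2 := (mul_le_mul_of_nonneg_left hw hc0).trans h
  have h3 : c * (s ^ 2 / 4) ≤ c * (k ^ 2 * s ^ 2 / 4) := by
    apply mul_le_mul_of_nonneg_left _ hc0
    have : 1 * s ^ 2 ≤ k ^ 2 * s ^ 2 := mul_le_mul_of_nonneg_right (by nlinarith) (sq_nonneg s)
    linarith
  have h4 : (c / 4) * s ^ 2 ≤ 25 * s ^ 2 := by nlinarith
  have h5 := le_of_mul_le_mul_right h4 (pow_pos hs 2)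
  norm_num
  linarith

lemma nd_kf {p : ℝ} (hp : 0 ≤ p) (hp' : p ≤ k * s / 2) :
    nd (kf e (p • e + k • q)) ≤ 2 / s := by
  have hs := H.s_pos
  have hk1 := H.k_gt
  have hw := dd_w_ge he hs hq hp hp' (by linarith : 0 ≤ k)
  have hw0 : 0 < dd (p • e + k • q) (p • e + k • q) := lt_of_lt_of_le (by positivity) hw
  have h := kf_sq he hw0.ne'
  apply nd_le (by positivity)
  set c := dd (kf e (p • e + k • q)) (kf e (p • e + k • q)) with hc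
  have hc0 : 0 ≤ c := dd_self_nonneg _
  have h2 : c * (k ^ 2 * s ^ 2 / 4) ≤ 1 := (mul_le_mul_of_nonneg_left hw hc0).trans h.le
  have h3 : c * (s ^ 2 / 4) ≤ c * (k ^ 2 * s ^ 2 / 4) := by
    apply mul_le_mul_of_nonneg_left _ hc0
    have : 1 * s ^ 2 ≤ k ^ 2 * s ^ 2 := mul_le_mul_of_nonneg_right (by nlinarith) (sq_nonneg s)
    linarith
  rw [div_pow, le_div_iff₀ (pow_pos hs 2)]
  nlinarith

lemma nd_f1 {p θ : ℝ} (hp : 0 ≤ p) (hp' : p ≤ k * s / 2) (hθ : 0 ≤ θ) (hθ1 : θ ≤ 1) :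
    nd (f1 e q g k z p θ s) ≤ 11 := by
  have hs := H.s_pos
  have hs4 := H.s_le
  unfold f1
  refine (nd_add _ _).trans ?_
  rw [nd_smul, abs_of_nonneg (by positivity : 0 ≤ θ * s ^ 2)]
  have h1 := nd_cn H he hq hp hp'
  have h2 := nd_kf H he hq hp hp'
  have h3 : θ * s ^ 2 * nd (kf e (p • e + k • q)) ≤ θ * s ^ 2 * (2 / s) :=
    mul_le_mul_of_nonneg_left h2 (by positivity)
  have h4 : θ * s ^ 2 * (2 / s) = 2 * (θ * s) := by field_simp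
  nlinarith

lemma nd_f2 {p θ : ℝ} (hp : 0 ≤ p) (hp' : p ≤ k * s / 2) (hθ : 0 ≤ θ) (hθ1 : θ ≤ 1) :
    nd (f2 e q g k z p θ s) ≤ 11 := by
  rw [f2_eq]
  exact nd_f1 H he (by rw [dd_neg_neg]; exact hq) hp hp' hθ hθ1

/-- **Zone II, pointwise**, with a quartic remainder. -/
theorem zII3 {Z p1 p2 E K κ : ℝ} (hZ : z ≤ Z) (hs26 : 26 * s ≤ 1)
    (h1 : g ≤ p1) (h2 : g ≤ p2) (h1' : p1 ≤ k * s / 2) (h2' : p2 ≤ k * s / 2)
    (hκ : 0 ≤ κ) (hK : κ ≤ K) (hE : 800 * κ ≤ E * s ^ 2) (hE2 : 8 * κ ≤ E) (U V : ι → ℝ) :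
    κ / 4 * (dd U U + dd V V) + κ / (3600 * (1 + Z) * s ^ 2) * dd (U - V) (U - V) +
        E * s ^ 4 / 4800 * (dd U U + dd V V)
      ≤ K * (dd e U + dd e V) ^ 2 + E * FU e q g k z p1 1 p2 1 U V
        + κ * TT (kf e (p1 • e + k • q)) (p1 • e + k • q) U
        + κ * TT (kf e (p2 • e - k • q)) (p2 • e - k • q) V := by
  have hs := H.s_pos
  have hg := H.rad.g_pos
  have hz := H.rad.z_nonneg
  have hZ0 : 0 ≤ Z := hz.trans hZ
  have hk1 := H.k_gt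
  have main := regIIu H he hq (t1 := 1) (t2 := 1) (K := K) (κ := κ) (E := E) one_pos one_pos hs26
    (by linarith : 1 * g ≤ p1) (by linarith : 1 * g ≤ p2) (by linarith : p1 ≤ 1 * k * s / 2)
    (by linarith : p2 ≤ 1 * k * s / 2) hκ hK hE hE2 U V
  simp only [one_mul] at main
  have hFQ := Q_le_FU2 H he hq hZ h1 h1' h2 h2' U V
  have g1 := dd_w_ge he hs hq (hg.le.trans h1) (by linarith : p1 ≤ k * s / 2) (by linarith : 0 ≤ k)
  have hq' : dd (-q) (-q) = s ^ 2 := by rw [dd_neg_neg]; exact hq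
  have g2 := dd_w_ge he hs hq' (hg.le.trans h2) (by linarith : p2 ≤ k * s / 2) (by linarith : 0 ≤ k)
  have w1 : dd (p1 • e + k • q) (p1 • e + k • q) = wq k (dd e q) (s ^ 2) p1 1 := by
    unfold wq
    simp only [dd_smul_left, dd_smul_right, dd_add_left, dd_add_right, he, hq, dd_comm q e]
    ring
  have e1 : dd e (-q) = -dd e q := dd_neg_right e q
  have w2 : dd (p2 • e + k • (-q)) (p2 • e + k • (-q))
      = wq k (-dd e q) (s ^ 2) p2 1 := by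
    unfold wq
    simp only [dd_smul_left, dd_smul_right, dd_add_left, dd_add_right, he, hq', dd_comm (-q) e, e1]
    ring
  have hD1 : 0 < wq k (dd e q) (s ^ 2) p1 1 := by
    rw [← w1]; exact lt_of_lt_of_le (by positivity) g1
  have hD2 : 0 < wq k (-dd e q) (s ^ 2) p2 1 := by
    rw [← w2]; exact lt_of_lt_of_le (by positivity) g2
  have hF := near_small H he hq (t1 := 1) (t2 := 1) zero_le_one zero_le_one
    (by linarith : 1 * g ≤ p1) (by linarith : 1 * g ≤ p2) hD1 hD2 U V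
  have hN : 0 ≤ dd U U + dd V V := add_nonneg (dd_self_nonneg _) (dd_self_nonneg _)
  have hFq : s ^ 4 / 600 * (dd U U + dd V V) ≤ FU e q g k z p1 1 p2 1 U V := by
    refine le_trans ?_ hF
    have G1 := Gr_nonneg (q := q) he U
    have G2 := Gr_nonneg (q := q) he V
    linarith
  have hF0 : 0 ≤ FU e q g k z p1 1 p2 1 U V := le_trans (by positivity) hFq
  have hs2 : 0 < s ^ 2 := pow_pos hs 2
  have hE0 : 0 ≤ E := le_trans (by positivity) hE2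
  set lam := κ / (225 * (1 + Z) * s ^ 2) with hlam
  have hl0 : 0 ≤ lam := by positivity
  have hlE : lam ≤ E / 2 := by
    rw [hlam, div_le_iff₀ (by positivity)]
    have a2 : 0 ≤ E * s ^ 2 * Z := by
      have : 0 ≤ E * s ^ 2 := le_trans (by positivity) hE
      positivity
    nlinarith
  have hll : lam * (225 * (1 + Z) * s ^ 2) = κ := by
    rw [hlam]; field_simp
  have hY := dd_self_nonneg (U - V)
  have a3 : lam / 4 * FU e q g k z p1 1 p2 1 U V ≤ E / 8 * FU e q g k z p1 1 p2 1 U V :=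
    mul_le_mul_of_nonneg_right (by linarith) hF0
  have a4 := mul_le_mul_of_nonneg_left hFQ (show 0 ≤ lam / 4 by linarith)
  have a5 : lam / 4 * (1 / 4 * dd (U - V) (U - V) - 225 * (1 + Z) * s ^ 2 * (dd U U + dd V V))
      = lam / 16 * dd (U - V) (U - V) - κ / 4 * (dd U U + dd V V) := by
    rw [← hll]; ring
  rw [a5] at a4
  have a6 : κ / (3600 * (1 + Z) * s ^ 2) = lam / 16 := by
    rw [hlam, div_div]; congr 1; ring
  have a7 := mul_le_mul_of_nonneg_left hFq (show 0 ≤ E / 8 by linarith)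
  rw [a6]
  linarith

end

/-- The difference of the quadratic forms. -/
lemma dif_low {g k z Z s n α ρ0 β γ Y2 u y ε : ℝ} (hs : 0 ≤ s) (hs1 : s ≤ 1) (hg : 0 ≤ g)
    (hgl : g ≤ 9 / 16 * s ^ 2) (hk : 0 < k) (hk2 : k ≤ 6 / 5) (hz : 0 ≤ z) (hZ : z ≤ Z)
    (u0 : 0 ≤ u) (y0 : 0 ≤ y) (ε0 : 0 ≤ ε) (ε1 : ε ≤ 1) (hnu : |n| ≤ 2 * u) (hρu : |ρ0| ≤ s * y)
    (hα : |α| ≤ ε * u) (hβ : |β| ≤ ε * s ^ 2 * u)
    (hγ : |γ| ≤ ε * (s * (u * y)) + ε * (s ^ 2 * u ^ 2)) :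
    -((12 + 3 * Z) * (ε * (s ^ 2 * u ^ 2) + ε * (s * (u * y)))) ≤
      (g * (n + α) ^ 2 + 2 * k * (n + α) * (ρ0 + β) + z * (ρ0 + β) ^ 2 + k * (Y2 + γ)) -
        (g * n ^ 2 + 2 * k * n * ρ0 + z * ρ0 ^ 2 + k * Y2) := by
  have hZ0 : 0 ≤ Z := hz.trans hZ
  have hs2 : s ^ 2 ≤ 1 := pow_le_one₀ hs hs1
  have hαn : |n * α| ≤ 2 * (ε * u ^ 2) := by
    rw [abs_mul]
    calc |n| * |α| ≤ 2 * u * (ε * u) := mul_le_mul hnu hα (abs_nonneg _) (by positivity)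
      _ = 2 * (ε * u ^ 2) := by ring
  have hnβ : |n * β| ≤ 2 * (ε * (s ^ 2 * u ^ 2)) := by
    rw [abs_mul]
    calc |n| * |β| ≤ 2 * u * (ε * s ^ 2 * u) := mul_le_mul hnu hβ (abs_nonneg _) (by positivity)
      _ = 2 * (ε * (s ^ 2 * u ^ 2)) := by ring
  have hαρ : |α * ρ0| ≤ ε * (s * (u * y)) := by
    rw [abs_mul]
    calc |α| * |ρ0| ≤ ε * u * (s * y) := mul_le_mul hα hρu (abs_nonneg _) (by positivity)
      _ = ε * (s * (u * y)) := by ring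
  have hαβ : |α * β| ≤ ε * (s ^ 2 * u ^ 2) := by
    rw [abs_mul]
    calc |α| * |β| ≤ ε * u * (ε * s ^ 2 * u) := mul_le_mul hα hβ (abs_nonneg _) (by positivity)
      _ = ε * (ε * (s ^ 2 * u ^ 2)) := by ring
      _ ≤ 1 * (ε * (s ^ 2 * u ^ 2)) := mul_le_mul_of_nonneg_right ε1 (by positivity)
      _ = ε * (s ^ 2 * u ^ 2) := one_mul _
  have hρβ : |ρ0 * β| ≤ ε * (s * (u * y)) := by
    rw [abs_mul]
    calc |ρ0| * |β| ≤ s * y * (ε * s ^ 2 * u) := mul_le_mul hρu hβ (abs_nonneg _) (by positivity)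
      _ = ε * (s * (u * y)) * s ^ 2 := by ring
      _ ≤ ε * (s * (u * y)) * 1 := mul_le_mul_of_nonneg_left hs2 (by positivity)
      _ = ε * (s * (u * y)) := mul_one _
  set T1 := ε * (s ^ 2 * u ^ 2) with hT1
  set T2 := ε * (s * (u * y)) with hT2
  have hT10 : 0 ≤ T1 := by positivity
  have hT20 : 0 ≤ T2 := by positivity
  have e1 : (g * (n + α) ^ 2 + 2 * k * (n + α) * (ρ0 + β) + z * (ρ0 + β) ^ 2 + k * (Y2 + γ)) -
      (g * n ^ 2 + 2 * k * n * ρ0 + z * ρ0 ^ 2 + k * Y2) =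
      2 * g * (n * α) + g * α ^ 2 + 2 * k * (n * β + α * ρ0 + α * β) + z * (2 * (ρ0 * β) + β ^ 2) +
        k * γ := by ring
  have b1 : -(9 / 4 * T1) ≤ 2 * g * (n * α) := by
    have : |2 * g * (n * α)| ≤ 2 * (9 / 16 * s ^ 2) * (2 * (ε * u ^ 2)) := by
      rw [abs_mul, abs_of_nonneg (by positivity : 0 ≤ 2 * g)]
      exact mul_le_mul (by linarith) hαn (abs_nonneg _) (by positivity)
    have := (abs_le.1 this).1
    rw [hT1]; linarith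
  have b2 : 0 ≤ g * α ^ 2 := by positivity
  have b3 : -(6 / 5 * (2 * (3 * T1 + T2))) ≤ 2 * k * (n * β + α * ρ0 + α * β) := by
    have c1 : |n * β + α * ρ0 + α * β| ≤ 3 * T1 + T2 := by
      refine (abs_add_le _ _).trans ?_
      have := abs_add_le (n * β) (α * ρ0)
      linarith
    have c2 : |2 * k * (n * β + α * ρ0 + α * β)| ≤ 2 * (6 / 5) * (3 * T1 + T2) := by
      rw [abs_mul, abs_of_pos (by positivity : 0 < 2 * k)]
      exact mul_le_mul (by linarith) c1 (abs_nonneg _) (by positivity)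
    have := (abs_le.1 c2).1
    linarith
  have b4 : -(Z * (2 * T2)) ≤ z * (2 * (ρ0 * β) + β ^ 2) := by
    have c1 : -(2 * T2) ≤ 2 * (ρ0 * β) + β ^ 2 := by
      have := (abs_le.1 hρβ).1
      nlinarith [sq_nonneg β]
    have c2 : z * -(2 * T2) ≤ z * (2 * (ρ0 * β) + β ^ 2) := mul_le_mul_of_nonneg_left c1 hz
    have c3 : z * (2 * T2) ≤ Z * (2 * T2) := mul_le_mul_of_nonneg_right hZ (by positivity)
    linarith
  have b5 : -(6 / 5 * (T1 + T2)) ≤ k * γ := by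
    have c2 : |k * γ| ≤ (6 / 5) * (T2 + T1) := by
      rw [abs_mul, abs_of_pos hk]
      exact mul_le_mul (by linarith) hγ (abs_nonneg _) (by positivity)
    have := (abs_le.1 c2).1
    linarith
  have b6 : 0 ≤ Z * T1 := by positivity
  have b7 : 0 ≤ Z * T2 := by positivity
  rw [e1]
  linarith

/-- The change of the fields and of the gradient. -/
lemma TT_pert {E x η κ θ s ε : ℝ} {w v f W : ι → ℝ} (X : ι → ℝ) (hE0 : 0 < E)
    (hκθ : κ = θ * (E * s ^ 2)) (hε : ε = η * θ) (ε0 : 0 ≤ ε) (ε1 : ε ≤ 1) (hs : 0 ≤ s)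
    (hs1 : s ≤ 1) (hf : nd f ≤ 11) (hw : nd w ≤ 2 * s)
    (hv : nd (v - f) ≤ ε * s) (hW : nd (W - E • w) ≤ x) :
    E * TT f w X - (2 * η * κ + 12 * x) * dd X X ≤ TT v W X := by
  have hX := dd_self_nonneg X
  have x0 : 0 ≤ x := (nd_nonneg _).trans hW
  have d1 : TT v W X = E * TT f w X + TT (v - f) (E • w) X + TT v (W - E • w) X := by
    have e2 : f + (v - f) = v := by abel
    have e3 : E • w + (W - E • w) = W := by abel
    have e4 : TT v (E • w) X + TT v (W - E • w) X = TT v W X := by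
      rw [← TT_add_mid, e3]
    have e5 : TT f (E • w) X + TT (v - f) (E • w) X = TT v (E • w) X := by
      rw [← TT_add_left', e2]
    rw [← e4, ← e5, TT_smul_mid]
  have d2 : |TT (v - f) (E • w) X| ≤ 2 * η * κ * dd X X := by
    refine (TT_nd _ _ _).trans ?_
    rw [nd_smul, abs_of_pos hE0]
    apply mul_le_mul_of_nonneg_right _ hX
    calc nd (v - f) * (E * nd w) ≤ ε * s * (E * (2 * s)) :=
          mul_le_mul hv (mul_le_mul_of_nonneg_left hw hE0.le)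
            (mul_nonneg hE0.le (nd_nonneg _)) (by positivity)
      _ = 2 * η * κ := by rw [hκθ, hε]; ring
  have d3 : |TT v (W - E • w) X| ≤ 12 * x * dd X X := by
    refine (TT_nd _ _ _).trans ?_
    apply mul_le_mul_of_nonneg_right _ hX
    have : nd v ≤ 12 := by
      have e2 : f + (v - f) = v := by abel
      rw [← e2]
      refine (nd_add _ _).trans ?_
      have : ε * s ≤ 1 * 1 := mul_le_mul ε1 hs1 hs (by norm_num)
      linarith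
    exact mul_le_mul this hW (nd_nonneg _) (by norm_num)
  have := (abs_le.1 d2).1
  have := (abs_le.1 d3).1
  rw [d1]; linarith

/-- The final arithmetic. -/
lemma fin_ar {Z κ η x m1 s N2 Y2 P Q ER : ℝ} (hZ : 0 ≤ Z) (hκ : 0 ≤ κ) (hη : 0 ≤ η)
    (hη1 : 10 ^ 6 * (1 + Z) ^ 2 * η ≤ 1) (hs : 0 < s) (hN : 0 ≤ N2) (hY : 0 ≤ Y2) (hm1 : 0 ≤ m1)
    (hx : 48 * x ≤ η * κ + m1)
    (hE : ER ≤ (12 + 3 * Z) * η * (3 / 2 * (κ * N2) + 1 / 2 * (κ / s ^ 2 * Y2)))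
    (h : κ / 4 * N2 + κ / (3600 * (1 + Z) * s ^ 2) * Y2 + m1 * N2 ≤ P)
    (hPQ : P - ER - η * κ * N2 - (2 * η * κ + 12 * x) * N2 ≤ Q) :
    κ / 8 * N2 + κ / (8000 * (1 + Z) * s ^ 2) * Y2 + m1 / 2 * N2 ≤ Q := by
  have hη2 : η ≤ 1 / 10 ^ 6 := by
    have : 10 ^ 6 * η ≤ 10 ^ 6 * (1 + Z) ^ 2 * η := by
      apply mul_le_mul_of_nonneg_right _ hη
      nlinarith [sq_nonneg Z]
    linarith
  have hs2 : 0 < s ^ 2 := pow_pos hs 2
  have hZη : 0 ≤ (1 + Z) ^ 2 * η := by positivity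
  have hY3 : (12 + 3 * Z) * η * (1 / 2 * (κ / s ^ 2 * Y2)) ≤
      κ / (8000 * (1 + Z) * s ^ 2) * Y2 := by
    have e1 : κ / (8000 * (1 + Z) * s ^ 2) * Y2 = 1 / (8000 * (1 + Z)) * (κ / s ^ 2 * Y2) := by
      field_simp
    rw [e1]
    have h0 : 0 ≤ κ / s ^ 2 * Y2 := by positivity
    have h3 : (12 + 3 * Z) * η * (1 / 2) ≤ 1 / (8000 * (1 + Z)) := by
      rw [le_div_iff₀ (by positivity)]
      have h5 : (12 + 3 * Z) * (1 / 2) * (8000 * (1 + Z)) ≤ 48000 * (1 + Z) ^ 2 := by nlinarith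
      have h6 := mul_le_mul_of_nonneg_right h5 hη
      linarith
    calc (12 + 3 * Z) * η * (1 / 2 * (κ / s ^ 2 * Y2)) =
        ((12 + 3 * Z) * η * (1 / 2)) * (κ / s ^ 2 * Y2) := by ring
      _ ≤ 1 / (8000 * (1 + Z)) * (κ / s ^ 2 * Y2) := mul_le_mul_of_nonneg_right h3 h0
  have hY4 : κ / (8000 * (1 + Z) * s ^ 2) * Y2 + κ / (8000 * (1 + Z) * s ^ 2) * Y2 ≤
      κ / (3600 * (1 + Z) * s ^ 2) * Y2 := by
    have e1 : κ / (3600 * (1 + Z) * s ^ 2) * Y2 = 1 / 3600 * (κ / ((1 + Z) * s ^ 2) * Y2) := by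
      field_simp
    have e2 : κ / (8000 * (1 + Z) * s ^ 2) * Y2 = 1 / 8000 * (κ / ((1 + Z) * s ^ 2) * Y2) := by
      field_simp
    have h0 : 0 ≤ κ / ((1 + Z) * s ^ 2) * Y2 := by positivity
    rw [e1, e2]; linarith
  have hκN : 0 ≤ κ * N2 := by positivity
  have hN3 : (12 + 3 * Z) * η * (3 / 2 * (κ * N2)) ≤ 1 / 100 * (κ * N2) := by
    have h6 : (12 + 3 * Z) * (3 / 2) ≤ 18 * (1 + Z) ^ 2 := by nlinarith [sq_nonneg Z]
    have h7 := mul_le_mul_of_nonneg_right h6 hη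
    have : (12 + 3 * Z) * η * (3 / 2) ≤ 1 / 100 := by linarith
    calc (12 + 3 * Z) * η * (3 / 2 * (κ * N2)) = ((12 + 3 * Z) * η * (3 / 2)) * (κ * N2) := by ring
      _ ≤ 1 / 100 * (κ * N2) := mul_le_mul_of_nonneg_right this hκN
  have hηκ : η * κ * N2 ≤ 1 / 10 ^ 6 * (κ * N2) := by
    have := mul_le_mul_of_nonneg_right hη2 hκN
    linarith
  have hxN : 12 * x * N2 ≤ 1 / 4 * (η * κ * N2 + m1 * N2) := by
    have := mul_le_mul_of_nonneg_right hx hN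
    linarith
  have hm1N : 0 ≤ m1 * N2 := by positivity
  linarith

lemma eta_small {Z η : ℝ} (hZ : 0 ≤ Z) (hη : 0 ≤ η) (h : 10 ^ 6 * (1 + Z) ^ 2 * η ≤ 1) :
    η ≤ 1 / 10 ^ 6 := by
  have : 10 ^ 6 * η ≤ 10 ^ 6 * (1 + Z) ^ 2 * η := by
    apply mul_le_mul_of_nonneg_right _ hη
    nlinarith [sq_nonneg Z]
  linarith

lemma n_sq {e U V : ι → ℝ} (he : dd e e = 1) :
    (dd e U + dd e V) ^ 2 ≤ 2 * (dd U U + dd V V) := by
  have a1 := dd_cs e U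
  have a2 := dd_cs e V
  rw [he, one_mul] at a1 a2
  nlinarith [sq_nonneg (dd e U - dd e V)]

lemma K_pert {K κ θ E s η u n α : ℝ} (hK : 0 ≤ K) (hKθ : K * θ ≤ E * s ^ 2)
    (hκθ : κ = θ * (E * s ^ 2)) (hθ : 0 ≤ θ) (hη : 0 ≤ η) (hη1 : η ≤ 1) (hα : |α| ≤ η * θ * u) :
    K / 2 * n ^ 2 - η * κ * u ^ 2 ≤ K * (n + α) ^ 2 := by
  have a1 : n ^ 2 / 2 - α ^ 2 ≤ (n + α) ^ 2 := by nlinarith [sq_nonneg (n + 2 * α)]
  have a2 := mul_le_mul_of_nonneg_left a1 hK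
  have a3 : α ^ 2 ≤ (η * θ * θ) * u ^ 2 := by
    rw [← sq_abs α]
    calc |α| ^ 2 ≤ (η * θ * u) ^ 2 := pow_le_pow_left₀ (abs_nonneg _) hα 2
      _ = η * (η * θ * θ * u ^ 2) := by ring
      _ ≤ 1 * (η * θ * θ * u ^ 2) := mul_le_mul_of_nonneg_right hη1 (by positivity)
      _ = (η * θ * θ) * u ^ 2 := one_mul _
  have a4 : K * α ^ 2 ≤ η * κ * u ^ 2 := by
    calc K * α ^ 2 ≤ K * ((η * θ * θ) * u ^ 2) := mul_le_mul_of_nonneg_left a3 hK
      _ = (K * θ) * (η * θ * u ^ 2) := by ring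
      _ ≤ (E * s ^ 2) * (η * θ * u ^ 2) := mul_le_mul_of_nonneg_right hKθ (by positivity)
      _ = η * κ * u ^ 2 := by rw [hκθ]; ring
  linarith

lemma uy_le {s u y ε : ℝ} (ε0 : 0 ≤ ε) :
    ε * (s ^ 2 * u ^ 2) + ε * (s * (u * y)) ≤ ε * (3 / 2 * (s ^ 2 * u ^ 2) + 1 / 2 * y ^ 2) := by
  have : s * (u * y) ≤ 1 / 2 * (s ^ 2 * u ^ 2) + 1 / 2 * y ^ 2 := by
    nlinarith [sq_nonneg (s * u - y)]
  have := mul_le_mul_of_nonneg_left this ε0
  linarith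

/-- The scalar part. -/
lemma sc_fin {Z E K K0 κ θ η m1 M a ρ τ x s g k z n ρ0 Y2 A1 A2 N2 t1 t2 t3 t4 t5 t6 : ℝ}
    (hs : 0 < s) (hs1 : s ≤ 1) (hg : 0 ≤ g) (hgl : g ≤ 9 / 16 * s ^ 2) (hk : 0 < k)
    (hk2 : k ≤ 6 / 5) (hz : 0 ≤ z) (hZ : z ≤ Z) (hE0 : 0 < E) (hκ : 0 ≤ κ)
    (hκθ : κ = θ * (E * s ^ 2)) (hθ : 0 ≤ θ) (hθ1 : θ ≤ 1) (hη : 0 ≤ η)
    (hη1 : 10 ^ 6 * (1 + Z) ^ 2 * η ≤ 1) (hK : 0 ≤ K) (hKθ : K * θ ≤ E * s ^ 2)
    (hm1 : 0 ≤ m1) (hN2 : A1 + A2 = N2) (hN0 : 0 ≤ N2) (hYY : 0 ≤ Y2) (hn2 : n ^ 2 ≤ 2 * N2)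
    (hρcs : ρ0 ^ 2 ≤ s ^ 2 * Y2) (hα : |a - n| ≤ η * θ * √N2)
    (hβ : |ρ - ρ0| ≤ η * θ * s ^ 2 * √N2)
    (hγ : |τ - Y2| ≤ η * θ * (s * (√N2 * √Y2) + s ^ 2 * N2))
    (hM : K0 * n ^ 2 + m1 * N2 ≤ K / 2 * n ^ 2 + M + E * s ^ 4 / 4800 * N2)
    (hx : 48 * x ≤ η * κ + m1)
    (main : κ / 4 * N2 + κ / (3600 * (1 + Z) * s ^ 2) * Y2 + E * s ^ 4 / 4800 * N2 ≤
      K0 * n ^ 2 + (E * (g * n ^ 2 + 2 * k * n * ρ0 + z * ρ0 ^ 2 + k * Y2) + E * t3 + E * t4) +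
        κ * t1 + κ * t2)
    (k1 : E * t3 + κ * t1 - (2 * η * κ + 12 * x) * A1 ≤ t5)
    (k2 : E * t4 + κ * t2 - (2 * η * κ + 12 * x) * A2 ≤ t6) :
    κ / 8 * N2 + κ / (8000 * (1 + Z) * s ^ 2) * Y2 + m1 / 2 * N2 ≤
      K * a ^ 2 + M + E * (g * a ^ 2 + 2 * k * a * ρ + z * ρ ^ 2 + k * τ) + t5 + t6 := by
  have hZ0 : 0 ≤ Z := hz.trans hZ
  have hη2 := eta_small hZ0 hη hη1
  have ε0 : 0 ≤ η * θ := mul_nonneg hη hθ
  have ε1 : η * θ ≤ 1 := by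
    have : η * θ ≤ 1 * 1 := mul_le_mul (by linarith) hθ1 hθ (by norm_num)
    linarith
  obtain ⟨u, u0, rfl⟩ : ∃ u : ℝ, 0 ≤ u ∧ u ^ 2 = N2 := ⟨√N2, Real.sqrt_nonneg _, Real.sq_sqrt hN0⟩
  obtain ⟨y, y0, rfl⟩ : ∃ y : ℝ, 0 ≤ y ∧ y ^ 2 = Y2 := ⟨√Y2, Real.sqrt_nonneg _, Real.sq_sqrt hYY⟩
  rw [Real.sqrt_sq u0] at hα hβ hγ
  rw [Real.sqrt_sq y0] at hγ
  obtain ⟨α, rfl⟩ : ∃ α, a = n + α := ⟨a - n, by ring⟩
  obtain ⟨β, rfl⟩ : ∃ β, ρ = ρ0 + β := ⟨ρ - ρ0, by ring⟩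
  obtain ⟨γ, rfl⟩ : ∃ γ, τ = y ^ 2 + γ := ⟨τ - y ^ 2, by ring⟩
  rw [show n + α - n = α by ring] at hα
  rw [show ρ0 + β - ρ0 = β by ring] at hβ
  rw [show y ^ 2 + γ - y ^ 2 = γ by ring] at hγ
  have hnu : |n| ≤ 2 * u := by
    apply abs_le_of_sq_le_sq _ (by positivity)
    have : 0 ≤ u ^ 2 := sq_nonneg u
    rw [mul_pow]; linarith
  have hρu : |ρ0| ≤ s * y := by
    apply abs_le_of_sq_le_sq _ (by positivity)
    rw [mul_pow]; exact hρcs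
  have hγ' : |γ| ≤ η * θ * (s * (u * y)) + η * θ * (s ^ 2 * u ^ 2) := by
    refine hγ.trans (le_of_eq (by ring))
  have hdiff := dif_low (Y2 := y ^ 2) hs.le hs1 hg hgl hk hk2 hz hZ u0 y0
    ε0 ε1 hnu hρu hα hβ hγ'
  have hdE := mul_le_mul_of_nonneg_left hdiff hE0.le
  have hKa := K_pert (n := n) hK hKθ hκθ hθ hη (by linarith) hα
  refine fin_ar (P := κ / 4 * u ^ 2 + κ / (3600 * (1 + Z) * s ^ 2) * y ^ 2 + m1 * u ^ 2)
    (ER := E * ((12 + 3 * Z) * (η * θ * (s ^ 2 * u ^ 2) + η * θ * (s * (u * y))))) hZ0 hκ hη hη1 hs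
    (sq_nonneg u) (sq_nonneg y) hm1 hx ?_ le_rfl ?_
  · have a1 := mul_le_mul_of_nonneg_left (uy_le (s := s) (u := u) (y := y) ε0)
      (by positivity : 0 ≤ E * (12 + 3 * Z))
    refine le_trans (le_of_eq (by ring)) (a1.trans (le_of_eq ?_))
    rw [hκθ]
    field_simp
  · have hc : (2 * η * κ + 12 * x) * A1 + (2 * η * κ + 12 * x) * A2 =
        (2 * η * κ + 12 * x) * u ^ 2 := by rw [← hN2]; ring
    linarith

section
variable {e q : ι → ℝ} {g k z s : ℝ} (H : Small g k z s) (he : dd e e = 1) (hq : dd q q = s ^ 2)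
include H he hq

/-- **Perturbation of the pointwise inequality of zone II.** -/
theorem pertII {Z p E K K0 κ θ η m1 M a ρ τ x : ℝ} {U V v1 v2 W1 W2 : ι → ℝ} (hZ : z ≤ Z)
    (hs26 : 26 * s ≤ 1) (h1 : g ≤ p) (h1' : p ≤ k * s / 2) (hE0 : 0 < E)
    (hκθ : κ = θ * (E * s ^ 2)) (hθ : 0 ≤ θ) (hθ1 : 800 * θ ≤ 1) (hη : 0 ≤ η)
    (hη1 : 10 ^ 6 * (1 + Z) ^ 2 * η ≤ 1) (hK0 : κ ≤ K0) (hK : 0 ≤ K) (hKθ : K * θ ≤ E * s ^ 2)
    (hm1 : 0 ≤ m1)
    (hα : |a - (dd e U + dd e V)| ≤ η * θ * √(dd U U + dd V V))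
    (hβ : |ρ - dd q (U - V)| ≤ η * θ * s ^ 2 * √(dd U U + dd V V))
    (hγ : |τ - dd (U - V) (U - V)| ≤
      η * θ * (s * (√(dd U U + dd V V) * √(dd (U - V) (U - V))) + s ^ 2 * (dd U U + dd V V)))
    (hM : K0 * (dd e U + dd e V) ^ 2 + m1 * (dd U U + dd V V) ≤
      K / 2 * (dd e U + dd e V) ^ 2 + M + E * s ^ 4 / 4800 * (dd U U + dd V V))
    (hv1 : nd (v1 - f1 e q g k z p θ s) ≤ η * θ * s) (hv2 : nd (v2 - f2 e q g k z p θ s) ≤ η * θ * s)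
    (hW1 : nd (W1 - E • (p • e + k • q)) ≤ x) (hW2 : nd (W2 - E • (p • e - k • q)) ≤ x)
    (hx : 48 * x ≤ η * κ + m1) :
    κ / 8 * (dd U U + dd V V) + κ / (8000 * (1 + Z) * s ^ 2) * dd (U - V) (U - V) +
        m1 / 2 * (dd U U + dd V V) ≤
      K * a ^ 2 + M + E * (g * a ^ 2 + 2 * k * a * ρ + z * ρ ^ 2 + k * τ) + TT v1 W1 U + TT v2 W2 V := by
  have hs := H.s_pos
  have hg := H.rad.g_pos
  have hz := H.rad.z_nonneg
  have hZ0 : 0 ≤ Z := hz.trans hZ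
  have hk1 := H.k_gt
  have hk2 := H.k_le
  have hs2 : 0 < s ^ 2 := pow_pos hs 2
  have hκ : 0 ≤ κ := by rw [hκθ]; positivity
  have hE800 : 800 * κ ≤ E * s ^ 2 := by
    rw [hκθ]
    have := mul_le_mul_of_nonneg_right hθ1 (by positivity : 0 ≤ E * s ^ 2)
    linarith
  have hs1 : s ≤ 1 := by linarith
  have hE8 : 8 * κ ≤ E := by
    have : E * s ^ 2 ≤ E * 1 := mul_le_mul_of_nonneg_left (pow_le_one₀ hs.le hs1) hE0.le
    linarith
  have main := zII3 H he hq hZ hs26 h1 h1 h1' h1' hκ hK0 hE800 hE8 U V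
  have hN0 : 0 ≤ dd U U + dd V V := add_nonneg (dd_self_nonneg U) (dd_self_nonneg V)
  have hη2 := eta_small hZ0 hη hη1
  have ε0 : 0 ≤ η * θ := mul_nonneg hη hθ
  have ε1 : η * θ ≤ 1 := by
    have : η * θ ≤ 1 * 1 := mul_le_mul (by linarith) (by linarith) hθ (by norm_num)
    linarith
  have hp : 0 ≤ p := hg.le.trans h1
  have hq' : dd (-q) (-q) = s ^ 2 := by rw [dd_neg_neg]; exact hq
  have ew : p • e - k • q = p • e + k • (-q) := by rw [smul_neg, sub_eq_add_neg]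
  have k1 := TT_pert (w := p • e + k • q) U hE0 hκθ rfl ε0 ε1 hs.le hs1
    (nd_f1 H he hq hp h1' hθ (by linarith)) (nd_w H he hq hp h1') hv1 hW1
  have k2 := TT_pert (w := p • e - k • q) V hE0 hκθ rfl ε0 ε1 hs.le hs1
    (nd_f2 H he hq hp h1' hθ (by linarith)) (by rw [ew]; exact nd_w H he hq' hp h1') hv2 hW2
  have F1 : E * TT (f1 e q g k z p θ s) (p • e + k • q) U =
      E * TT (cn e q g k z (dd e q) (dd q q) p 1) (p • e + k • q) U +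
        κ * TT (kf e (p • e + k • q)) (p • e + k • q) U := by
    unfold f1
    rw [TT_add_left', TT_smul_left, hκθ]; ring
  have F2 : E * TT (f2 e q g k z p θ s) (p • e - k • q) V =
      E * TT (cn e (-q) g k z (-dd e q) (dd q q) p 1) (p • e - k • q) V +
        κ * TT (kf e (p • e - k • q)) (p • e - k • q) V := by
    unfold f2
    rw [TT_add_left', TT_smul_left, hκθ]; ring
  rw [F1] at k1
  rw [F2] at k2
  have hρcs : dd q (U - V) ^ 2 ≤ s ^ 2 * dd (U - V) (U - V) := by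
    rw [← hq]; exact dd_cs q (U - V)
  have hFU : E * FU e q g k z p 1 p 1 U V = E * (g * (dd e U + dd e V) ^ 2 +
      2 * k * (dd e U + dd e V) * dd q (U - V) + z * dd q (U - V) ^ 2 + k * dd (U - V) (U - V)) +
      E * TT (cn e q g k z (dd e q) (dd q q) p 1) (p • e + k • q) U +
      E * TT (cn e (-q) g k z (-dd e q) (dd q q) p 1) (p • e - k • q) V := by
    unfold FU HQ
    simp only [one_mul]
    ring
  rw [hFU] at main
  exact sc_fin hs hs1 hg.le H.g_le (by linarith) (by linarith) hz hZ hE0 hκ hκθ hθ (by linarith) hη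
    hη1 hK hKθ hm1 rfl hN0 (dd_self_nonneg _) (n_sq he) hρcs hα hβ hγ hM hx main k1 k2

end

end Vale.Agent.P088.R2.H942.Iso.Near
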