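import Vale.Agent.P088.R2.H942.Zt1
import Vale.Agent.P088.R2.H644.W.Prof2

/-!
# P088, stage 3: zone II, pointwise (5): the profile `Fs (θ²)` with a gradient of length `ϱ`
-/

noncomputable section

namespace Vale.Agent.P088.R2.H942.Iso.Near

open Real Set
open Vale.Agent.P088.R2.H644 (Fs Fs1 Fs2 four_Fs2 Fs_sq_mul Fs1_sq_mul)

lemma zp_le {θ s : ℝ} (hθ : 0 < θ) (hs : 0 < s) (hs2 : θ * s ≤ 1 / 2) :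
    zp θ s ≤ 2 / 5 * θ ^ 2 := by
  have hx : 0 < θ * s := mul_pos hθ hs
  have h2 := cosh_le_near hx.le hs2
  have h3 := sinh_ge_three hx.le
  unfold zp kp
  rw [div_le_iff₀ (pow_pos hs 2)]
  have h4 : 1 + (θ * s) ^ 2 / 6 ≤ sinh (θ * s) / (θ * s) := by
    rw [le_div_iff₀ hx]; nlinarith
  have h5 : 0 ≤ (θ * s) ^ 2 := sq_nonneg _
  nlinarith

lemma Fs_gp {ϱ θ r : ℝ} (hϱ : 0 < ϱ) (hθ : 0 < θ) :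
    ϱ ^ 2 * Fs (θ ^ 2) (r ^ 2) = gp (θ / ϱ) (ϱ * r) := by
  have h := Fs_sq_mul θ r
  unfold gp
  have e : θ / ϱ * (ϱ * r) = θ * r := by field_simp
  rw [e, ← h]
  field_simp

lemma Fs1_kp {ϱ θ r : ℝ} (hϱ : 0 < ϱ) (hθ : 0 < θ) (hr : 0 < r) :
    2 * Fs1 (θ ^ 2) (r ^ 2) = kp (θ / ϱ) (ϱ * r) := by
  have h := Fs1_sq_mul θ r
  unfold kp
  have e : θ / ϱ * (ϱ * r) = θ * r := by field_simp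
  rw [e, ← h]
  field_simp

lemma Fs2_zp {ϱ θ r : ℝ} (hϱ : 0 < ϱ) (hθ : 0 < θ) (hr : 0 < r) :
    4 * Fs2 (θ ^ 2) (r ^ 2) / ϱ ^ 2 = zp (θ / ϱ) (ϱ * r) := by
  have h := Fs_sq_mul θ r
  have h2 := four_Fs2 (θ ^ 2) (r ^ 2)
  have h1 := Fs1_kp (r := r) hϱ hθ hr
  unfold zp
  have e : θ / ϱ * (ϱ * r) = θ * r := by field_simp
  rw [← h1, e]
  have e3 : cosh (θ * r) - 2 * Fs1 (θ ^ 2) (r ^ 2) = 4 * r ^ 2 * Fs2 (θ ^ 2) (r ^ 2) := by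
    linarith
  rw [e3]
  field_simp

/-- **The profile near the diagonal**, gradient of length `ϱ`. -/
theorem small_Fs {ϱ θ r : ℝ} (hϱ : 0 < ϱ) (hθ : 0 < θ) (hθϱ : ϱ ^ 2 ≤ 2 * θ ^ 2) (hr : 0 < r)
    (hr1 : ϱ * r ≤ 1 / 4) (hr2 : θ * r ≤ 1 / 2) :
    Small (ϱ ^ 2 * Fs (θ ^ 2) (r ^ 2)) (2 * Fs1 (θ ^ 2) (r ^ 2))
      (4 * Fs2 (θ ^ 2) (r ^ 2) / ϱ ^ 2) (ϱ * r) := by
  rw [Fs_gp hϱ hθ, Fs1_kp hϱ hθ hr, Fs2_zp hϱ hθ hr]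
  apply small_cosh (div_pos hθ hϱ) _ (mul_pos hϱ hr) hr1
  · have e : θ / ϱ * (ϱ * r) = θ * r := by field_simp
    rw [e]; exact hr2
  · rw [div_pow, le_div_iff₀ (pow_pos hϱ 2)]; linarith

lemma Fs2_le {ϱ θ r : ℝ} (hϱ : 0 < ϱ) (hθ : 0 < θ) (hr : 0 < r) (hr2 : θ * r ≤ 1 / 2) :
    4 * Fs2 (θ ^ 2) (r ^ 2) / ϱ ^ 2 ≤ 2 / 5 * (θ / ϱ) ^ 2 := by
  rw [Fs2_zp hϱ hθ hr]
  apply zp_le (div_pos hθ hϱ) (mul_pos hϱ hr)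
  have e : θ / ϱ * (ϱ * r) = θ * r := by field_simp
  rw [e]; exact hr2

lemma Fs2_bd {θ r : ℝ} (hθ : 0 < θ) (hr : 0 < r) (hr2 : θ * r ≤ 1 / 2) (hr1 : r ≤ 1 / 4)
    (h1 : 1 ≤ 2 * θ ^ 2) :
    0 ≤ 4 * Fs2 (θ ^ 2) (r ^ 2) ∧ 4 * Fs2 (θ ^ 2) (r ^ 2) ≤ 2 / 5 * θ ^ 2 ∧
    r ^ 2 / 2 ≤ Fs (θ ^ 2) (r ^ 2) ∧ Fs (θ ^ 2) (r ^ 2) ≤ 9 / 16 * r ^ 2 ∧
    1 < 2 * Fs1 (θ ^ 2) (r ^ 2) ∧ 2 * Fs1 (θ ^ 2) (r ^ 2) ≤ 23 / 20 := by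
  have H := small_Fs (ϱ := 1) one_pos hθ (by linarith) hr (by linarith) hr2
  have h := Fs2_le (ϱ := 1) one_pos hθ hr hr2
  norm_num at H h
  exact ⟨H.rad.z_nonneg, h, H.g_ge, H.g_le, H.k_gt, H.k_le⟩

end Vale.Agent.P088.R2.H942.Iso.Near
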