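import Vale.Agent.P088.R2.H942.Zt2

/-!
# P088, stage 3: zone II, pointwise (6): the numbers

`κ = c₁ m (K / (K + m) + μ'' + τ)`, `m = E r²`, `τ = σ / R`.
-/

noncomputable section

namespace Vale.Agent.P088.R2.H942.Iso.Near

open Real Set

/-- The numbers at a point of zone II. `E = e^u`, `N = Φ'(u)`, `K = Φ''(u)`, `τ = σ / R`, `r` the
distance, `d₁, d₂` the derivatives of the metric, `h₀, h₁` the difference of the metrics, `G` the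
profile, `μ` the second derivative of the correction, `b` its negative part. -/
structure Nm (C c c₁ Z ε E N K τ r d₁ d₂ h₀ h₁ G μ b κ : ℝ) : Prop where
  C1 : 1 ≤ C
  c0 : 0 < c
  c1 : c ≤ 1
  c₁0 : 0 < c₁
  c₁1 : 20000 * c₁ ≤ c
  Z0 : 0 ≤ Z
  ε0 : 0 < ε
  ε1 : 10 ^ 6 * C ^ 2 * (1 + Z) * ε ≤ c * c₁
  E0 : 0 < E
  N0 : 0 ≤ N
  NE : 64 * N ≤ E * r
  K0 : 0 ≤ K
  KE : K ≤ E
  τ0 : 0 ≤ τ
  τ1 : τ ≤ ε
  r0 : 0 < r
  r1 : r ≤ ε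
  d₁0 : 0 ≤ d₁
  d₁1 : d₁ ≤ ε * τ
  d₂0 : 0 ≤ d₂
  d₂1 : d₂ ≤ ε * τ
  h₀0 : 0 ≤ h₀
  h₁0 : 0 ≤ h₁
  hh : E * r * (h₀ + h₁) ≤ ε * κ
  Gl : r ^ 2 / 2 ≤ G
  Gu : G ≤ 9 / 16 * r ^ 2
  μ1 : μ ≤ 1
  μb : -b ≤ μ
  b0 : 0 ≤ b
  bN : 32 * C * b * (N + E * r ^ 2) ≤ K
  bK : 2 * b * (K + E * r ^ 2) ≤ K
  eκ : κ = c₁ * (E * r ^ 2) * (K / (K + E * r ^ 2) + μ + τ)

section
variable {C c c₁ Z ε E N K τ r d₁ d₂ h₀ h₁ G μ b κ : ℝ}
  (H : Nm C c c₁ Z ε E N K τ r d₁ d₂ h₀ h₁ G μ b κ)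
include H

lemma Nm.m0 : 0 < E * r ^ 2 := mul_pos H.E0 (pow_pos H.r0 2)

lemma Nm.ε2 : ε ≤ 1 / 10 ^ 6 * (c * c₁) := by
  have h1 := H.ε1
  have h2 : 1 ≤ C ^ 2 * (1 + Z) := by
    have := H.C1
    have := H.Z0
    nlinarith
  have h3 := mul_le_mul_of_nonneg_right h2 H.ε0.le
  linarith

lemma Nm.c₁2 : c₁ ≤ 1 / 20000 := by
  have := H.c₁1
  have := H.c1
  linarith

lemma Nm.ε3 : ε ≤ 1 / 10 ^ 6 := by
  have h1 := H.ε2
  have h2 : c * c₁ ≤ 1 * 1 := mul_le_mul H.c1 (by linarith [H.c₁2]) H.c₁0.le (by norm_num)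
  linarith

/-- The bracket. -/
lemma Nm.br : K / (K + E * r ^ 2) / 2 + τ ≤ K / (K + E * r ^ 2) + μ + τ ∧
    K / (K + E * r ^ 2) + μ + τ ≤ 3 ∧ 0 ≤ K / (K + E * r ^ 2) ∧
    E * r ^ 2 * (K / (K + E * r ^ 2)) ≤ K := by
  have m0 := H.m0
  have hK := H.K0
  have hKm : 0 < K + E * r ^ 2 := by linarith
  have h1 : 2 * b ≤ K / (K + E * r ^ 2) := by
    rw [le_div_iff₀ hKm]; exact H.bK
  have h2 : K / (K + E * r ^ 2) ≤ 1 := by
    rw [div_le_one hKm]; linarith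
  have h3 := H.μb
  have h4 := H.μ1
  have h5 := H.τ1
  have h6 := H.ε3
  refine ⟨by linarith, by linarith, div_nonneg hK hKm.le, ?_⟩
  rw [← mul_div_assoc, div_le_iff₀ hKm]
  nlinarith [mul_nonneg hK hK]

/-- `φ = κ / m`. -/
lemma Nm.phi : ∃ φ : ℝ, κ = φ * (E * r ^ 2) ∧ 0 ≤ φ ∧ φ ≤ 3 * c₁ ∧ c₁ * τ ≤ φ ∧
    c₁ * (K / (K + E * r ^ 2)) / 2 ≤ φ := by
  obtain ⟨h1, h2, h3, h4⟩ := H.br
  have hc := H.c₁0
  have hτ := H.τ0
  refine ⟨c₁ * (K / (K + E * r ^ 2) + μ + τ), by rw [H.eκ]; ring, ?_, ?_, ?_, ?_⟩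
  · apply mul_nonneg hc.le; linarith
  · have := mul_le_mul_of_nonneg_left h2 hc.le; linarith
  · exact mul_le_mul_of_nonneg_left (by linarith) hc.le
  · have := mul_le_mul_of_nonneg_left (by linarith : K / (K + E * r ^ 2) / 2 ≤
      K / (K + E * r ^ 2) + μ + τ) hc.le
    linarith

lemma Nm.κ0 : 0 ≤ κ := by
  obtain ⟨φ, e, h0, -⟩ := H.phi
  rw [e]; exact mul_nonneg h0 H.m0.le

lemma Nm.p_eq : E * (N / E + G) = N + E * G := by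
  have := H.E0.ne'
  field_simp

lemma Nm.p_nonneg : 0 ≤ N / E + G := by
  have h1 := H.Gl
  have h2 : 0 ≤ N / E := div_nonneg H.N0 H.E0.le
  have h3 : 0 ≤ r ^ 2 := sq_nonneg r
  linarith

/-- `p ≤ r / 32`. -/
lemma Nm.p_le : N / E + G ≤ r / 32 := by
  have hE := H.E0
  have h1 : N / E ≤ r / 64 := by
    rw [div_le_iff₀ hE]
    have := H.NE
    linarith
  have h2 := H.Gu
  have h3 := H.r1
  have h4 := H.ε3
  have h5 := H.r0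
  nlinarith

/-- Condition (hK). -/
lemma Nm.cK {ϱ ϖ : ℝ} (hϱ : 1 / 2 ≤ ϱ) (hϖ : c * (μ + τ) - C * b ≤ ϖ) :
    κ ≤ K * ϱ ^ 2 / 2 + E * (N / E + G) * ϖ + E * (ϱ * r) ^ 4 / 2400 := by
  obtain ⟨h1, h2, h3, h4⟩ := H.br
  have hE := H.E0
  have hN := H.N0
  have hC := H.C1
  have hc := H.c0
  have hb := H.b0
  have m0 := H.m0
  have hc₁ := H.c₁0
  rw [H.p_eq]
  have hM0 : 0 ≤ N + E * G := by
    have : 0 ≤ E * G := mul_nonneg hE.le (le_trans (by positivity) H.Gl)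
    linarith
  have hM1 : E * r ^ 2 / 2 ≤ N + E * G := by
    have := mul_le_mul_of_nonneg_left H.Gl hE.le
    linarith
  have hM2 : N + E * G ≤ N + E * r ^ 2 := by
    have := mul_le_mul_of_nonneg_left H.Gu hE.le
    nlinarith
  have a1 : (N + E * G) * (c * (μ + b + τ) - (C + c) * b) ≤ (N + E * G) * ϖ :=
    mul_le_mul_of_nonneg_left (by linarith) hM0
  have hx0 : 0 ≤ μ + b + τ := by
    have := H.μb
    have := H.τ0
    linarith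
  have a2 : E * r ^ 2 / 2 * (c * (μ + b + τ)) ≤ (N + E * G) * (c * (μ + b + τ)) :=
    mul_le_mul_of_nonneg_right hM1 (mul_nonneg hc.le hx0)
  have a3 : (N + E * G) * ((C + c) * b) ≤ K / 16 := by
    have b1 : (N + E * G) * ((C + c) * b) ≤ (N + E * r ^ 2) * (2 * C * b) := by
      apply mul_le_mul hM2 _ (by positivity) (by positivity)
      apply mul_le_mul_of_nonneg_right _ hb
      linarith [H.c1]
    have := H.bN
    linarith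
  have a4 : κ ≤ c₁ * K + c₁ * (E * r ^ 2) * (μ + b + τ) := by
    rw [H.eκ]
    have b1 := mul_le_mul_of_nonneg_left h4 hc₁.le
    have b2 : 0 ≤ c₁ * (E * r ^ 2) * b := by positivity
    linarith
  have a5 : c₁ * K ≤ K / 16 := by
    have := mul_le_mul_of_nonneg_right H.c₁2 H.K0
    linarith [H.K0]
  have a6 : c₁ * (E * r ^ 2) * (μ + b + τ) ≤ E * r ^ 2 / 2 * (c * (μ + b + τ)) := by
    have b1 : c₁ ≤ c / 2 := by linarith [H.c₁1]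
    have b2 : 0 ≤ (E * r ^ 2) * (μ + b + τ) := mul_nonneg m0.le hx0
    have := mul_le_mul_of_nonneg_right b1 b2
    linarith
  have a7 : K / 8 ≤ K * ϱ ^ 2 / 2 := by
    have : 1 / 4 ≤ ϱ ^ 2 := by nlinarith
    have := mul_le_mul_of_nonneg_left this H.K0
    linarith
  have a8 : 0 ≤ E * (ϱ * r) ^ 4 / 2400 := by positivity
  linarith

/-- Condition (hE). -/
lemma Nm.cE {ϱ : ℝ} (hϱ : 1 / 2 ≤ ϱ) : 1600 * κ ≤ E * (ϱ * r) ^ 2 := by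
  obtain ⟨φ, e, h0, h1, -⟩ := H.phi
  have h2 := H.c₁2
  have m0 := H.m0
  have h3 : φ ≤ 1 / 6400 := by linarith
  have h4 := mul_le_mul_of_nonneg_right h3 m0.le
  have h5 : E * r ^ 2 * (1 / 4) ≤ E * r ^ 2 * ϱ ^ 2 :=
    mul_le_mul_of_nonneg_left (by nlinarith) m0.le
  rw [e, mul_pow]
  linarith

/-- The smallness of `D = d₁ r + h₀` and of the other errors. -/
lemma Nm.small {φ ε₁ : ℝ} (e : κ = φ * (E * r ^ 2)) (h0 : 0 ≤ φ) (h1 : c₁ * τ ≤ φ)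
    (hε₁ : ε₁ = 1 / (10 ^ 5 * C * (1 + Z))) :
    h₀ + h₁ ≤ ε₁ / 10 * (φ * r) ∧ d₁ * r + h₀ ≤ ε₁ / 5 * (φ * r) ∧ τ * r ≤ ε₁ / 10 * φ ∧
      d₂ * r ^ 2 + (d₁ * r + h₀) ^ 2 + h₁ * r ≤ ε₁ / 2 * (φ * r ^ 2) ∧ 0 < ε₁ ∧ ε₁ ≤ 1 / 10 ^ 5 := by
  have hC := H.C1
  have hZ := H.Z0
  have hr := H.r0
  have hE := H.E0
  have hc₁ := H.c₁0
  have hc := H.c0
  have hε := H.ε0
  have hτ := H.τ0
  have hd1 := H.d₁0
  have hh0 := H.h₀0
  have hh1 := H.h₁0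
  have hε3 := H.ε3
  have p1 : 0 < ε₁ := by rw [hε₁]; positivity
  have p2 : ε₁ ≤ 1 / 10 ^ 5 := by
    rw [hε₁]
    apply one_div_le_one_div_of_le (by norm_num)
    nlinarith
  -- `10 ε / c₁ ≤ ε₁`
  have p3 : 10 * ε ≤ ε₁ * c₁ := by
    rw [hε₁, div_mul_eq_mul_div, le_div_iff₀ (by positivity), one_mul]
    have a1 := H.ε1
    have a2 : c * c₁ ≤ 1 * c₁ := mul_le_mul_of_nonneg_right H.c1 hc₁.le
    have a3 : C * ((1 + Z) * ε) ≤ C ^ 2 * ((1 + Z) * ε) :=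
      mul_le_mul_of_nonneg_right (by nlinarith) (by positivity)
    linarith
  have hc₁1 : c₁ ≤ 1 := by linarith [H.c₁2]
  have p4 : 10 * ε ≤ ε₁ := p3.trans (by nlinarith)
  -- `h`
  have q1 : h₀ + h₁ ≤ ε * (φ * r) := by
    have a1 := H.hh
    rw [e] at a1
    have a2 : E * r * (h₀ + h₁) ≤ E * r * (ε * (φ * r)) := by
      calc E * r * (h₀ + h₁) ≤ ε * (φ * (E * r ^ 2)) := a1
        _ = E * r * (ε * (φ * r)) := by ring
    exact le_of_mul_le_mul_left a2 (mul_pos hE hr)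
  have hφr : 0 ≤ φ * r := by positivity
  have q2 : h₀ + h₁ ≤ ε₁ / 10 * (φ * r) :=
    q1.trans (mul_le_mul_of_nonneg_right (by linarith) hφr)
  -- `ε τ ≤ (ε₁ / 10) φ`
  have q3 : ε * τ ≤ ε₁ / 10 * φ := by
    have a1 : 10 * (ε * τ) ≤ ε₁ * (c₁ * τ) := by
      have := mul_le_mul_of_nonneg_right p3 hτ
      linarith
    have a2 := mul_le_mul_of_nonneg_left h1 p1.le
    linarith
  have q4 : d₁ * r ≤ ε₁ / 10 * (φ * r) := by
    have := mul_le_mul_of_nonneg_right (H.d₁1.trans q3) hr.le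
    linarith
  have q5 : d₁ * r + h₀ ≤ ε₁ / 5 * (φ * r) := by linarith
  have q6 : τ * r ≤ ε₁ / 10 * φ := by
    have := mul_le_mul_of_nonneg_left H.r1 hτ
    linarith
  refine ⟨q2, q5, q6, ?_, p1, p2⟩
  have hr2 : 0 ≤ r ^ 2 := sq_nonneg r
  have q7 : d₂ * r ^ 2 ≤ ε₁ / 10 * (φ * r ^ 2) := by
    have := mul_le_mul_of_nonneg_right (H.d₂1.trans q3) hr2
    linarith
  have q8 : h₁ * r ≤ ε₁ / 10 * (φ * r ^ 2) := by
    have a1 : h₁ ≤ ε₁ / 10 * (φ * r) := by linarith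
    have := mul_le_mul_of_nonneg_right a1 hr.le
    nlinarith
  obtain ⟨φ', e', -, hφ3, -⟩ := H.phi
  have hφφ : φ = φ' := by
    rw [e'] at e
    exact (mul_right_cancel₀ H.m0.ne' e).symm
  have hφ1 : φ ≤ 1 := by rw [hφφ]; linarith [H.c₁2]
  have hD0 : 0 ≤ d₁ * r + h₀ := by positivity
  have q9 : (d₁ * r + h₀) ^ 2 ≤ ε₁ / 10 * (φ * r ^ 2) := by
    have a1 : (d₁ * r + h₀) ^ 2 ≤ (ε₁ / 5 * (φ * r)) ^ 2 := pow_le_pow_left₀ hD0 q5 2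
    have a2 : (ε₁ / 5 * (φ * r)) ^ 2 = (ε₁ / 5 * φ) * (ε₁ / 5 * (φ * r ^ 2)) := by ring
    have a3 : (ε₁ / 5 * φ) * (ε₁ / 5 * (φ * r ^ 2)) ≤ 1 / 2 * (ε₁ / 5 * (φ * r ^ 2)) := by
      apply mul_le_mul_of_nonneg_right _ (by positivity)
      have : ε₁ / 5 * φ ≤ 1 / 2 * 1 := mul_le_mul (by linarith) hφ1 h0 (by norm_num)
      linarith
    linarith
  have : 0 ≤ ε₁ * (φ * r ^ 2) := by positivity
  linarith

/-- The bounds of the errors, `x = C ε₁`. -/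
lemma Nm.bds : ∃ φ x : ℝ, κ = φ * (E * r ^ 2) ∧ 0 ≤ φ ∧ φ ≤ 1 ∧ c₁ * τ ≤ φ ∧ 0 ≤ x ∧
    x * (1 + Z) = 1 / 10 ^ 5 ∧ x ≤ 1 / 10 ^ 5 ∧ C * (τ * r + (d₁ * r + h₀)) ≤ x * φ ∧
    C * (d₁ * r + h₀) ≤ x / 5 * (φ * r) ∧ C * ((d₁ * r + h₀) * r) ≤ x / 5 * (φ * r) * r ∧
    C * (d₂ * r ^ 2 + (d₁ * r + h₀) ^ 2 + h₁ * r) ≤ x / 2 * (φ * r ^ 2) := by
  obtain ⟨φ, e, h0, hφ3, h1, -⟩ := H.phi
  obtain ⟨ε₁, hε₁⟩ : ∃ ε₁ : ℝ, ε₁ = 1 / (10 ^ 5 * C * (1 + Z)) := ⟨_, rfl⟩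
  obtain ⟨s1, s2, s3, s4, e10, e11⟩ := H.small e h0 h1 hε₁
  have hC := H.C1
  have hZ := H.Z0
  have hr := H.r0
  have hr1 : r ≤ 1 / 10 ^ 6 := H.r1.trans H.ε3
  have hCe : C * ε₁ * (1 + Z) = 1 / 10 ^ 5 := by rw [hε₁]; field_simp
  have hCe0 : 0 ≤ C * ε₁ := by positivity
  have hCe1 : C * ε₁ ≤ 1 / 10 ^ 5 := by
    rw [← hCe]
    nlinarith
  have hφr : 0 ≤ φ * r := by positivity
  have hC0 : 0 ≤ C := by linarith
  refine ⟨φ, C * ε₁, e, h0, by linarith [H.c₁2], h1, hCe0, hCe, hCe1, ?_, ?_, ?_, ?_⟩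
  · have a1 : τ * r + (d₁ * r + h₀) ≤ ε₁ * φ := by
      have b1 : ε₁ / 5 * (φ * r) ≤ ε₁ / 5 * φ := by
        apply mul_le_mul_of_nonneg_left _ (by positivity)
        nlinarith
      have : 0 ≤ ε₁ * φ := by positivity
      linarith
    have := mul_le_mul_of_nonneg_left a1 hC0
    linarith
  · have := mul_le_mul_of_nonneg_left s2 hC0
    linarith
  · have := mul_le_mul_of_nonneg_right (mul_le_mul_of_nonneg_left s2 hC0) hr.le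
    linarith
  · have := mul_le_mul_of_nonneg_left s4 hC0
    linarith

lemma Nm.cτ {γ : ℝ} (hγ : c * τ ≤ γ) : C * (τ * r) ≤ 1 / 1000 * γ := by
  have hC := H.C1
  have hε := H.ε0
  have hZ := H.Z0
  have c1 := H.ε1
  have c2 : C * (τ * r) ≤ C * (τ * ε) := by
    apply mul_le_mul_of_nonneg_left _ (by linarith)
    exact mul_le_mul_of_nonneg_left H.r1 H.τ0
  have c3 : C * ε * 1000 ≤ c := by
    have d1 : C * ε ≤ C ^ 2 * (1 + Z) * ε := by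
      apply mul_le_mul_of_nonneg_right _ hε.le
      nlinarith
    have d2 : c * c₁ ≤ c * 1 := mul_le_mul_of_nonneg_left (by linarith [H.c₁2]) H.c0.le
    have d3 : 0 ≤ C * ε := by positivity
    linarith
  have c4 : C * ε * 1000 * τ ≤ c * τ := mul_le_mul_of_nonneg_right c3 H.τ0
  linarith

/-- The term with `K`. -/
lemma Nm.cKδ {δ : ℝ} (hδ0 : 0 ≤ δ) (hδ : δ ≤ C * (τ * r + (d₁ * r + h₀))) :
    2 * (K * δ ^ 2) ≤ 1 / 100 * κ := by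
  obtain ⟨φ, x, e, h0, hφ1, h1, x0, xZ, x1, -, b2, -, -⟩ := H.bds
  have hC := H.C1
  have hZ := H.Z0
  have hE := H.E0
  have m0 := H.m0
  have hD0 : 0 ≤ d₁ * r + h₀ := by
    have := H.d₁0; have := H.h₀0; have := H.r0; positivity
  obtain ⟨D, hD⟩ : ∃ D, D = d₁ * r + h₀ := ⟨_, rfl⟩
  rw [← hD] at hδ hD0 b2
  have a1 : K * δ ^ 2 ≤ E * δ ^ 2 := mul_le_mul_of_nonneg_right H.KE (sq_nonneg δ)
  have a2 : δ ^ 2 ≤ 2 * (C * (τ * r)) ^ 2 + 2 * (C * D) ^ 2 := by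
    have c1 : δ ≤ C * (τ * r) + C * D := by linarith
    have c2 : δ ^ 2 ≤ (C * (τ * r) + C * D) ^ 2 := pow_le_pow_left₀ hδ0 c1 2
    nlinarith [sq_nonneg (C * (τ * r) - C * D)]
  have a3 : E * (C * (τ * r)) ^ 2 ≤ 1 / 1000 * κ := by
    have c1 : C ^ 2 * τ ≤ 1 / 1000 * c₁ := by
      have d1 : C ^ 2 * τ ≤ C ^ 2 * ε := mul_le_mul_of_nonneg_left H.τ1 (sq_nonneg C)
      have d2 : C ^ 2 * ε ≤ C ^ 2 * (1 + Z) * ε := by
        apply mul_le_mul_of_nonneg_right _ H.ε0.le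
        nlinarith [sq_nonneg C]
      have d3 : c * c₁ ≤ 1 * c₁ := mul_le_mul_of_nonneg_right H.c1 H.c₁0.le
      have := H.ε1
      have := H.c₁0
      linarith
    have c2 : C ^ 2 * τ * τ ≤ 1 / 1000 * φ := by
      have := mul_le_mul_of_nonneg_right c1 H.τ0
      linarith
    have c3 := mul_le_mul_of_nonneg_right c2 m0.le
    rw [e]; linarith
  have a4 : E * (C * D) ^ 2 ≤ 1 / 1000 * κ := by
    have hφr : 0 ≤ φ * r ^ 2 := by positivity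
    have c0 : 0 ≤ C * D := by positivity
    have c1 : (C * D) ^ 2 ≤ (x / 5 * (φ * r)) ^ 2 := pow_le_pow_left₀ c0 b2 2
    have c2 : (x / 5 * (φ * r)) ^ 2 = x * x / 25 * (φ * (φ * r ^ 2)) := by ring
    have c3 : x * x ≤ 1 / 100 := by nlinarith
    have c4 : φ * (φ * r ^ 2) ≤ 1 * (φ * r ^ 2) := mul_le_mul_of_nonneg_right hφ1 hφr
    have c5 : x * x / 25 * (φ * (φ * r ^ 2)) ≤ 1 / 100 / 25 * (1 * (φ * r ^ 2)) :=
      mul_le_mul (by linarith) c4 (by positivity) (by norm_num)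
    have c6 := mul_le_mul_of_nonneg_left (c1.trans (c2.le.trans c5)) hE.le
    have c7 : 0 ≤ φ * (E * r ^ 2) := by positivity
    rw [e]; linarith
  have a5 := mul_le_mul_of_nonneg_left a2 hE.le
  have a6 := H.κ0
  linarith

/-- Condition (hA₁). -/
lemma Nm.cA1 {γ δ ζ a₂ ω m₁ : ℝ} (hγ : c * τ ≤ γ) (hδ0 : 0 ≤ δ)
    (hδ : δ ≤ C * (τ * r + (d₁ * r + h₀))) (hζ : ζ ≤ C * ((d₁ * r + h₀) * r))
    (ha₂ : a₂ ≤ C * (d₂ * r ^ 2 + (d₁ * r + h₀) ^ 2 + h₁ * r))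
    (hω : ω ≤ C * (d₁ * r + h₀)) (hm₁ : m₁ = κ / 4 + E * (N / E + G) * γ) :
    2 * (K * δ ^ 2) + 31 * (E * (N / E + G) * δ) + 74 * (E * ζ) + 2 * (E * a₂) +
        9 * (E * r * ω) ≤ m₁ / 4 := by
  have t5 := H.cKδ hδ0 hδ
  have cτ := H.cτ hγ
  obtain ⟨φ, x, e, h0, hφ1, h1, x0, xZ, x1, b1, b2, b3, b4⟩ := H.bds
  have hC := H.C1
  have hE := H.E0
  have hr := H.r0
  have m0 := H.m0
  have κ0 : 0 ≤ κ := H.κ0
  have hp0 := H.p_nonneg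
  have hp1 := H.p_le
  have hγ0 : 0 ≤ γ := le_trans (mul_nonneg H.c0.le H.τ0) hγ
  have t1 : 74 * (E * ζ) ≤ 74 / 5 * x * κ := by
    have := mul_le_mul_of_nonneg_left (hζ.trans b3) hE.le
    rw [e]; linarith
  have t2 : 2 * (E * a₂) ≤ x * κ := by
    have := mul_le_mul_of_nonneg_left (ha₂.trans b4) hE.le
    rw [e]; linarith
  have t3 : 9 * (E * r * ω) ≤ 9 / 5 * x * κ := by
    have := mul_le_mul_of_nonneg_left (hω.trans b2) (by positivity : 0 ≤ E * r)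
    rw [e]; linarith
  obtain ⟨p, hp⟩ : ∃ p, p = N / E + G := ⟨_, rfl⟩
  rw [← hp] at hp0 hp1 hm₁ ⊢
  have hEp : 0 ≤ E * p := by positivity
  have t4 : 31 * (E * p * δ) ≤ 1 / 16 * (E * p * γ) + x * κ := by
    have a2 : δ ≤ 1 / 1000 * γ + x / 5 * (φ * r) := by linarith
    have a3 := mul_le_mul_of_nonneg_left a2 hEp
    have a4 : E * p * (x / 5 * (φ * r)) ≤ E * (r / 32) * (x / 5 * (φ * r)) := by
      apply mul_le_mul_of_nonneg_right _ (by positivity)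
      exact mul_le_mul_of_nonneg_left hp1 hE.le
    have a5 : 0 ≤ E * p * γ := by positivity
    have a6 : 0 ≤ x * (φ * (E * r ^ 2)) := by positivity
    rw [e]; linarith
  have t6 : x * κ ≤ 1 / 10 ^ 5 * κ := mul_le_mul_of_nonneg_right x1 κ0
  have t7 : 0 ≤ E * p * γ := by positivity
  rw [hm₁]; linarith

/-- Condition (hA₂). -/
lemma Nm.cA2 {ϱ γ δ ζ a₁ m₁ m₂ : ℝ} (hϱ : 1 / 2 ≤ ϱ) (hϱ2 : ϱ ≤ 2) (hγ : c * τ ≤ γ)
    (hδ0 : 0 ≤ δ) (hζ0 : 0 ≤ ζ) (ha₁0 : 0 ≤ a₁)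
    (hδ : δ ≤ C * (τ * r + (d₁ * r + h₀))) (hζ : ζ ≤ C * ((d₁ * r + h₀) * r))
    (ha₁ : a₁ ≤ C * (d₁ * r + h₀)) (hm₁ : m₁ = κ / 4 + E * (N / E + G) * γ)
    (hm₂ : m₂ = κ / (3600 * (1 + Z) * (ϱ * r) ^ 2)) :
    32 * (E * (4 * (δ * r) + 8 * (ζ * r) + 2 * a₁)) ^ 2 ≤ m₁ * m₂ := by
  obtain ⟨φ, x, e, h0, hφ1, h1, x0, xZ, x1, b1, b2, b3, b4⟩ := H.bds
  have hE := H.E0
  have hr := H.r0
  have hZ := H.Z0
  have κ0 : 0 ≤ κ := H.κ0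
  have hp0 := H.p_nonneg
  have hr1 : r ≤ 1 / 10 ^ 6 := H.r1.trans H.ε3
  have hγ0 : 0 ≤ γ := le_trans (mul_nonneg H.c0.le H.τ0) hγ
  have hφr : 0 ≤ φ * r := by positivity
  have hxφ : 0 ≤ x * (φ * r) := by positivity
  have a1 : 4 * (δ * r) + 8 * (ζ * r) + 2 * a₁ ≤ 6 * x * (φ * r) := by
    have c1 := mul_le_mul_of_nonneg_right (hδ.trans b1) hr.le
    have c2 : ζ * r ≤ x / 5 * (φ * r) := by
      have c3 := mul_le_mul_of_nonneg_right (hζ.trans b3) hr.le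
      have c4 : x / 5 * (φ * r) * (r * r) ≤ x / 5 * (φ * r) * 1 := by
        apply mul_le_mul_of_nonneg_left _ (by positivity)
        nlinarith
      linarith
    have c5 := ha₁.trans b2
    linarith
  have a0 : 0 ≤ 4 * (δ * r) + 8 * (ζ * r) + 2 * a₁ := by positivity
  have a2 : (E * (4 * (δ * r) + 8 * (ζ * r) + 2 * a₁)) ^ 2 ≤ (E * (6 * x * (φ * r))) ^ 2 :=
    pow_le_pow_left₀ (by positivity) (mul_le_mul_of_nonneg_left a1 hE.le) 2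
  have a3 : κ / 4 * m₂ ≤ m₁ * m₂ := by
    apply mul_le_mul_of_nonneg_right
    · rw [hm₁]
      have : 0 ≤ E * (N / E + G) * γ := by positivity
      linarith
    · rw [hm₂]; positivity
  have a4 : κ / (14400 * (1 + Z) * r ^ 2) ≤ m₂ := by
    rw [hm₂]
    apply div_le_div_of_nonneg_left κ0 (by positivity)
    rw [mul_pow]
    have : ϱ ^ 2 ≤ 4 := by nlinarith
    have := mul_le_mul_of_nonneg_right this (by positivity : 0 ≤ 3600 * (1 + Z) * r ^ 2)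
    linarith
  have a5 : κ / 4 * (κ / (14400 * (1 + Z) * r ^ 2)) ≤ κ / 4 * m₂ :=
    mul_le_mul_of_nonneg_left a4 (by positivity)
  have a6 : κ / 4 * (κ / (14400 * (1 + Z) * r ^ 2)) =
      1 / (57600 * (1 + Z)) * (E * (φ * r)) ^ 2 := by
    rw [e]; field_simp; ring
  have a7 : 32 * (E * (6 * x * (φ * r))) ^ 2 =
      1152 * x ^ 2 * (E * (φ * r)) ^ 2 := by ring
  have a8 : 1152 * x ^ 2 ≤ 1 / (57600 * (1 + Z)) := by
    rw [le_div_iff₀ (by positivity)]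
    have : x ^ 2 * (1 + Z) = x * (1 / 10 ^ 5) := by rw [← xZ]; ring
    calc 1152 * x ^ 2 * (57600 * (1 + Z)) = 1152 * 57600 * (x ^ 2 * (1 + Z)) := by
          ring
      _ = 1152 * 57600 * (x * (1 / 10 ^ 5)) := by rw [this]
      _ ≤ 1 := by linarith
  have a9 := mul_le_mul_of_nonneg_right a8 (sq_nonneg (E * (φ * r)))
  linarith

/-- The smallness of `δ`, `ζ`. -/
lemma Nm.cδ {δ ζ : ℝ} (hδ : δ ≤ C * (τ * r + (d₁ * r + h₀)))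
    (hζ : ζ ≤ C * ((d₁ * r + h₀) * r)) : δ ≤ 1 ∧ ζ ≤ r := by
  obtain ⟨φ, x, e, h0, hφ1, h1, x0, xZ, x1, b1, b2, b3, b4⟩ := H.bds
  have hr := H.r0
  have hr1 : r ≤ 1 / 10 ^ 6 := H.r1.trans H.ε3
  constructor
  · have : x * φ ≤ 1 * 1 := mul_le_mul (by linarith) hφ1 h0 (by norm_num)
    linarith
  · have c4 : x / 5 * (φ * r) * r ≤ 1 * r := by
      apply mul_le_mul_of_nonneg_right _ hr.le
      have c5 : φ * r ≤ 1 * 1 := mul_le_mul hφ1 (by linarith) hr.le (by norm_num)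
      have : x / 5 * (φ * r) ≤ 1 * 1 :=
        mul_le_mul (by linarith) (by linarith) (by positivity) (by norm_num)
      linarith
    linarith

end

end Vale.Agent.P088.R2.H942.Iso.Near
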