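import Vale.Agent.P088.R2.H942.Zt3
import Vale.Agent.P088.R2.H86.Z.PT1

/-!
# P088, stage 3: zone II, pointwise (7): the pointwise theorem with the numbers

`near_num`: the numbers `Nm` with the profile `Fs 4` and the bounds of the vectors give the
certificate at a point.
-/

noncomputable section

namespace Vale.Agent.P088.R2.H942.Iso.Near

open Real Set
open Vale.Agent.P088.R2.H230.W (dd nn TT dd_self_nonneg nn_nonneg)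
open Vale.Agent.P088.R2.H644 (Fs Fs1 Fs2)
open Vale.Agent.P088.R2.H86.Z (cm near_pt)

variable {ι : Type*} [Fintype ι]

/-- The bounds of the vectors at a point (frames `e₁, e₂` of the slopes, `q₁, q₂` of the
difference) against the model `e, q`. -/
structure Vc (e q e₁ e₂ q₁ q₂ v₁ v₂ c₁ c₂ : ι → ℝ) (ϱ r δ ζ ω : ℝ) : Prop where
  he : dd e e = 1
  hq : dd q q = r ^ 2
  ϱ1 : 1 / 2 ≤ ϱ
  ϱ2 : ϱ ≤ 2
  d1 : nn (e₁ - ϱ • e) ≤ δ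
  d2 : nn (e₂ - ϱ • e) ≤ δ
  g1 : nn (q₁ - q) ≤ ζ
  g2 : nn (q₂ + q) ≤ ζ
  c1 : nn (v₁ - c₁) ≤ ω
  c2 : nn (v₂ - c₂) ≤ ω

section
variable {C c c₁ ε E N K τ r d₁ d₂ h₀ h₁ μ b κ : ℝ}

/-- **Zone II, pointwise, with numbers.** -/
theorem near_num {e q e₁ e₂ q₁ q₂ v₁ v₂ U V : ι → ℝ} {ϱ ζ δ ω a₁ a₂ γ ϖ hu hr : ℝ}
    (H : Nm C c c₁ 8 ε E N K τ r d₁ d₂ h₀ h₁ (Fs 4 (r ^ 2)) μ b κ)
    (A : Vc e q e₁ e₂ q₁ q₂ v₁ v₂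
      (cm e q ϱ (Fs 4 (r ^ 2)) (2 * Fs1 4 (r ^ 2)) (4 * Fs2 4 (r ^ 2)) (dd e q) (r ^ 2)
        (N / E + Fs 4 (r ^ 2)) κ E)
      (cm e (-q) ϱ (Fs 4 (r ^ 2)) (2 * Fs1 4 (r ^ 2)) (4 * Fs2 4 (r ^ 2)) (-dd e q) (r ^ 2)
        (N / E + Fs 4 (r ^ 2)) κ E) ϱ r δ ζ ω)
    (hγ : c * τ ≤ γ) (hϖ : c * (μ + τ) - C * b ≤ ϖ)
    (hr' : |hr - dd (U - V) (U - V)| ≤ a₁ * (nn (U - V) * (nn U + nn V)) +
      a₂ * (dd U U + dd V V))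
    (hu' : γ * (dd U U + dd V V) + ϖ * (dd e U + dd e V) ^ 2 ≤ hu)
    (hδ : δ ≤ C * (τ * r + (d₁ * r + h₀))) (hζ : ζ ≤ C * ((d₁ * r + h₀) * r))
    (ha₁0 : 0 ≤ a₁) (ha₁ : a₁ ≤ C * (d₁ * r + h₀))
    (ha₂0 : 0 ≤ a₂) (ha₂ : a₂ ≤ C * (d₂ * r ^ 2 + (d₁ * r + h₀) ^ 2 + h₁ * r))
    (hω : ω ≤ C * (d₁ * r + h₀)) :
    (κ / 8 + (N + E * Fs 4 (r ^ 2)) * γ / 2) * (dd U U + dd V V) +
        κ / (259200 * r ^ 2) * dd (U - V) (U - V) ≤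
      K * (dd e₁ U + dd e₂ V) ^ 2 + (N + E * Fs 4 (r ^ 2)) * hu +
      E * (Fs 4 (r ^ 2) * (dd e₁ U + dd e₂ V) ^ 2 +
        2 * (2 * Fs1 4 (r ^ 2)) * (dd e₁ U + dd e₂ V) * (dd q₁ U + dd q₂ V) +
        4 * Fs2 4 (r ^ 2) * (dd q₁ U + dd q₂ V) ^ 2 + 2 * Fs1 4 (r ^ 2) * hr) +
      TT v₁ ((N + E * Fs 4 (r ^ 2)) • e₁ + (E * (2 * Fs1 4 (r ^ 2))) • q₁) U +
      TT v₂ ((N + E * Fs 4 (r ^ 2)) • e₂ + (E * (2 * Fs1 4 (r ^ 2))) • q₂) V := by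
  have hr0 := H.r0
  have hE := H.E0
  have hε := H.ε3
  have hr1 := H.r1
  have hrr : r ≤ 1 / 10 ^ 6 := hr1.trans hε
  have hϱ := A.ϱ1
  have hϱ2 := A.ϱ2
  have hϱ0 : 0 < ϱ := by linarith only [hϱ]
  have e4 : (4 : ℝ) = 2 ^ 2 := by norm_num
  obtain ⟨z0, z1, G0, G1, k1, k2⟩ := Fs2_bd (θ := 2) two_pos hr0 (by linarith only [hrr])
    (by linarith only [hrr]) (by norm_num)
  have hϱr : ϱ * r ≤ 2 * r := mul_le_mul_of_nonneg_right hϱ2 hr0.le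
  have sm := small_Fs (ϱ := ϱ) (θ := 2) hϱ0 two_pos (by nlinarith only [hϱ0, hϱ2]) hr0
    (by linarith only [hrr, hϱr]) (by linarith only [hrr])
  have sz := Fs2_le (ϱ := ϱ) (θ := 2) hϱ0 two_pos hr0 (by linarith only [hrr])
  rw [← e4] at z0 z1 G0 G1 k1 k2 sm sz
  have sz8 : 4 * Fs2 4 (r ^ 2) / ϱ ^ 2 ≤ 8 := by
    refine sz.trans ?_
    rw [div_pow, ← mul_div_assoc, div_le_iff₀ (by positivity)]
    nlinarith only [hϱ]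
  obtain ⟨δ1, ζ1⟩ := H.cδ hδ hζ
  have hδ0 : 0 ≤ δ := (nn_nonneg _).trans A.d1
  have hζ0 : 0 ≤ ζ := (nn_nonneg _).trans A.g1
  have hp0 := H.p_nonneg
  have hp1 := H.p_le
  have hN0 : 0 ≤ N / E := div_nonneg H.N0 hE.le
  have hG0 : 0 ≤ Fs 4 (r ^ 2) := le_trans (by positivity) G0
  have hγ0 : 0 ≤ γ := le_trans (mul_nonneg H.c0.le H.τ0) hγ
  have κ0 := H.κ0
  have pe := H.p_eq
  have hp' : ϱ * (N / E + Fs 4 (r ^ 2)) ≤ 2 * Fs1 4 (r ^ 2) * r / 2 := by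
    have a1 : ϱ * (N / E + Fs 4 (r ^ 2)) ≤ 2 * (r / 32) := mul_le_mul hϱ2 hp1 hp0 (by norm_num)
    have a2 : 1 * r ≤ 2 * Fs1 4 (r ^ 2) * r := mul_le_mul_of_nonneg_right k1.le hr0.le
    linarith only [a1, a2, hr0]
  have main := near_pt (E := E) (K := K) (κ := κ) (δ := δ) (ζ := ζ) (ω := ω) (a₁ := a₁) (a₂ := a₂)
    (γ := γ) (ϖ := ϖ) (hu := hu) (hr := hr) (Z := 8)
    (m₁ := κ / 4 + E * (N / E + Fs 4 (r ^ 2)) * γ)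
    (m₂ := κ / (3600 * (1 + 8) * (ϱ * r) ^ 2)) (p := N / E + Fs 4 (r ^ 2))
    sm hϱ hϱ2 A.he A.hq hr0 (by linarith only [hrr, hϱr]) sz8 (by linarith only [k2]) z0
    (by linarith only [z1]) hG0 (by linarith only [hN0])
    hp' hE H.K0 κ0 (H.cK hϱ hϖ) (H.cE hϱ) A.d1 A.d2 A.g1 A.g2 δ1 ζ1 hr' hu' A.c1 A.c2 ha₁0 ha₂0
    rfl rfl (H.cA1 hγ hδ0 hδ hζ ha₂ hω rfl) (H.cA2 hϱ hϱ2 hγ hδ0 hζ0 ha₁0 hδ hζ ha₁ rfl rfl)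
  rw [pe] at main
  refine le_trans ?_ main
  have b1 : κ / (259200 * r ^ 2) ≤ κ / (3600 * (1 + 8) * (ϱ * r) ^ 2) / 2 := by
    rw [div_div]
    apply div_le_div_of_nonneg_left κ0 (by positivity)
    rw [mul_pow]
    have a1 : ϱ ^ 2 ≤ 4 := by nlinarith only [hϱ0, hϱ2]
    have a2 := mul_le_mul_of_nonneg_right a1 (sq_nonneg r)
    linarith only [a2]
  have b2 := mul_le_mul_of_nonneg_right b1 (dd_self_nonneg (U - V))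
  linarith only [b2]

end

end Vale.Agent.P088.R2.H942.Iso.Near
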