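import Vale.Agent.P088.R2.H942.Zt4
import Vale.Agent.P088.R2.H86.Z.PT5

/-!
# P088, stage 3, zone II: the certificate for the actual weight, with numbers

`cert_II`: as helper86's `pt_II`, with the numbers of `Nm` (profile `Fs 4`). A part of the convexity
of the level is used in the direction of the slope.
-/

open Set Filter
open scoped ContDiff Topology Matrix

noncomputable section

namespace Vale.Agent.P088.R2.H942.Z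

open Vale.Agent.P088.LR Vale.Agent.P088.R2.H961.GW Vale.Agent.P088.R2.H644.Ch
open Vale.Agent.P088.HY hiding dd dd_comm
open Vale.Agent.P088.R2.H464.Cu hiding uf
open Vale.Agent.P088.R2.H230.W
open Vale.Agent.P088.R2.H644 (Fs Fs1 Fs2)
open Vale.Agent.P088.R2.H86.Z
open Vale.Agent.P088.R2.H983.Fl (Wn fdc alS beS eu bb lam gl al_be aa')
open Vale.Agent.P088.R2.H942.Iso.Near (cn kf Small dd_neg_right dd_neg_neg Nm Vc near_num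
  small_Fs Fs2_bd)

variable {n : ℕ} {O : Set (V n)} {ε δ₁ δ₂ h₀ h₁ D G K₂ γ₀ : ℝ} {w : Wn n} {s₂ : MF n} {z : VV n}
  {F₁ F₂ Ψ : Matrix (Fin n) (Fin n) ℝ} {Φ μ : ℝ → ℝ} {W : VV n → ℝ} {U : Set (VV n)}

/-- The numbers at a point of zone II: helper983's functions, the profile `Fs 4`, the constants. -/
structure NmW (w : Wn n) (C c c₁ ε' τ r δ₁ δ₂ h₀ h₁ D G K₂ γ₀ M b κ Λ CK : ℝ) (kE : VV n → ℝ)
    (z : VV n) : Prop where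
  nm : Nm C c c₁ 8 ε' (Real.exp (w.u z)) (w.Φ₁ (w.u z)) (w.Φ₂ (w.u z)) τ r δ₁ δ₂ h₀ h₁
    (Fs 4 (r ^ 2)) M b κ
  r2 : w.r2 z = r ^ 2
  eG : w.G z = Fs 4 (r ^ 2)
  ek : w.k z = 2 * Fs1 4 (r ^ 2)
  ey : w.y z = 4 * Fs2 4 (r ^ 2)
  q : ‖dif z‖ ≤ 2 * r
  κE : κ / Real.exp (w.u z) = w.a z ^ 2 * kE z
  μ1 : |w.μ₁ (lm w.l z)| ≤ 1
  a1 : 1 / 2 ≤ w.a z
  a2 : w.a z ≤ 2
  Λ1 : lam w.s w.l (mid z) ≤ Λ
  K1 : K₂ ≤ CK * τ
  C1 : 16 * n ^ 7 * Λ ≤ C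
  C2 : 4 * n ^ 3 * CK ≤ C
  C3 : 13568 * (n + 1) ^ 16 ≤ C
  /-- the correction, along the slope; a part of `τ` may be used -/
  m1 : c * M - C * b - c * τ ≤ w.μ₂ (lm w.l z) * lam w.s w.l (mid z) ^ 2 / 4
  m2 : c * M - C * b - c * τ ≤ w.μ₂ (lm w.l z) * lam w.s w.l (mid z) ^ 2
  /-- the convexity of the level; a part `ℓ` of the loss is paid by `κ` -/
  γ : ∃ ℓ : ℝ, 0 ≤ ℓ ∧ (w.Φ₁ (w.u z) + Real.exp (w.u z) * Fs 4 (r ^ 2)) * ℓ ≤ κ / 64 ∧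
    8 * (c * τ) - ℓ ≤ γ₀ / 4 - 28 * n ^ 4 * (δ₁ * G) - 16 * n ^ 4 * (|w.μ₁ (lm w.l z)| * K₂) -
      32 * n ^ 14 * (|w.μ₂ (lm w.l z)| * (D * lam w.s w.l (mid z)) ^ 2)

/-- **Zone II: the certificate for the actual weight, with numbers.** -/
theorem cert_II {C c c₁ ε' τ r M b κ Λ CK : ℝ} {kE : VV n → ℝ}
    (d : Gd O ε δ₁ δ₂ h₀ h₁ G K₂ γ₀ w s₂ z) (bw : Wl O w Φ μ W z U)
    (f : Fr2 w.s s₂ w.g ε D z F₁ F₂ Ψ) (hD : D = δ₁ * ‖dif z‖ + h₀) (hD1 : 8 * n ^ 6 * D ≤ 1)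
    (H : NmW w C c c₁ ε' τ r δ₁ δ₂ h₀ h₁ D G K₂ γ₀ M b κ Λ CK kE z) (A B : V n) :
    (7 / 64 * κ + (w.Φ₁ (w.u z) + Real.exp (w.u z) * Fs 4 (r ^ 2)) * (4 * (c * τ)) / 2) *
        (dd (F₁ *ᵥ A) (F₁ *ᵥ A) + dd (F₂ *ᵥ B) (F₂ *ᵥ B)) +
        κ / (259200 * r ^ 2) * dd (F₁ *ᵥ A - F₂ *ᵥ B) (F₁ *ᵥ A - F₂ *ᵥ B) ≤
      TH (sx w.s) (sy s₂) W z A B + H960.W.tc (sx w.s) (w.c₁ kE) W z A +
        H960.W.tc (sy s₂) (w.c₂ kE) W z B := by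
  have Nn := H.nm
  obtain ⟨ℓ, ℓ0, ℓ1, ℓ2⟩ := H.γ
  have hμ := H.μ1
  have hϱ := H.a1
  have hϱ2 := H.a2
  have hs0 := Nn.r0
  have hs2 := H.r2
  have hκE := H.κE
  have hq2 := H.q
  have C1 := Nn.C1
  have C0 : 0 ≤ C := by linarith only [C1]
  have c0 := Nn.c0
  have τ0 := Nn.τ0
  have n0 : (0 : ℝ) ≤ n := Nat.cast_nonneg n
  have D0 : 0 ≤ D := by
    have := norm_nonneg (dif z)
    have := d.hδ
    have := d.hh0
    rw [hD]; positivity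
  have q0 : 0 ≤ ‖dif z‖ := norm_nonneg _
  have hϱ0 : 0 < w.a z := by linarith only [hϱ]
  have hE0 := Real.exp_pos (w.u z)
  have D1 : D ≤ 2 * (δ₁ * r + h₀) := by
    rw [hD]
    have := mul_le_mul_of_nonneg_left hq2 d.hδ
    linarith only [this, d.hh0]
  have Dr0 : 0 ≤ δ₁ * r + h₀ := by
    have := d.hδ
    have := d.hh0
    positivity
  have dn : (1 : ℝ) ≤ n + 1 := by linarith only [n0]
  -- the errors
  have eδ : 8 * n ^ 7 * D * lam w.s w.l (mid z) + 2 * n ^ 3 * K₂ * ‖dif z‖ ≤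
      C * (τ * r + (δ₁ * r + h₀)) := by
    have l0 := d.hl0.le
    have a1 : 8 * n ^ 7 * D * lam w.s w.l (mid z) ≤ C * (δ₁ * r + h₀) := by
      have b1 : 8 * n ^ 7 * D * lam w.s w.l (mid z) ≤ 8 * n ^ 7 * (2 * (δ₁ * r + h₀)) * Λ := by
        have := H.Λ1
        gcongr
      calc _ ≤ 8 * n ^ 7 * (2 * (δ₁ * r + h₀)) * Λ := b1
        _ = 16 * n ^ 7 * Λ * (δ₁ * r + h₀) := by ring
        _ ≤ C * (δ₁ * r + h₀) := mul_le_mul_of_nonneg_right H.C1 Dr0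
    have a2 : 2 * n ^ 3 * K₂ * ‖dif z‖ ≤ C * (τ * r) := by
      have b1 : 2 * n ^ 3 * K₂ * ‖dif z‖ ≤ 2 * n ^ 3 * (CK * τ) * (2 * r) := by
        have := H.K1
        have k0 := d.hK0
        have : 0 ≤ CK * τ := k0.trans this
        gcongr
      calc _ ≤ 2 * n ^ 3 * (CK * τ) * (2 * r) := b1
        _ = 4 * n ^ 3 * CK * (τ * r) := by ring
        _ ≤ C * (τ * r) := mul_le_mul_of_nonneg_right H.C2 (by positivity)
    linarith only [a1, a2]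
  have n16 : (n + 1 : ℝ) ^ 9 ≤ (n + 1) ^ 16 := pow_le_pow_right₀ dn (by norm_num)
  have n7 : (n : ℝ) ^ 7 ≤ (n + 1) ^ 16 :=
    (pow_le_pow_left₀ n0 (by linarith only : (n : ℝ) ≤ n + 1) 7).trans
      (pow_le_pow_right₀ dn (by norm_num))
  have C3 := H.C3
  have eζ : 17 * (n + 1) ^ 9 * (D * ‖dif z‖) ≤ C * ((δ₁ * r + h₀) * r) := by
    have a1 : D * ‖dif z‖ ≤ 2 * (δ₁ * r + h₀) * (2 * r) := mul_le_mul D1 hq2 q0 (by positivity)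
    calc 17 * (n + 1) ^ 9 * (D * ‖dif z‖) ≤
          17 * (n + 1) ^ 16 * (2 * (δ₁ * r + h₀) * (2 * r)) := by gcongr
      _ = 68 * (n + 1) ^ 16 * ((δ₁ * r + h₀) * r) := by ring
      _ ≤ C * ((δ₁ * r + h₀) * r) := by
          apply mul_le_mul_of_nonneg_right _ (by positivity)
          have : (0 : ℝ) ≤ (n + 1) ^ 16 := by positivity
          linarith only [this, C3]
  have eom : 168 * n ^ 7 * D ≤ C * (δ₁ * r + h₀) := by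
    calc 168 * n ^ 7 * D ≤ 168 * (n + 1) ^ 16 * (2 * (δ₁ * r + h₀)) := by gcongr
      _ = 336 * (n + 1) ^ 16 * (δ₁ * r + h₀) := by ring
      _ ≤ C * (δ₁ * r + h₀) := by
          apply mul_le_mul_of_nonneg_right _ Dr0
          have : (0 : ℝ) ≤ (n + 1) ^ 16 := by positivity
          linarith only [this, C3]
  have ea₁ : 848 * (n + 1) ^ 16 * D ≤ C * (δ₁ * r + h₀) := by
    calc 848 * (n + 1) ^ 16 * D ≤ 848 * (n + 1) ^ 16 * (2 * (δ₁ * r + h₀)) := by gcongr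
      _ = 1696 * (n + 1) ^ 16 * (δ₁ * r + h₀) := by ring
      _ ≤ C * (δ₁ * r + h₀) := by
          apply mul_le_mul_of_nonneg_right _ Dr0
          have : (0 : ℝ) ≤ (n + 1) ^ 16 := by positivity
          linarith only [this, C3]
  have ea₂ : 3392 * (n + 1) ^ 16 * (δ₂ * ‖dif z‖ ^ 2 + D ^ 2 + h₁ * ‖dif z‖) ≤
      C * (δ₂ * r ^ 2 + (δ₁ * r + h₀) ^ 2 + h₁ * r) := by
    have t0 := d.hδ'
    have t1 := d.hh1
    have a1 : δ₂ * ‖dif z‖ ^ 2 ≤ 4 * (δ₂ * r ^ 2) := by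
      have : ‖dif z‖ ^ 2 ≤ (2 * r) ^ 2 := pow_le_pow_left₀ q0 hq2 2
      have := mul_le_mul_of_nonneg_left this t0
      linarith only [this]
    have a2 : D ^ 2 ≤ 4 * (δ₁ * r + h₀) ^ 2 := by
      have : D ^ 2 ≤ (2 * (δ₁ * r + h₀)) ^ 2 := pow_le_pow_left₀ D0 D1 2
      linarith only [this]
    have a3 : h₁ * ‖dif z‖ ≤ 4 * (h₁ * r) := by
      have := mul_le_mul_of_nonneg_left hq2 t1
      have : 0 ≤ h₁ * r := by positivity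
      linarith
    have a0 : 0 ≤ δ₂ * r ^ 2 + (δ₁ * r + h₀) ^ 2 + h₁ * r := by positivity
    calc 3392 * (n + 1) ^ 16 * (δ₂ * ‖dif z‖ ^ 2 + D ^ 2 + h₁ * ‖dif z‖) ≤
          3392 * (n + 1) ^ 16 * (4 * (δ₂ * r ^ 2 + (δ₁ * r + h₀) ^ 2 + h₁ * r)) := by
          apply mul_le_mul_of_nonneg_left _ (by positivity)
          linarith only [a1, a2, a3]
      _ = 13568 * (n + 1) ^ 16 * (δ₂ * r ^ 2 + (δ₁ * r + h₀) ^ 2 + h₁ * r) := by ring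
      _ ≤ _ := mul_le_mul_of_nonneg_right C3 a0
  -- the vectors
  obtain ⟨e, he⟩ : ∃ e, e = ev Ψ w.s w.l z := ⟨_, rfl⟩
  obtain ⟨q, hq⟩ : ∃ q, q = tv Ψ z := ⟨_, rfl⟩
  have he1 : dd e e = 1 := by rw [he]; exact ev_one f.yp f.qp d.hg d.hl0
  have hqq : dd q q = w.r2 z := by rw [hq]; exact tv_sq f
  have hbq : dd e q = w.b z := by rw [he, hq]; exact ev_tv f.yp f.qp d.hg d.hl0
  have hqs : dd q q = r ^ 2 := by rw [hqq, hs2]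
  have ht : |1 + w.μ₁ (lm w.l z)| ≤ 2 := by
    rw [abs_le] at hμ ⊢
    constructor <;> linarith only [hμ.1, hμ.2]
  obtain ⟨g1, g2⟩ := grad_um d.hO d.hc d.hx d.hy d.hl bw.cμ d.hK d.hK0 f d.hg d.hl0 D0 ht
  have ea : aa' w.s w.l w.μ₁ z = w.a z := rfl
  rw [ea, ← he] at g1 g2
  obtain ⟨r1, r2⟩ := grad_fr d.hO d.hc d.ng d.hδ d.hh0 d.hx d.hy hD f
  rw [← hq] at r1 r2
  have rn : ∀ v : V n, ‖v‖ ≤ 17 * (n + 1) ^ 8 * (D * ‖dif z‖) →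
      nn v ≤ C * ((δ₁ * r + h₀) * r) := by
    intro v hv
    refine ((nn_le_norm v).trans ?_).trans eζ
    have c0 : 0 ≤ D * ‖dif z‖ := mul_nonneg D0 (norm_nonneg _)
    calc (n : ℝ) * ‖v‖ ≤ (n + 1) * (17 * (n + 1) ^ 8 * (D * ‖dif z‖)) := by
          refine mul_le_mul (by linarith) hv (norm_nonneg _) (by positivity)
      _ = _ := by ring
  have hr := hr_fr d.hO d.hc d.n₁ d.n₂ d.ng d.hh d.hδ d.hδ' d.hh0 d.hh1 d.hε1 d.hε d.hx d.hy hD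
    f A B
  have hu := TH_um d.hO d.hc d.n₁ d.n₂ d.hε1 d.hx d.hy d.hl bw.cμ d.hG d.hK d.hK0 d.hG0 d.hδ f
    d.hg d.hl0 D0 d.hγ0 d.cv1 d.cv2 hμ H.m1 H.m2 ℓ2 A B
  rw [← he] at hu
  -- a part of the convexity of the level in the direction of the slope
  have hu2 : 4 * (c * τ) * (dd (F₁ *ᵥ A) (F₁ *ᵥ A) + dd (F₂ *ᵥ B) (F₂ *ᵥ B)) +
      (c * M - C * b + c * τ) * (dd e (F₁ *ᵥ A) + dd e (F₂ *ᵥ B)) ^ 2 ≤
      TH (sx w.s) (sy s₂) (um w.l μ) z A B +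
        ℓ * (dd (F₁ *ᵥ A) (F₁ *ᵥ A) + dd (F₂ *ᵥ B) (F₂ *ᵥ B)) := by
    refine le_trans ?_ (add_le_add hu le_rfl)
    have a1 := dd_cs e (F₁ *ᵥ A)
    have a2 := dd_cs e (F₂ *ᵥ B)
    rw [he1, one_mul] at a1 a2
    have a3 : (dd e (F₁ *ᵥ A) + dd e (F₂ *ᵥ B)) ^ 2 ≤
        2 * (dd (F₁ *ᵥ A) (F₁ *ᵥ A) + dd (F₂ *ᵥ B) (F₂ *ᵥ B)) := by
      linarith only [a1, a2, sq_nonneg (dd e (F₁ *ᵥ A) - dd e (F₂ *ᵥ B))]
    have a4 := mul_le_mul_of_nonneg_left a3 (by positivity : 0 ≤ 2 * (c * τ))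
    linarith only [a4]
  -- the fields
  obtain ⟨v₁, hv₁⟩ := fr_inv f.p1 (fun i => w.c₁ kE i z)
  obtain ⟨v₂, hv₂⟩ := fr_inv f.p2 (fun i => w.c₂ kE i z)
  have t1 := tc_x (W := W) f (c := w.c₁ kE) (v := v₁) (fun i => by rw [hv₁]) A
  have t2 := tc_y (W := W) f (c := w.c₂ kE) (v := v₂) (fun i => by rw [hv₂]) B
  have p1 : Ψ *ᵥ (fun i => w.c₁ kE i z) = cm e q (w.a z) (w.G z) (w.k z) (w.y z) (dd e q)
      (r ^ 2) (w.nu z + w.G z) κ (Real.exp (w.u z)) := by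
    have := psi_fd (Ψ := Ψ) (eu' := fun i => eu w.s w.l i z) (dif' := fun i => dif z i)
      (he.symm : Ψ *ᵥ _ = e) (hq.symm : Ψ *ᵥ _ = q) he1 (G := w.G z) (k := w.k z) (y := w.y z)
      (ν := w.nu z) (ka := kE z) hbq hqq hϱ0.ne' hκE
    rw [hbq, ← hs2]
    exact this
  have p2 : Ψ *ᵥ (fun i => w.c₂ kE i z) = cm e (-q) (w.a z) (w.G z) (w.k z) (w.y z) (-dd e q)
      (r ^ 2) (w.nu z + w.G z) κ (Real.exp (w.u z)) := by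
    have hq' : Ψ *ᵥ (fun i => -dif z i) = -q := by
      rw [hq]
      unfold tv
      rw [show (fun i => -dif z i) = -dif z from rfl, Matrix.mulVec_neg]
    have hb' : dd e (-q) = -w.b z := by rw [dd_neg_right, hbq]
    have hqq' : dd (-q) (-q) = w.r2 z := by
      rw [dd_neg_neg]; exact hqq
    have := psi_fd (Ψ := Ψ) (eu' := fun i => eu w.s w.l i z) (dif' := fun i => -dif z i)
      (he.symm : Ψ *ᵥ _ = e) hq' he1 (G := w.G z) (k := w.k z) (y := w.y z)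
      (ν := w.nu z) (ka := kE z) hb' hqq' hϱ0.ne' hκE
    rw [hbq, ← hs2]
    exact this
  have hpe : w.nu z = w.Φ₁ (w.u z) / Real.exp (w.u z) := by
    unfold Wn.nu; rw [div_eq_mul_inv]
  rw [H.eG, H.ek, H.ey, hpe] at p1 p2
  -- the sizes of the fields
  have hrr : r ≤ 1 / 10 ^ 6 := Nn.r1.trans Nn.ε3
  have e4 : (4 : ℝ) = 2 ^ 2 := by norm_num
  obtain ⟨z0, z1, G0, G1, k1, k2⟩ := Fs2_bd (θ := 2) two_pos hs0 (by linarith only [hrr])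
    (by linarith only [hrr]) (by norm_num)
  have hϱr : w.a z * r ≤ 2 * r := mul_le_mul_of_nonneg_right hϱ2 hs0.le
  have sm := small_Fs (ϱ := w.a z) (θ := 2) hϱ0 two_pos (by nlinarith only [hϱ0, hϱ2]) hs0
    (by linarith only [hrr, hϱr]) (by linarith only [hrr])
  rw [← e4] at z0 z1 G0 G1 k1 k2 sm
  have hG0 : 0 ≤ Fs 4 (r ^ 2) := le_trans (by positivity) G0
  have hp0 := Nn.p_nonneg
  have hp1 := Nn.p_le
  have hN0 : 0 ≤ w.Φ₁ (w.u z) / Real.exp (w.u z) := div_nonneg Nn.N0 hE0.le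
  have hp' : w.a z * (w.Φ₁ (w.u z) / Real.exp (w.u z) + Fs 4 (r ^ 2)) ≤
      2 * Fs1 4 (r ^ 2) * r / 2 := by
    have a1 : w.a z * (w.Φ₁ (w.u z) / Real.exp (w.u z) + Fs 4 (r ^ 2)) ≤ 2 * (r / 32) :=
      mul_le_mul hϱ2 hp1 hp0 (by norm_num)
    have a2 : 1 * r ≤ 2 * Fs1 4 (r ^ 2) * r := mul_le_mul_of_nonneg_right k1.le hs0.le
    linarith only [a1, a2, hs0]
  have κ0 := Nn.κ0
  have hE' : 800 * κ ≤ Real.exp (w.u z) * (w.a z * r) ^ 2 := by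
    linarith only [Nn.cE hϱ, κ0]
  have hpp : Fs 4 (r ^ 2) ≤ w.Φ₁ (w.u z) / Real.exp (w.u z) + Fs 4 (r ^ 2) := by
    linarith only [hN0]
  have m1 := nn_cm sm hϱ0 hϱ2 he1 hqs hs0 (by linarith only [hrr]) hG0 hpp hp' κ0 hE0 hE'
  have hqs' : dd (-q) (-q) = r ^ 2 := by rw [dd_neg_neg]; exact hqs
  have m2 := nn_cm sm hϱ0 hϱ2 he1 hqs' hs0 (by linarith only [hrr]) hG0 hpp hp' κ0 hE0 hE'
  rw [dd_neg_right] at m2
  have c1 := (nn_fr f.m1 D0 hD1 hv₁ p1 m1).trans (le_trans (le_of_eq (by ring)) eom)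
  have c2 := (nn_fr f.m2 D0 hD1 hv₂ p2 m2).trans (le_trans (le_of_eq (by ring)) eom)
  -- the gradients
  obtain ⟨G1', G2'⟩ := gr_W d bw
  have E1 : F₁ *ᵥ gx W z = (Real.exp (w.u z) * (w.nu z + w.G z)) • (F₁ *ᵥ gx (um w.l μ) z) +
      (Real.exp (w.u z) * w.k z) • (F₁ *ᵥ gx (rq w.g) z) := by
    rw [G1', Matrix.mulVec_add, Matrix.mulVec_smul, Matrix.mulVec_smul]
  have E2 : F₂ *ᵥ gy W z = (Real.exp (w.u z) * (w.nu z + w.G z)) • (F₂ *ᵥ gy (um w.l μ) z) +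
      (Real.exp (w.u z) * w.k z) • (F₂ *ᵥ gy (rq w.g) z) := by
    rw [G2', Matrix.mulVec_add, Matrix.mulVec_smul, Matrix.mulVec_smul]
  have hEp : Real.exp (w.u z) * (w.nu z + w.G z) =
      w.Φ₁ (w.u z) + Real.exp (w.u z) * Fs 4 (r ^ 2) := by
    rw [hpe, H.eG]; field_simp
  rw [E1, hEp, H.ek] at t1
  rw [E2, hEp, H.ek] at t2
  rw [TH_W d bw A B, t1, t2, GA_fr (W := um w.l μ) f, GA_fr (W := rq w.g) f, hEp, H.eG, H.ek, H.ey]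
  have ha₁ : 0 ≤ C * (δ₁ * r + h₀) := by positivity
  have ha₂ : 0 ≤ C * (δ₂ * r ^ 2 + (δ₁ * r + h₀) ^ 2 + h₁ * r) := by
    have := d.hδ'
    have := d.hh1
    positivity
  have hr' : |TH (sx w.s) (sy s₂) (rq w.g) z A B -
      dd (F₁ *ᵥ A - F₂ *ᵥ B) (F₁ *ᵥ A - F₂ *ᵥ B)| ≤
      C * (δ₁ * r + h₀) * (nn (F₁ *ᵥ A - F₂ *ᵥ B) * (nn (F₁ *ᵥ A) + nn (F₂ *ᵥ B))) +
      C * (δ₂ * r ^ 2 + (δ₁ * r + h₀) ^ 2 + h₁ * r) *
        (dd (F₁ *ᵥ A) (F₁ *ᵥ A) + dd (F₂ *ᵥ B) (F₂ *ᵥ B)) := by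
    refine hr.trans (add_le_add ?_ ?_)
    · refine mul_le_mul_of_nonneg_right ea₁ ?_
      exact mul_nonneg (nn_nonneg _) (add_nonneg (nn_nonneg _) (nn_nonneg _))
    · exact mul_le_mul_of_nonneg_right ea₂ (add_nonneg (dd_self_nonneg _) (dd_self_nonneg _))
  have vc : Vc e q (F₁ *ᵥ gx (um w.l μ) z) (F₂ *ᵥ gy (um w.l μ) z) (F₁ *ᵥ gx (rq w.g) z)
      (F₂ *ᵥ gy (rq w.g) z) v₁ v₂ _ _ (w.a z) r (C * (τ * r + (δ₁ * r + h₀)))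
      (C * ((δ₁ * r + h₀) * r)) (C * (δ₁ * r + h₀)) :=
    ⟨he1, hqs, hϱ, hϱ2, g1.trans eδ, g2.trans eδ, rn _ r1, rn _ r2, c1, c2⟩
  have cτ0 : 0 ≤ c * τ := mul_nonneg c0.le τ0
  have fin := near_num (U := F₁ *ᵥ A) (V := F₂ *ᵥ B) Nn vc (γ := 4 * (c * τ))
    (ϖ := c * M - C * b + c * τ) (by linarith only [cτ0]) (by linarith only) hr' hu2
    le_rfl le_rfl ha₁ le_rfl ha₂ le_rfl le_rfl
  have lo := mul_le_mul_of_nonneg_right ℓ1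
    (add_nonneg (dd_self_nonneg (F₁ *ᵥ A)) (dd_self_nonneg (F₂ *ᵥ B)))
  simp only [dd_dt, H230.W.TT] at fin lo ⊢
  linarith only [fin, lo]

end Vale.Agent.P088.R2.H942.Z
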