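import Vale.Agent.P088.R2.H942.Zt5
import Vale.Agent.P088.R2.H814.B2.Tot

/-!
# P088, stage 3, zone II: the field `tot`

`cert_wq`: the certificate in the letters of helper814; `tot_II`: helper972's field `tot`, with
`κ = 16 k`.
-/

open Set Filter
open scoped ContDiff Topology Matrix

noncomputable section

namespace Vale.Agent.P088.R2.H942.Z

open Vale.Agent.P088.LR Vale.Agent.P088.R2.H961.GW
open Vale.Agent.P088.HY hiding dd dd_comm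
open Vale.Agent.P088.R2.H464.Cu hiding uf
open Vale.Agent.P088.R2.H230.W (dd dd_self_nonneg)
open Vale.Agent.P088.R2.H86.Z
open Vale.Agent.P088.R2.H983.Fl (Wn)
open Vale.Agent.P088.R2.H960.W (tc dF)

variable {n : ℕ} {O : Set (V n)} {ε δ₁ δ₂ h₀ h₁ D G K₂ γ₀ : ℝ} {w : Wn n} {s₂ : MF n} {z : VV n}
  {F₁ F₂ Ψ : Matrix (Fin n) (Fin n) ℝ} {Φ μ : ℝ → ℝ} {W : VV n → ℝ} {U : Set (VV n)}

theorem dd_FF {F S : Matrix (Fin n) (Fin n) ℝ} (hy : ∀ i j, F i j = F j i) (hq : F * F = S)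
    (A : V n) : dd (F *ᵥ A) (F *ᵥ A) = ∑ i, ∑ j, S i j * A i * A j := by
  rw [dd_sym hy, Matrix.mulVec_mulVec, hq, ← bf_dt]
  rfl

theorem half_le {F S : Matrix (Fin n) (Fin n) ℝ} (hy : ∀ i j, F i j = F j i) (hq : F * F = S)
    (lo : ∀ A : V n, ∑ i, A i ^ 2 ≤ 2 * ∑ i, ∑ j, S i j * A i * A j) (A : V n) :
    ∑ i, A i ^ 2 ≤ 2 * dd (F *ᵥ A) (F *ᵥ A) := by
  rw [dd_FF hy hq]; exact lo A

theorem wq_eq {p q : Fin n → Fin n → VV n → ℝ} (hp : ∀ a i, p a i z = F₁ a i)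
    (hq : ∀ a i, q a i z = F₂ a i) (A B : V n) :
    wq p q z A B = dd (F₁ *ᵥ A - F₂ *ᵥ B) (F₁ *ᵥ A - F₂ *ᵥ B) := by
  unfold wq H230.W.dd
  refine Finset.sum_congr rfl fun a _ => ?_
  simp only [hp, hq, Pi.sub_apply, Matrix.mulVec, dotProduct]
  ring

/-- **The certificate in the letters of helper814**, `κ = 16 k`. -/
theorem cert_wq {C c c₁ ε' τ r M b κ Λ CK g k L K₁ : ℝ} {kE : VV n → ℝ}
    {p q : Fin n → Fin n → VV n → ℝ}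
    (d : Gd O ε δ₁ δ₂ h₀ h₁ G K₂ γ₀ w s₂ z) (bw : Wl O w Φ μ W z U)
    (f : Fr2 w.s s₂ w.g ε D z F₁ F₂ Ψ) (hD : D = δ₁ * ‖dif z‖ + h₀) (hD1 : 8 * n ^ 6 * D ≤ 1)
    (H : NmW w C c c₁ ε' τ r δ₁ δ₂ h₀ h₁ D G K₂ γ₀ M b κ Λ CK kE z)
    (hp : ∀ a i, p a i z = F₁ a i) (hq : ∀ a i, q a i z = F₂ a i)
    (lo₁ : ∀ A : V n, ∑ i, A i ^ 2 ≤ 2 * ∑ i, ∑ j, w.s z.1 i j * A i * A j)
    (lo₂ : ∀ A : V n, ∑ i, A i ^ 2 ≤ 2 * ∑ i, ∑ j, s₂ z.2 i j * A i * A j)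
    (hκ : κ = 16 * k) (hg : g * r ^ 2 ≤ 4) (hL0 : 0 ≤ L) (hK1 : K₁ ≤ 3 * k)
    (hL : 8100 * L ≤ k) (A B : V n) :
    (4 * k + K₁) * ((∑ i, A i ^ 2) + ∑ i, B i ^ 2) + L * (g * wq p q z A B) ≤
      8 * (H644.Ch.TH (sx w.s) (sy s₂) W z A B + tc (sx w.s) (w.c₁ kE) W z A +
        tc (sy s₂) (w.c₂ kE) W z B) := by
  have main := cert_II d bw f hD hD1 H A B
  have Nn := H.nm
  have r0 := Nn.r0
  have k0 : 0 ≤ k := by
    have := Nn.κ0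
    rw [hκ] at this; linarith
  have a1 := half_le f.y1 f.q1 lo₁ A
  have a2 := half_le f.y2 f.q2 lo₂ B
  rw [wq_eq hp hq]
  set X := dd (F₁ *ᵥ A) (F₁ *ᵥ A) + dd (F₂ *ᵥ B) (F₂ *ᵥ B) with hX
  set Y := dd (F₁ *ᵥ A - F₂ *ᵥ B) (F₁ *ᵥ A - F₂ *ᵥ B) with hY
  have X0 : 0 ≤ X := add_nonneg (dd_self_nonneg _) (dd_self_nonneg _)
  have Y0 : 0 ≤ Y := dd_self_nonneg _
  have b1 : (4 * k + K₁) * ((∑ i, A i ^ 2) + ∑ i, B i ^ 2) ≤ 7 / 8 * κ * X := by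
    have s0 : 0 ≤ (∑ i, A i ^ 2) + ∑ i, B i ^ 2 :=
      add_nonneg (Finset.sum_nonneg fun _ _ => sq_nonneg _) (Finset.sum_nonneg fun _ _ => sq_nonneg _)
    have c1 : (4 * k + K₁) * ((∑ i, A i ^ 2) + ∑ i, B i ^ 2) ≤
        7 * k * ((∑ i, A i ^ 2) + ∑ i, B i ^ 2) :=
      mul_le_mul_of_nonneg_right (by linarith) s0
    have c2 : (∑ i, A i ^ 2) + ∑ i, B i ^ 2 ≤ 2 * X := by linarith
    have c3 := mul_le_mul_of_nonneg_left c2 (by linarith : 0 ≤ 7 * k)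
    rw [hκ]; linarith
  have b2 : L * (g * Y) ≤ 8 * (κ / (259200 * r ^ 2) * Y) := by
    have c1 : L * g ≤ 8 * (κ / (259200 * r ^ 2)) := by
      rw [hκ, ← mul_div_assoc, le_div_iff₀ (by positivity)]
      have c2 := mul_le_mul_of_nonneg_left hg (by linarith : 0 ≤ 259200 * L)
      have c3 : L * g * (259200 * r ^ 2) = 259200 * L * (g * r ^ 2) := by ring
      rw [c3]
      linarith
    have := mul_le_mul_of_nonneg_right c1 Y0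
    linarith
  have b3 : 0 ≤ (w.Φ₁ (w.u z) + Real.exp (w.u z) * H644.Fs 4 (r ^ 2)) * (4 * (c * τ)) / 2 * X := by
    have h1 : 0 ≤ w.Φ₁ (w.u z) + Real.exp (w.u z) * H644.Fs 4 (r ^ 2) := by
      have := Nn.N0
      have : 0 ≤ H644.Fs 4 (r ^ 2) := le_trans (by positivity) Nn.Gl
      have := Real.exp_pos (w.u z)
      positivity
    have h2 : 0 ≤ c * τ := mul_nonneg Nn.c0.le Nn.τ0
    positivity
  linarith

/-- The numbers `k` at a point: helper606's `(KE)` with the constant `X`. -/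
structure KN (X A₀ E N r k F₁ F₂ : ℝ) : Prop where
  X1 : 1 ≤ X
  E0 : 0 < E
  N0 : 0 ≤ N
  r0 : 0 < r
  ke : X * (1 + N ^ 2 / (E * r ^ 2) ^ 2) ≤ k
  km : k ≤ E * r ^ 2
  A0 : 0 < A₀
  f₁ : (E * r) ^ 2 ≤ A₀ * F₁
  f₂ : (E * r) ^ 2 ≤ A₀ * F₂

theorem KN.k0 {X A₀ E N r k F₁ F₂ : ℝ} (h : KN X A₀ E N r k F₁ F₂) : X ≤ k := by
  have h1 := h.ke
  have h2 : 0 ≤ N ^ 2 / (E * r ^ 2) ^ 2 := by positivity
  nlinarith [h.X1]

/-- `C (e² r² + e N + e + e (N + k)) ≤ η k F` if `X` is large. -/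
theorem KN.eQ {X A₀ E N r k F₁ F₂ F η C : ℝ} (h : KN X A₀ E N r k F₁ F₂)
    (hF : (E * r) ^ 2 ≤ A₀ * F) (_hη : 0 < η) (hC : 0 ≤ C) (hX : 5 * C * A₀ ≤ η * X) :
    C * (E ^ 2 * r ^ 2 + E * N + E + E * (N + k)) ≤ η * (k * F) := by
  have E0 := h.E0
  have r0 := h.r0
  have N0 := h.N0
  have X1 := h.X1
  have m0 : 0 < E * r ^ 2 := by positivity
  obtain ⟨m, hm⟩ : ∃ m, m = E * r ^ 2 := ⟨_, rfl⟩
  have hk0 := h.k0
  have ke := h.ke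
  have km := h.km
  rw [← hm] at m0 ke km
  have m1 : 1 ≤ m := by linarith
  -- `X m ≤ k m`, `2 X N ≤ k m`
  have a1 : X * m ≤ k * m := mul_le_mul_of_nonneg_right hk0 m0.le
  have a2 : 2 * (X * N) ≤ k * m := by
    have b1 : X * (1 + N ^ 2 / m ^ 2) * m ≤ k * m := mul_le_mul_of_nonneg_right ke m0.le
    have b2 : 2 * N ≤ (1 + N ^ 2 / m ^ 2) * m := by
      have b3 : (1 + N ^ 2 / m ^ 2) * m = (m ^ 2 + N ^ 2) / m := by field_simp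
      rw [b3, le_div_iff₀ m0]
      nlinarith [sq_nonneg (m - N)]
    have b4 := mul_le_mul_of_nonneg_left b2 (by linarith : 0 ≤ X)
    linarith
  have a3 : X * 1 ≤ k * m := by
    have := mul_le_mul_of_nonneg_left m1 (by linarith : 0 ≤ X)
    linarith
  have a4 : X * k ≤ k * m := by
    have b1 : X ≤ m := by linarith
    have := mul_le_mul_of_nonneg_left b1 (by linarith : 0 ≤ k)
    linarith
  -- `X (m + N + 1 + N + k) ≤ 5 k m`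
  have a5 : X * (m + N + 1 + (N + k)) ≤ 5 * (k * m) := by
    have : 0 ≤ k * m := by
      have : 0 ≤ k := by linarith
      positivity
    nlinarith
  have e1 : C * (E ^ 2 * r ^ 2 + E * N + E + E * (N + k)) = C * E * (m + N + 1 + (N + k)) := by
    rw [hm]; ring
  have e2 : k * (E * r) ^ 2 = E * (k * m) := by rw [hm]; ring
  have a6 : k * (E * r) ^ 2 ≤ A₀ * (k * F) := by
    have := mul_le_mul_of_nonneg_left hF (by linarith : 0 ≤ k)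
    linarith
  rw [e1]
  have X0 : 0 < X := by linarith
  have a7 : X * (C * E * (m + N + 1 + (N + k))) ≤ X * (η * (k * F)) := by
    calc X * (C * E * (m + N + 1 + (N + k))) = C * E * (X * (m + N + 1 + (N + k))) := by ring
      _ ≤ C * E * (5 * (k * m)) := mul_le_mul_of_nonneg_left a5 (by positivity)
      _ = 5 * C * (E * (k * m)) := by ring
      _ = 5 * C * (k * (E * r) ^ 2) := by rw [e2]
      _ ≤ 5 * C * (A₀ * (k * F)) := mul_le_mul_of_nonneg_left a6 (by positivity)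
      _ = 5 * C * A₀ * (k * F) := by ring
      _ ≤ η * X * (k * F) := by
          apply mul_le_mul_of_nonneg_right hX
          have b1 : 0 ≤ A₀ * (k * F) := le_trans (by
            have : 0 ≤ k := by linarith
            positivity) a6
          exact nonneg_of_mul_nonneg_right b1 h.A0
      _ = X * (η * (k * F)) := by ring
  exact le_of_mul_le_mul_left a7 X0

/-- helper814's theorem `Wb.tot` at a point (`Km`: its constant, `Mf = N + k`). -/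
def T814 (σ τ' : Sl (VV n) (Fin n)) (v₁ v₂ W : VV n → ℝ) (c c' : Fin n → VV n → ℝ)
    (p q : Fin n → Fin n → VV n → ℝ) (Km A E N r k : ℝ) (z : VV n) : Prop :=
  ∀ g L₀ ee η : ℝ, 0 ≤ g → 1 ≤ g * r ^ 2 → E ^ 2 ≤ ee →
    (∀ X Y : Fin n → ℝ, (4 * k + Km) * ((∑ i, X i ^ 2) + ∑ i, Y i ^ 2) +
      (L₀ + Km) * (g * wq p q z X Y) ≤
      8 * (H644.Ch.TH σ τ' W z X Y + tc σ c W z X + tc τ' c' W z Y)) →
    Km * (1 + A) * (E ^ 2 * r ^ 2 + E * N + E + E * (N + k)) ≤ η * (k * σ.F W z) →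
    Km * (1 + A) * (E ^ 2 * r ^ 2 + E * N + E + E * (N + k)) ≤ η * (k * τ'.F W z) →
    ∀ (X Y : Fin n → ℝ) (x y : ℝ), 4 * (k * ((∑ i, X i ^ 2) + ∑ i, Y i ^ 2)) +
      L₀ * (g * wq p q z X Y) - Km * (1 + A) * (ee * (x + y) ^ 2) -
      η * (k * σ.F W z * x ^ 2 + k * τ'.F W z * y ^ 2) ≤
      8 * (H644.Ch.TH σ τ' W z X Y + tc σ c W z X + tc τ' c' W z Y) +
      H747.S.qf σ τ' v₁ v₂ W z X Y x y +
      16 * (dF σ c W z * x ^ 2 + dF τ' c' W z * y ^ 2)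

/-- **Zone II: the field `tot`** of helper870's `PtII`. -/
theorem tot_II {C c c₁ ε' τ r M b κ Λ CK g k L₀ Km A η X A₀ ee : ℝ} {kE v₁ v₂ : VV n → ℝ}
    {p q : Fin n → Fin n → VV n → ℝ}
    (d : Gd O ε δ₁ δ₂ h₀ h₁ G K₂ γ₀ w s₂ z) (bw : Wl O w Φ μ W z U)
    (f : Fr2 w.s s₂ w.g ε D z F₁ F₂ Ψ) (hD : D = δ₁ * ‖dif z‖ + h₀) (hD1 : 8 * n ^ 6 * D ≤ 1)
    (H : NmW w C c c₁ ε' τ r δ₁ δ₂ h₀ h₁ D G K₂ γ₀ M b κ Λ CK kE z)
    (hp : ∀ a i, p a i z = F₁ a i) (hq : ∀ a i, q a i z = F₂ a i)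
    (lo₁ : ∀ A : V n, ∑ i, A i ^ 2 ≤ 2 * ∑ i, ∑ j, w.s z.1 i j * A i * A j)
    (lo₂ : ∀ A : V n, ∑ i, A i ^ 2 ≤ 2 * ∑ i, ∑ j, s₂ z.2 i j * A i * A j)
    (hκ : κ = 16 * k) (hg0 : 0 ≤ g) (hg1 : 1 ≤ g * r ^ 2) (hg : g * r ^ 2 ≤ 4)
    (he : Real.exp (w.u z) ^ 2 ≤ ee)
    (T : T814 (sx w.s) (sy s₂) v₁ v₂ W (w.c₁ kE) (w.c₂ kE) p q Km A (Real.exp (w.u z))
      (w.Φ₁ (w.u z)) r k z)
    (kn : KN X A₀ (Real.exp (w.u z)) (w.Φ₁ (w.u z)) r k ((sx w.s).F W z) ((sy s₂).F W z))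
    (hKm : 0 ≤ Km) (hA : 0 ≤ A) (hL : 0 ≤ L₀) (hη : 0 < η)
    (x1 : 8100 * (L₀ + Km) ≤ X) (x2 : 5 * (Km * (1 + A)) * A₀ ≤ η * X)
    (Y Y' : Fin n → ℝ) (x y : ℝ) :
    4 * (k * ((∑ i, Y i ^ 2) + ∑ i, Y' i ^ 2)) +
      L₀ * (g * wq p q z Y Y') - Km * (1 + A) * (ee * (x + y) ^ 2) -
      η * (k * (sx w.s).F W z * x ^ 2 + k * (sy s₂).F W z * y ^ 2) ≤
      8 * (H644.Ch.TH (sx w.s) (sy s₂) W z Y Y' + tc (sx w.s) (w.c₁ kE) W z Y +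
        tc (sy s₂) (w.c₂ kE) W z Y') +
      H747.S.qf (sx w.s) (sy s₂) v₁ v₂ W z Y Y' x y +
      16 * (dF (sx w.s) (w.c₁ kE) W z * x ^ 2 + dF (sy s₂) (w.c₂ kE) W z * y ^ 2) := by
  have hk := kn.k0
  have X1 := kn.X1
  refine T g L₀ ee η hg0 hg1 he (fun A B => ?_) (kn.eQ kn.f₁ hη (by positivity) x2)
    (kn.eQ kn.f₂ hη (by positivity) x2) Y Y' x y
  exact cert_wq d bw f hD hD1 H hp hq lo₁ lo₂ hκ hg (by positivity) (by linarith) (by linarith) A B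

end Vale.Agent.P088.R2.H942.Z
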