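import Vale.Agent.P088.R2.H942.Zt6
import Vale.Agent.P088.R2.H983.Fl.Zj

/-!
# P088, stage 3, zone II: helper814's hypotheses of `tot`

`fb_II`: the bounds of helper983's fields in helper814's letters, `M = N + k`;
`t814`: helper814's theorem in the form used in `tot_II`.
-/

open Set Filter
open scoped ContDiff Topology Matrix

noncomputable section

namespace Vale.Agent.P088.R2.H942.Z

open Vale.Agent.P088.LR Vale.Agent.P088.R2.H961.GW
open Vale.Agent.P088.HY hiding dd dd_comm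
open Vale.Agent.P088.R2.H464.Cu hiding uf
open Vale.Agent.P088.R2.H86.Z
open Vale.Agent.P088.R2.H983.Fl (Wn P1 Cz Xz un_sx un_sy)
open Vale.Agent.P088.R2.H960.W (tc dF)
open Vale.Agent.P088.R2.H814.An

variable {n : ℕ}

/-- helper814's `Wb.tot` in the letters of `tot_II`. -/
theorem t814 {α : Type*} {P : Fin n → VV n} {Q : Fin n ⊕ Fin n → VV n}
    {σ τ : α → Sl (VV n) (Fin n)} {U : α → Set (VV n)} {θ : α → VV n → ℝ}
    {r e N : α → VV n → ℝ} {W : α → VV n → ℝ} {p q : α → Fin n → Fin n → VV n → ℝ}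
    (h : Wb P Q σ τ U θ r e N W) (w : Wf P Q σ τ U r p q) {v₁ v₂ : α → VV n → ℝ}
    (hv₁ : ∀ i, OO U o1 fun a => (σ a).D i (v₁ a)) (hv₂ : ∀ i, OO U o1 fun a => (τ a).D i (v₂ a)) :
    ∃ K, 0 ≤ K ∧ ∀ a, ∀ z ∈ U a, ∀ (c c' : Fin n → VV n → ℝ) (A k : ℝ),
      Fb (σ a) (τ a) (U a) c c' (e a z) (r a z) A (N a z + k) z →
      T814 (σ a) (τ a) (v₁ a) (v₂ a) (W a) c c' (p a) (q a) K A (e a z) (N a z) (r a z) k z := by
  obtain ⟨K, K0, H⟩ := h.tot w hv₁ hv₂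
  refine ⟨K, K0, fun a z hz c c' A k hf g L₀ ee η hg h1 hee hc hF hF' X Y x y => ?_⟩
  have e1 : eQ r e N a z + e a z * (N a z + k) =
      e a z ^ 2 * r a z ^ 2 + e a z * N a z + e a z + e a z * (N a z + k) := by
    unfold eQ eT; ring
  exact H a z hz c c' A (N a z + k) hf g k L₀ ee η hg h1 hee hc (by rw [e1]; exact hF)
    (by rw [e1]; exact hF') X Y x y

variable {w : Wn n} {s₂ : MF n} {z : VV n} {B : ℝ} {kE : VV n → ℝ} {k : ℝ} {U : Set (VV n)}

/-- **The fields** in helper814's letters. -/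
theorem fb_II (h : w.Ok B z) (hc : ∀ i, Sm U (w.c₁ kE i)) (hc' : ∀ i, Sm U (w.c₂ kE i))
    (hk1 : P1 (sx w.s) (√(w.r2 z)) z B kE 16 (k / Real.exp (w.u z)))
    (hk2 : P1 (sy s₂) (√(w.r2 z)) z B kE 16 (k / Real.exp (w.u z)))
    (hx : k / Real.exp (w.u z) ≤ √(w.r2 z)) :
    Fb (sx w.s) (sy s₂) U (w.c₁ kE) (w.c₂ kE) (Real.exp (w.u z)) (√(w.r2 z)) (3 * Cz B)
      (w.Φ₁ (w.u z) + k) z := by
  have hE := Real.exp_pos (w.u z)
  have hr := h.rp
  have hrr := h.rr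
  have C0 : 0 ≤ Cz B := by
    unfold Cz
    have := h.B8
    have : 0 < B := by linarith
    positivity
  have hf := h.fb (σ := sx w.s) (un_sx w.s) hk1 hx
  have hf' := h.fb (σ := sy s₂) (un_sy s₂) hk2 hx
  have en : Real.exp (w.u z) * w.nu z = w.Φ₁ (w.u z) := by
    unfold Wn.nu; field_simp
  have ek : Real.exp (w.u z) * (k / Real.exp (w.u z)) = k := by field_simp
  have x0 : 0 ≤ k / Real.exp (w.u z) := hk1.x0 h.B2
  have k0 : 0 ≤ k := by rw [← ek]; positivity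
  have n0 := h.Φ0
  set E := Real.exp (w.u z) with hEd
  set r := √(w.r2 z) with hrd
  obtain ⟨Q, hQ⟩ : ∃ Q, Q = Cz B := ⟨_, rfl⟩
  rw [← hQ] at C0 hf hf' ⊢
  have key : E * r ^ 2 * (1 + w.nu z / w.r2 z + k / E / w.r2 z) =
      E * r ^ 2 + (w.Φ₁ (w.u z) + k) := by
    rw [← hrr]
    have r2 : r ^ 2 ≠ 0 := by positivity
    have : E * r ^ 2 * (1 + w.nu z / r ^ 2 + k / E / r ^ 2) =
        E * r ^ 2 + (E * w.nu z + E * (k / E)) := by field_simp; ring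
    rw [this, en, ek]
  have dcg : ∀ x : ℝ, |x| ≤ 2 * Q * (1 + w.nu z / w.r2 z + k / E / w.r2 z) →
      E * r ^ 2 * |x| ≤ 3 * Q * (E * r ^ 2 + (w.Φ₁ (w.u z) + k)) := by
    intro x hx'
    have a1 := mul_le_mul_of_nonneg_left hx' (by positivity : 0 ≤ E * r ^ 2)
    have a2 : E * r ^ 2 * (2 * Q * (1 + w.nu z / w.r2 z + k / E / w.r2 z)) =
        2 * Q * (E * r ^ 2 + (w.Φ₁ (w.u z) + k)) := by rw [← key]; ring
    rw [a2] at a1
    have : 0 ≤ Q * (E * r ^ 2 + (w.Φ₁ (w.u z) + k)) := by positivity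
    linarith
  refine ⟨hc, hc', by positivity, by positivity, fun j => (hf.1 j).1, fun j => (hf.1 j).2.1,
    fun j => ?_, fun j => dcg _ (hf.2 j j).1, fun j => dcg _ (hf'.2 j j).2⟩
  have a1 := mul_le_mul_of_nonneg_left (hf.1 j).2.2 (by positivity : 0 ≤ E * r)
  have a2 : E * r * (2 * Q * Xz (w.nu z) r (k / E)) =
      2 * Q * (E * r ^ 2 + (w.Φ₁ (w.u z) + k)) := by
    have : E * r * Xz (w.nu z) r (k / E) = E * r ^ 2 + (E * w.nu z + E * (k / E)) := by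
      unfold Xz; field_simp
      ring
    rw [en, ek] at this
    rw [← this]; ring
  rw [a2] at a1
  have : 0 ≤ Q * (E * r ^ 2 + (w.Φ₁ (w.u z) + k)) := by positivity
  linarith

end Vale.Agent.P088.R2.H942.Z
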