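import Vale.Agent.P088.R2.H942.Zt6

/-!
# P088, stage 3, zone II: the field `tot` with some room

As `cert_wq`, `tot_II`, with `12 k ≤ κ` (so that `k` may be `5/4` of the literal margin, `κ = 16 k`).
-/

open Set Filter
open scoped ContDiff Topology Matrix

noncomputable section

namespace Vale.Agent.P088.R2.H942.Z

open Vale.Agent.P088.LR Vale.Agent.P088.R2.H961.GW
open Vale.Agent.P088.HY hiding dd dd_comm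
open Vale.Agent.P088.R2.H464.Cu hiding uf
open Vale.Agent.P088.R2.H230.W (dd dd_self_nonneg)
open Vale.Agent.P088.R2.H86.Z
open Vale.Agent.P088.R2.H983.Fl (Wn)
open Vale.Agent.P088.R2.H960.W (tc dF)

variable {n : ℕ} {O : Set (V n)} {ε δ₁ δ₂ h₀ h₁ D G K₂ γ₀ : ℝ} {w : Wn n} {s₂ : MF n} {z : VV n}
  {F₁ F₂ Ψ : Matrix (Fin n) (Fin n) ℝ} {Φ μ : ℝ → ℝ} {W : VV n → ℝ} {U : Set (VV n)}

/-- **The certificate in the letters of helper814**, `12 k ≤ κ`. -/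
theorem cert_wq' {C c c₁ ε' τ r M b κ Λ CK g k L K₁ : ℝ} {kE : VV n → ℝ}
    {p q : Fin n → Fin n → VV n → ℝ}
    (d : Gd O ε δ₁ δ₂ h₀ h₁ G K₂ γ₀ w s₂ z) (bw : Wl O w Φ μ W z U)
    (f : Fr2 w.s s₂ w.g ε D z F₁ F₂ Ψ) (hD : D = δ₁ * ‖dif z‖ + h₀) (hD1 : 8 * n ^ 6 * D ≤ 1)
    (H : NmW w C c c₁ ε' τ r δ₁ δ₂ h₀ h₁ D G K₂ γ₀ M b κ Λ CK kE z)
    (hp : ∀ a i, p a i z = F₁ a i) (hq : ∀ a i, q a i z = F₂ a i)
    (lo₁ : ∀ A : V n, ∑ i, A i ^ 2 ≤ 2 * ∑ i, ∑ j, w.s z.1 i j * A i * A j)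
    (lo₂ : ∀ A : V n, ∑ i, A i ^ 2 ≤ 2 * ∑ i, ∑ j, s₂ z.2 i j * A i * A j)
    (hκ : 12 * k ≤ κ) (k0 : 0 ≤ k) (hg : g * r ^ 2 ≤ 4) (hL0 : 0 ≤ L) (hK1 : K₁ ≤ k)
    (hL : 10800 * L ≤ k) (A B : V n) :
    (4 * k + K₁) * ((∑ i, A i ^ 2) + ∑ i, B i ^ 2) + L * (g * wq p q z A B) ≤
      8 * (H644.Ch.TH (sx w.s) (sy s₂) W z A B + tc (sx w.s) (w.c₁ kE) W z A +
        tc (sy s₂) (w.c₂ kE) W z B) := by
  have main := cert_II d bw f hD hD1 H A B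
  have Nn := H.nm
  have r0 := Nn.r0
  have a1 := half_le f.y1 f.q1 lo₁ A
  have a2 := half_le f.y2 f.q2 lo₂ B
  rw [wq_eq hp hq]
  set X := dd (F₁ *ᵥ A) (F₁ *ᵥ A) + dd (F₂ *ᵥ B) (F₂ *ᵥ B) with hX
  set Y := dd (F₁ *ᵥ A - F₂ *ᵥ B) (F₁ *ᵥ A - F₂ *ᵥ B) with hY
  have X0 : 0 ≤ X := add_nonneg (dd_self_nonneg _) (dd_self_nonneg _)
  have Y0 : 0 ≤ Y := dd_self_nonneg _
  have b1 : (4 * k + K₁) * ((∑ i, A i ^ 2) + ∑ i, B i ^ 2) ≤ 7 / 8 * κ * X := by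
    have s0 : 0 ≤ (∑ i, A i ^ 2) + ∑ i, B i ^ 2 :=
      add_nonneg (Finset.sum_nonneg fun _ _ => sq_nonneg _) (Finset.sum_nonneg fun _ _ => sq_nonneg _)
    have c1 : (4 * k + K₁) * ((∑ i, A i ^ 2) + ∑ i, B i ^ 2) ≤
        5 * k * ((∑ i, A i ^ 2) + ∑ i, B i ^ 2) :=
      mul_le_mul_of_nonneg_right (by linarith) s0
    have c2 : (∑ i, A i ^ 2) + ∑ i, B i ^ 2 ≤ 2 * X := by linarith
    have c3 := mul_le_mul_of_nonneg_left c2 (by linarith : 0 ≤ 5 * k)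
    have c4 : 10 * k * X ≤ 7 / 8 * κ * X := mul_le_mul_of_nonneg_right (by linarith) X0
    linarith
  have b2 : L * (g * Y) ≤ 8 * (κ / (259200 * r ^ 2) * Y) := by
    have c1 : L * g ≤ 8 * (κ / (259200 * r ^ 2)) := by
      rw [← mul_div_assoc, le_div_iff₀ (by positivity)]
      have c2 := mul_le_mul_of_nonneg_left hg (by linarith : 0 ≤ 259200 * L)
      have c3 : L * g * (259200 * r ^ 2) = 259200 * L * (g * r ^ 2) := by ring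
      rw [c3]
      linarith
    have := mul_le_mul_of_nonneg_right c1 Y0
    linarith
  have b3 : 0 ≤ (w.Φ₁ (w.u z) + Real.exp (w.u z) * H644.Fs 4 (r ^ 2)) * (4 * (c * τ)) / 2 * X := by
    have h1 : 0 ≤ w.Φ₁ (w.u z) + Real.exp (w.u z) * H644.Fs 4 (r ^ 2) := by
      have := Nn.N0
      have : 0 ≤ H644.Fs 4 (r ^ 2) := le_trans (by positivity) Nn.Gl
      have := Real.exp_pos (w.u z)
      positivity
    have h2 : 0 ≤ c * τ := mul_nonneg Nn.c0.le Nn.τ0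
    positivity
  linarith

/-- **Zone II: the field `tot`**, `12 k ≤ κ`. -/
theorem tot_II' {C c c₁ ε' τ r M b κ Λ CK g k L₀ Km A η X A₀ ee : ℝ} {kE v₁ v₂ : VV n → ℝ}
    {p q : Fin n → Fin n → VV n → ℝ}
    (d : Gd O ε δ₁ δ₂ h₀ h₁ G K₂ γ₀ w s₂ z) (bw : Wl O w Φ μ W z U)
    (f : Fr2 w.s s₂ w.g ε D z F₁ F₂ Ψ) (hD : D = δ₁ * ‖dif z‖ + h₀) (hD1 : 8 * n ^ 6 * D ≤ 1)
    (H : NmW w C c c₁ ε' τ r δ₁ δ₂ h₀ h₁ D G K₂ γ₀ M b κ Λ CK kE z)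
    (hp : ∀ a i, p a i z = F₁ a i) (hq : ∀ a i, q a i z = F₂ a i)
    (lo₁ : ∀ A : V n, ∑ i, A i ^ 2 ≤ 2 * ∑ i, ∑ j, w.s z.1 i j * A i * A j)
    (lo₂ : ∀ A : V n, ∑ i, A i ^ 2 ≤ 2 * ∑ i, ∑ j, s₂ z.2 i j * A i * A j)
    (hκ : 12 * k ≤ κ) (hg0 : 0 ≤ g) (hg1 : 1 ≤ g * r ^ 2) (hg : g * r ^ 2 ≤ 4)
    (he : Real.exp (w.u z) ^ 2 ≤ ee)
    (T : T814 (sx w.s) (sy s₂) v₁ v₂ W (w.c₁ kE) (w.c₂ kE) p q Km A (Real.exp (w.u z))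
      (w.Φ₁ (w.u z)) r k z)
    (kn : KN X A₀ (Real.exp (w.u z)) (w.Φ₁ (w.u z)) r k ((sx w.s).F W z) ((sy s₂).F W z))
    (hKm : 0 ≤ Km) (hA : 0 ≤ A) (hL : 0 ≤ L₀) (hη : 0 < η)
    (x1 : 10800 * (L₀ + Km) ≤ X) (x2 : 5 * (Km * (1 + A)) * A₀ ≤ η * X)
    (Y Y' : Fin n → ℝ) (x y : ℝ) :
    4 * (k * ((∑ i, Y i ^ 2) + ∑ i, Y' i ^ 2)) +
      L₀ * (g * wq p q z Y Y') - Km * (1 + A) * (ee * (x + y) ^ 2) -
      η * (k * (sx w.s).F W z * x ^ 2 + k * (sy s₂).F W z * y ^ 2) ≤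
      8 * (H644.Ch.TH (sx w.s) (sy s₂) W z Y Y' + tc (sx w.s) (w.c₁ kE) W z Y +
        tc (sy s₂) (w.c₂ kE) W z Y') +
      H747.S.qf (sx w.s) (sy s₂) v₁ v₂ W z Y Y' x y +
      16 * (dF (sx w.s) (w.c₁ kE) W z * x ^ 2 + dF (sy s₂) (w.c₂ kE) W z * y ^ 2) := by
  have hk := kn.k0
  have X1 := kn.X1
  refine T g L₀ ee η hg0 hg1 he (fun A B => ?_) (kn.eQ kn.f₁ hη (by positivity) x2)
    (kn.eQ kn.f₂ hη (by positivity) x2) Y Y' x y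
  exact cert_wq' d bw f hD hD1 H hp hq lo₁ lo₂ hκ (by linarith) hg (by positivity) (by linarith)
    (by linarith) A B

end Vale.Agent.P088.R2.H942.Z
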